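import Vale.Agent.P080.Visc

namespace Vale.Agent.P080

open Metric Set Filter Topology
open scoped RealInnerProductSpace

variable {E : Type*} [NormedAddCommGroup E] [InnerProductSpace ℝ E]

lemma exists_slope [CompleteSpace E] {u v : E → ℝ} (hu : Lip u) (hv : ∀ x, v x = - u x)
    {ϑ μ R : ℝ} (hϑ0 : 0 < ϑ) (hϑ1 : ϑ < 1) (hμ0 : 0 < μ) (hμ1 : μ < 1) (hR : 0 < R) {y : E}
    (h : ∀ k : ℕ, Par u y (μ ^ k * R) ((ϑ ^ k) ^ 2 * (μ ^ k * R)) ∧
      Par v y (μ ^ k * R) ((ϑ ^ k) ^ 2 * (μ ^ k * R))) :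
    ∃ p : E, ‖p‖ ≤ 4 + 6 / μ / (1 - ϑ) ∧ ∀ k : ℕ, ∀ x, ‖x‖ ≤ (ϑ * μ) ^ k * R →
      |u (y + x) - u y - ⟪p, x⟫| ≤ (5 + 6 / μ / (1 - ϑ)) * ϑ ^ k * ((ϑ * μ) ^ k * R) := by
  choose p hp using fun k => (h k).1
  choose q hq using fun k => (h k).2
  have hRk : ∀ k : ℕ, 0 < μ ^ k * R := fun k => by positivity
  have h1 : ∀ k, ‖p k + q k‖ ≤ 3 * ϑ ^ k := by
    intro k
    have := SL hv (hRk k) (hRk k) (hp k) (hq k)
    have e : 2 * ((ϑ ^ k) ^ 2 * (μ ^ k * R) + (ϑ ^ k) ^ 2 * (μ ^ k * R))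
        * (1 / (μ ^ k * R) + 1 / (μ ^ k * R)) = 8 * (ϑ ^ k) ^ 2 := by field_simp; ring
    rw [e] at this
    exact (abs_le_of_sq_le_sq' (by nlinarith [sq_nonneg (ϑ ^ k)]) (by positivity)).2
  have h2 : ∀ k, ‖p (k + 1) + q k‖ ≤ 3 / μ * ϑ ^ k := by
    intro k
    have m1 : μ ^ (k + 1) * R ≤ μ ^ k * R := by
      gcongr ?_ * _; exact pow_le_pow_of_le_one hμ0.le hμ1.le (by omega)
    have m2 : ϑ ^ (k + 1) ≤ ϑ ^ k := pow_le_pow_of_le_one hϑ0.le hϑ1.le (by omega)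
    have := SL hv (hRk (k + 1)) (hRk (k + 1))
      ((hp (k + 1)).mono (hRk (k + 1)) le_rfl
        (by gcongr : _ ≤ (ϑ ^ k) ^ 2 * (μ ^ k * R))) ((hq k).mono (hRk (k + 1)) m1 le_rfl)
    have e : 2 * ((ϑ ^ k) ^ 2 * (μ ^ k * R) + (ϑ ^ k) ^ 2 * (μ ^ k * R))
        * (1 / (μ ^ (k + 1) * R) + 1 / (μ ^ (k + 1) * R)) = 8 * μ * (ϑ ^ k / μ) ^ 2 := by
      field_simp; ring
    rw [e] at this
    apply (abs_le_of_sq_le_sq' _ (by positivity)).2
    have e2 : (3 / μ * ϑ ^ k) ^ 2 = 9 * (ϑ ^ k / μ) ^ 2 := by ring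
    rw [e2]
    nlinarith [sq_nonneg (ϑ ^ k / μ)]
  have h3 : ∀ k, dist (p k) (p (k + 1)) ≤ 6 / μ * ϑ ^ k := by
    intro k
    have m1 := norm_sub_le (p k + q k) (p (k + 1) + q k)
    rw [add_sub_add_right_eq_sub] at m1
    have m2 : 3 ≤ 3 / μ := by rw [le_div_iff₀ hμ0]; linarith
    have m3 : 3 * ϑ ^ k ≤ 3 / μ * ϑ ^ k := by gcongr
    have m4 : 6 / μ * ϑ ^ k = 3 / μ * ϑ ^ k + 3 / μ * ϑ ^ k := by ring
    rw [dist_eq_norm]
    linarith [h1 k, h2 k]
  obtain ⟨P, hP⟩ := cauchySeq_tendsto_of_complete (cauchySeq_of_le_geometric ϑ (6 / μ) hϑ1 h3)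
  have h4 : ∀ k, ‖p k - P‖ ≤ 6 / μ / (1 - ϑ) * ϑ ^ k := by
    intro k
    have := dist_le_of_le_geometric_of_tendsto ϑ (6 / μ) hϑ1 h3 hP k
    rw [dist_eq_norm] at this
    refine this.trans (le_of_eq ?_)
    ring
  set C := 6 / μ / (1 - ϑ) with hC
  have hC0 : 0 ≤ C := by
    have : 0 < 1 - ϑ := by linarith
    positivity
  refine ⟨P, ?_, fun k x hx => ?_⟩
  · have m1 := (hp 0).norm_le hu (hRk 0) (by simp; linarith)
    have m2 := h4 0
    have m3 := norm_sub_le (p 0) (p 0 - P)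
    rw [sub_sub_cancel] at m3
    rw [pow_zero, mul_one] at m2
    linarith
  · have k1 := hp k x
    have k2 := hq k x
    rw [hv, hv] at k2
    set t := (ϑ * μ) ^ k * R with ht
    have ht0 : 0 < t := by positivity
    have hϑk : 0 < ϑ ^ k := by positivity
    have e1 : (ϑ ^ k) ^ 2 * (μ ^ k * R) = ϑ ^ k * t := by rw [ht, mul_pow]; ring
    have e2 : ‖x‖ ^ 2 / (2 * (μ ^ k * R)) ≤ ϑ ^ k * t / 2 := by
      have : ϑ ^ k * t / 2 = t ^ 2 / (2 * (μ ^ k * R)) := by rw [ht, mul_pow]; field_simp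
      rw [this]; gcongr
    have k3 : ⟪p k - P, x⟫ ≤ C * ϑ ^ k * t :=
      (real_inner_le_norm _ _).trans (by gcongr; exact h4 k)
    have k4 : ⟪q k + P, x⟫ ≤ (3 * ϑ ^ k + C * ϑ ^ k) * t := by
      refine (real_inner_le_norm _ _).trans ?_
      gcongr
      have m1 := norm_sub_le (p k + q k) (p k - P)
      have e3 : p k + q k - (p k - P) = q k + P := by abel
      rw [e3] at m1
      linarith [h1 k, h4 k]
    rw [inner_sub_left] at k3
    rw [inner_add_left] at k4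
    rw [e1] at k1 k2
    have k5 : 0 ≤ ϑ ^ k * t := by positivity
    rw [abs_le]
    constructor <;> linarith

lemma hasGradientAt_of_scales [CompleteSpace E] {u : E → ℝ} {ϑ ν R C : ℝ} (hϑ0 : 0 < ϑ)
    (hϑ1 : ϑ < 1) (hν0 : 0 < ν) (hν1 : ν < 1) (hR : 0 < R) (hC : 0 < C) {y p : E}
    (h : ∀ k : ℕ, ∀ x, ‖x‖ ≤ ν ^ k * R → |u (y + x) - u y - ⟪p, x⟫| ≤ C * ϑ ^ k * (ν ^ k * R)) :
    HasGradientAt u p y := by
  rw [hasGradientAt_iff_hasFDerivAt, hasFDerivAt_iff_isLittleO_nhds_zero,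
    Asymptotics.isLittleO_iff]
  intro ε hε
  obtain ⟨k0, hk0⟩ := exists_pow_lt_of_lt_one (by positivity : 0 < ε * ν / C) hϑ1
  have hball : ∀ᶠ x : E in 𝓝 0, ‖x‖ < ν ^ k0 * R :=
    ContinuousAt.eventually_lt (by fun_prop) continuousAt_const (by simp; positivity)
  filter_upwards [hball] with x hx
  rw [InnerProductSpace.toDual_apply_apply, Real.norm_eq_abs]
  rcases (norm_nonneg x).eq_or_lt with h0 | h0
  · have : x = 0 := norm_eq_zero.1 h0.symm
    rw [this]; simp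
  have hνk : ν ^ k0 ≤ 1 := pow_le_one₀ hν0.le hν1.le
  have hx1 : ‖x‖ / R ≤ 1 := by rw [div_le_one hR]; nlinarith
  obtain ⟨k, hk1, hk2⟩ := exists_nat_pow_near_of_lt_one (by positivity : 0 < ‖x‖ / R) hx1 hν0 hν1
  rw [lt_div_iff₀ hR] at hk1
  rw [div_le_iff₀ hR] at hk2
  have hkk : k0 ≤ k := by
    have : ν ^ (k + 1) < ν ^ k0 := lt_of_mul_lt_mul_right (hk1.trans hx) hR.le
    have := (pow_lt_pow_iff_right_of_lt_one₀ hν0 hν1).1 this
    omega
  have m1 : ϑ ^ k ≤ ϑ ^ k0 := pow_le_pow_of_le_one hϑ0.le hϑ1.le hkk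
  have m2 : C * ϑ ^ k ≤ ε * ν := by
    rw [lt_div_iff₀ hC] at hk0
    nlinarith
  refine (h k x hk2).trans ?_
  calc C * ϑ ^ k * (ν ^ k * R) ≤ ε * ν * (ν ^ k * R) := by gcongr
    _ = ε * (ν ^ (k + 1) * R) := by ring
    _ ≤ ε * ‖x‖ := by gcongr

lemma slope_diff {u : E → ℝ} {A t : ℝ} (ht : 0 < t) {x y p q : E}
    (hx : ∀ h, ‖h‖ ≤ t → |u (x + h) - u x - ⟪p, h⟫| ≤ A * t)
    (hy : ∀ h, ‖h‖ ≤ t → |u (y + h) - u y - ⟪q, h⟫| ≤ A * t) (hxy : ‖x - y‖ ≤ t / 2) :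
    ‖p - q‖ ≤ 6 * A := by
  have hA : 0 ≤ A := by
    have := hx 0 (by simp; linarith)
    simp at this
    exact nonneg_of_mul_nonneg_left this ht
  rcases (norm_nonneg (p - q)).eq_or_lt with h0 | h0
  · linarith
  set h := (t / 2 / ‖p - q‖) • (p - q) with hh
  have hn : ‖h‖ = t / 2 := by
    rw [hh, norm_smul, Real.norm_eq_abs, abs_of_pos (by positivity)]; field_simp
  have hi : ⟪p, h⟫ - ⟪q, h⟫ = t / 2 * ‖p - q‖ := by
    rw [← inner_sub_left, hh, inner_smul_right, real_inner_self_eq_norm_sq]; field_simp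
  have k1 := hy h (by linarith)
  have k2 := hx (y - x + h) (by
    have := norm_add_le (y - x) h
    rw [norm_sub_rev] at hxy
    linarith)
  have k3 := hx (y - x) (by rw [norm_sub_rev]; linarith)
  rw [← add_assoc, add_sub_cancel, inner_add_right] at k2
  rw [add_sub_cancel] at k3
  rw [abs_le] at k1 k2 k3
  have : t * ‖p - q‖ ≤ t * (6 * A) := by linarith
  exact le_of_mul_le_mul_left this ht

lemma holder_of_scales {ϑ ν R C : ℝ} (hϑ0 : 0 < ϑ) (hϑ1 : ϑ < 1) (hν0 : 0 < ν) (hν1 : ν < 1)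
    (hR : 0 < R) (hC : 0 ≤ C) {a t : ℝ} (ht : 0 < t) (h0 : a ≤ C)
    (h : ∀ k : ℕ, t ≤ ν ^ k * R → a ≤ C * ϑ ^ k) :
    a ≤ C / ϑ / R ^ (Real.log ϑ / Real.log ν) * t ^ (Real.log ϑ / Real.log ν) := by
  set α := Real.log ϑ / Real.log ν with hα
  have hlν : Real.log ν < 0 := Real.log_neg hν0 hν1
  have hα0 : 0 < α := div_pos_of_neg_of_neg (Real.log_neg hϑ0 hϑ1) hlν
  have hνα : ν ^ α = ϑ := by
    rw [Real.rpow_def_of_pos hν0, hα, mul_div_cancel₀ _ hlν.ne, Real.exp_log hϑ0]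
  have e : C / ϑ / R ^ α * t ^ α = C / ϑ * (t / R) ^ α := by
    rw [Real.div_rpow ht.le hR.le]; ring
  rw [e]
  by_cases htR : t / R ≤ 1
  · obtain ⟨k, hk1, hk2⟩ := exists_nat_pow_near_of_lt_one (by positivity : 0 < t / R) htR hν0 hν1
    have m1 := h k (by rwa [div_le_iff₀ hR] at hk2)
    have m2 : ϑ ^ (k + 1) ≤ (t / R) ^ α := by
      rw [← hνα, ← Real.rpow_natCast, ← Real.rpow_mul hν0.le, mul_comm, Real.rpow_mul hν0.le,
        Real.rpow_natCast]
      exact Real.rpow_le_rpow (by positivity) hk1.le hα0.le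
    calc a ≤ C * ϑ ^ k := m1
      _ = C / ϑ * ϑ ^ (k + 1) := by rw [pow_succ]; field_simp
      _ ≤ C / ϑ * (t / R) ^ α := by gcongr
  · push Not at htR
    have m1 : 1 ≤ (t / R) ^ α := Real.one_le_rpow htR.le hα0.le
    have m2 : C ≤ C / ϑ := by rw [le_div_iff₀ hϑ0]; nlinarith
    have m3 : C / ϑ * 1 ≤ C / ϑ * (t / R) ^ α := by gcongr
    linarith

theorem reg_core : ∃ α C : ℝ, 0 < α ∧ 0 < C ∧
    ∀ (E : Type) [NormedAddCommGroup E] [InnerProductSpace ℝ E] [ProperSpace E]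
      (u v : E → ℝ), Lip u → (∀ x, v x = - u x) →
      (∀ y : E, ‖y‖ ≤ 5 / 8 → Cvx u (1 / 16) y ∧ Cvx v (1 / 16) y) →
      ∃ p : E → E, ∀ x : E, ‖x‖ ≤ 9 / 16 → HasGradientAt u (p x) x ∧ ‖p x‖ ≤ C ∧
        ∀ y : E, ‖y‖ ≤ 9 / 16 → ‖p x - p y‖ ≤ C * ‖x - y‖ ^ α := by
  obtain ⟨ϑ, μ, R, hϑ0, hϑ1, hμ0, hμ1, hR, H⟩ := all_scales
  set C1 := 5 + 6 / μ / (1 - ϑ) with hC1
  have hC10 : 0 ≤ 6 / μ / (1 - ϑ) := by
    have : 0 < 1 - ϑ := by linarith
    positivity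
  have hC11 : 0 < C1 := by linarith
  have hν0 : 0 < ϑ * μ := by positivity
  have hν1 : ϑ * μ < 1 := by nlinarith
  set α := Real.log ϑ / Real.log (ϑ * μ) with hα
  have hα0 : 0 < α := div_pos_of_neg_of_neg (Real.log_neg hϑ0 hϑ1) (Real.log_neg hν0 hν1)
  have hC2 : 0 < 6 * C1 / ϑ / (R / 2) ^ α := by positivity
  refine ⟨α, C1 + 6 * C1 / ϑ / (R / 2) ^ α, hα0, by positivity, ?_⟩
  intro E _ _ _ u v hu hv hcv
  have h1 : ∀ y : E, ∃ p : E, ‖y‖ ≤ 9 / 16 → (‖p‖ ≤ 4 + 6 / μ / (1 - ϑ) ∧ ∀ k : ℕ, ∀ x,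
      ‖x‖ ≤ (ϑ * μ) ^ k * R → |u (y + x) - u y - ⟪p, x⟫| ≤ C1 * ϑ ^ k * ((ϑ * μ) ^ k * R)) := by
    intro y
    by_cases hy : ‖y‖ ≤ 9 / 16
    · obtain ⟨p, hp⟩ := exists_slope hu hv hϑ0 hϑ1 hμ0 hμ1 hR (fun k => H E u v hu hv hcv k y hy)
      exact ⟨p, fun _ => hp⟩
    · exact ⟨0, fun h => absurd h hy⟩
  choose p hp using h1
  refine ⟨p, fun x hx => ⟨hasGradientAt_of_scales hϑ0 hϑ1 hν0 hν1 hR hC11 (hp x hx).2,
    by linarith [(hp x hx).1], fun y hy => ?_⟩⟩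
  rcases (norm_nonneg (x - y)).eq_or_lt with h0 | h0
  · have : x = y := sub_eq_zero.1 (norm_eq_zero.1 h0.symm)
    rw [this, sub_self, norm_zero]
    positivity
  have := holder_of_scales hϑ0 hϑ1 hν0 hν1 (by positivity : 0 < R / 2)
    (by positivity : 0 ≤ 6 * C1) h0 (a := ‖p x - p y‖)
    (by linarith [norm_sub_le (p x) (p y), (hp x hx).1, (hp y hy).1])
    (fun k hk => by
      have := slope_diff (by positivity : 0 < (ϑ * μ) ^ k * R) ((hp x hx).2 k) ((hp y hy).2 k)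
        (by linarith)
      linarith)
  refine this.trans ?_
  gcongr
  linarith

omit [InnerProductSpace ℝ E] in
lemma CC.congr {u u' : E → ℝ} {x : E} {r : ℝ} (h : CC u x r) (he : ∀ y, ‖y - x‖ ≤ r → u y = u' y) :
    CC u' x r := by
  intro ρ₁ ρ ρ₂ M₁ M₂ h0 h1 h2 h3 hM1 hM2 y hy
  rw [← he y (by linarith)]
  exact h ρ₁ ρ ρ₂ M₁ M₂ h0 h1 h2 h3 (fun w hw => by rw [he w (by linarith)]; exact hM1 w hw)
    (fun w hw => by rw [he w (by linarith)]; exact hM2 w hw) y hy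

lemma CC.scale {u : E → ℝ} {x0 z : E} {r a s : ℝ} (hr : 0 < r) (ha : 0 < a)
    (h : CC u (x0 + r • z) (r * s)) : CC (fun y => u (x0 + r • y) / a) z s := by
  intro ρ₁ ρ ρ₂ M₁ M₂ h0 h1 h2 h3 hM1 hM2 y hy
  have aux : ∀ ρ' M, (∀ y, ‖y - z‖ ≤ ρ' → u (x0 + r • y) / a ≤ M) →
      ∀ w, ‖w - (x0 + r • z)‖ ≤ r * ρ' → u w ≤ a * M := by
    intro ρ' M hM w hw
    have e : x0 + r • (r⁻¹ • (w - x0)) = w := by
      rw [smul_smul, mul_inv_cancel₀ hr.ne', one_smul]; abel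
    have := hM (r⁻¹ • (w - x0)) (by
      have e2 : w - (x0 + r • z) = r • (r⁻¹ • (w - x0) - z) := by
        rw [smul_sub, smul_smul, mul_inv_cancel₀ hr.ne', one_smul]; abel
      rw [e2, norm_smul, Real.norm_eq_abs, abs_of_pos hr] at hw
      exact le_of_mul_le_mul_left hw hr)
    rw [e, div_le_iff₀ ha] at this
    linarith
  have key := h (r * ρ₁) (r * ρ) (r * ρ₂) (a * M₁) (a * M₂) (by positivity) (by gcongr) (by gcongr)
    (by gcongr) (aux _ _ hM1) (aux _ _ hM2) (x0 + r • y) (by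
      rw [add_sub_add_left_eq_sub, ← smul_sub, norm_smul, Real.norm_eq_abs, abs_of_pos hr]
      gcongr)
  have e3 : (r * ρ₂ - r * ρ₁) * u (x0 + r • y) = r * a * ((ρ₂ - ρ₁) * (u (x0 + r • y) / a)) := by
    field_simp
  have e4 : (r * ρ₂ - r * ρ) * (a * M₁) + (r * ρ - r * ρ₁) * (a * M₂)
      = r * a * ((ρ₂ - ρ) * M₁ + (ρ - ρ₁) * M₂) := by ring
  rw [e3, e4] at key
  exact le_of_mul_le_mul_left key (by positivity)

theorem reg_scaled : ∃ α C : ℝ, 0 < α ∧ 0 < C ∧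
    ∀ (E : Type) [NormedAddCommGroup E] [InnerProductSpace ℝ E] [ProperSpace E]
      (u : E → ℝ) (x0 : E) (r K : ℝ), 0 < r → 0 < K →
      (∀ x, ‖x - x0‖ ≤ 3 * r / 4 → CC u x (r / 8) ∧ CC (fun y => - u y) x (r / 8)) →
      (∀ x ∈ ball x0 r, ∀ y ∈ ball x0 r, u x - u y ≤ K) →
      ∀ x ∈ ball x0 (r / 2), DifferentiableAt ℝ u x ∧ ‖gradient u x‖ ≤ C * K / r ∧
        ∀ y ∈ ball x0 (r / 2), ‖gradient u x - gradient u y‖ ≤ C * K / r * (‖x - y‖ / r) ^ α := by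
  obtain ⟨α, C, hα, hC, H⟩ := reg_core
  refine ⟨α, 8 * C, hα, by positivity, ?_⟩
  intro E _ _ _ u x0 r K hr hK hcc hosc
  set w : E → ℝ := fun y => u (x0 + r • y) / (8 * K) with hw
  have hcw : ∀ z : E, ‖z‖ ≤ 3 / 4 → CC w z (1 / 8) ∧ CC (fun y => - w y) z (1 / 8) := by
    intro z hz
    have h1 := hcc (x0 + r • z) (by
      rw [add_sub_cancel_left, norm_smul, Real.norm_eq_abs, abs_of_pos hr]; nlinarith)
    have e : r / 8 = r * (1 / 8) := by ring
    rw [e] at h1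
    refine ⟨h1.1.scale hr (by positivity), ?_⟩
    refine (h1.2.scale hr (by positivity : 0 < 8 * K)).congr (fun y _ => ?_)
    rw [hw]; ring
  have how : ∀ y z : E, ‖y‖ < 1 → ‖z‖ < 1 → w y - w z ≤ 1 / 8 := by
    intro y z hy hz
    have hm : ∀ y : E, ‖y‖ < 1 → x0 + r • y ∈ ball x0 r := by
      intro y hy
      rw [mem_ball, dist_eq_norm, add_sub_cancel_left, norm_smul, Real.norm_eq_abs, abs_of_pos hr]
      nlinarith
    have := hosc _ (hm y hy) _ (hm z hz)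
    rw [hw, ← sub_div, div_le_iff₀ (by positivity)]
    linarith
  have hlip : ∀ y z : E, ‖y‖ ≤ 3 / 4 → ‖z‖ ≤ 3 / 4 → w y - w z ≤ ‖y - z‖ := by
    intro y z hy hz
    refine (hcw z hz).1.lip (fun a ha => how a z ?_ (by linarith)) (how y z (by linarith)
      (by linarith))
    have := norm_le_of_sub (X := 7 / 8) ha (by linarith)
    linarith
  have hL : LipschitzOnWith 1 w (closedBall 0 (3 / 4)) := by
    apply LipschitzOnWith.of_dist_le_mul
    intro y hy z hz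
    rw [mem_closedBall_zero_iff] at hy hz
    rw [Real.dist_eq, dist_eq_norm, abs_le]
    have h1 := hlip y z hy hz
    have h2 := hlip z y hz hy
    rw [norm_sub_rev] at h2
    constructor <;> simp <;> linarith
  obtain ⟨g, hg, hwg⟩ := hL.extend_real
  have hgl : Lip g := by
    intro y z
    have := hg.dist_le_mul y z
    rw [Real.dist_eq, dist_eq_norm] at this
    simp only [NNReal.coe_one, one_mul] at this
    exact (le_abs_self _).trans this
  have hgv : ∀ x, (fun y => - g y) x = - g x := fun _ => rfl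
  obtain ⟨p, hp⟩ := H E g (fun y => - g y) hgl hgv (fun y hy => by
    have he : ∀ a, ‖a - y‖ ≤ 1 / 8 → w a = g a := fun a ha =>
      hwg (mem_closedBall_zero_iff.2 (norm_le_of_sub ha (by linarith)))
    exact ⟨((hcw y (by linarith)).1.congr he).cvx hgl,
      ((hcw y (by linarith)).2.congr (fun a ha => by rw [he a ha])).cvx (hgl.neg hgv)⟩)
  have hz : ∀ x ∈ ball x0 (r / 2), ‖r⁻¹ • (x - x0)‖ < 1 / 2 := by
    intro x hx
    rw [mem_ball, dist_eq_norm] at hx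
    rw [norm_smul, Real.norm_eq_abs, abs_of_pos (inv_pos.2 hr), inv_mul_lt_iff₀ hr]
    linarith
  have hz' : ∀ x ∈ ball x0 (r / 2), ‖r⁻¹ • (x - x0)‖ ≤ 9 / 16 := fun x hx => by
    linarith [hz x hx]
  have hgrad : ∀ x ∈ ball x0 (r / 2),
      HasGradientAt u ((8 * K / r) • p (r⁻¹ • (x - x0))) x := by
    intro x hx
    have h1 := (hp _ (hz' x hx)).1
    have h2 : HasGradientAt w (p (r⁻¹ • (x - x0))) (r⁻¹ • (x - x0)) := by
      apply h1.congr_of_eventuallyEq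
      apply hwg.eventuallyEq_of_mem
      exact closedBall_mem_nhds_of_mem (mem_ball_zero_iff.2 (by linarith [hz x hx]))
    rw [hasGradientAt_iff_hasFDerivAt] at h2 ⊢
    have h3 : HasFDerivAt (fun x : E => r⁻¹ • (x - x0)) (r⁻¹ • ContinuousLinearMap.id ℝ E) x :=
      ((hasFDerivAt_id x).sub_const x0).const_smul r⁻¹
    have h4 := (h2.comp x h3).const_mul (8 * K)
    have e : u = fun x => 8 * K * (w ∘ fun x : E => r⁻¹ • (x - x0)) x := by
      funext y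
      have : x0 + r • (r⁻¹ • (y - x0)) = y := by
        rw [smul_smul, mul_inv_cancel₀ hr.ne', one_smul]; abel
      simp only [hw, Function.comp, this]
      field_simp
    rw [e]
    refine h4.congr_fderiv ?_
    ext a
    simp
    ring
  intro x hx
  have hKr : 0 < 8 * K / r := by positivity
  refine ⟨(hgrad x hx).differentiableAt, ?_, fun y hy => ?_⟩
  · rw [(hgrad x hx).gradient, norm_smul, Real.norm_eq_abs, abs_of_pos hKr]
    have := (hp _ (hz' x hx)).2.1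
    calc 8 * K / r * ‖p (r⁻¹ • (x - x0))‖ ≤ 8 * K / r * C := by gcongr
      _ = 8 * C * K / r := by ring
  · rw [(hgrad x hx).gradient, (hgrad y hy).gradient, ← smul_sub, norm_smul, Real.norm_eq_abs,
      abs_of_pos hKr]
    have := (hp _ (hz' x hx)).2.2 _ (hz' y hy)
    have e : ‖r⁻¹ • (x - x0) - r⁻¹ • (y - x0)‖ = ‖x - y‖ / r := by
      rw [← smul_sub, sub_sub_sub_cancel_right, norm_smul, Real.norm_eq_abs,
        abs_of_pos (inv_pos.2 hr)]
      ring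
    rw [e] at this
    calc 8 * K / r * ‖p (r⁻¹ • (x - x0)) - p (r⁻¹ • (y - x0))‖
        ≤ 8 * K / r * (C * (‖x - y‖ / r) ^ α) := by gcongr
      _ = 8 * C * K / r * (‖x - y‖ / r) ^ α := by ring

omit [InnerProductSpace ℝ E] in
lemma poly_neg (x : E) (B C : ℝ) (w : E) : poly x (-B) (-C) w = - poly x B C w := by
  unfold poly; ring

theorem main_thm : ∃ α C : ℝ, 0 < α ∧
    ∀ (E : Type) [NormedAddCommGroup E] [InnerProductSpace ℝ E] [ProperSpace E]
      (Ω : Set E) (u : E → ℝ), IsOpen Ω → ContinuousOn u Ω →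
      (∀ φ : E → ℝ, ContDiff ℝ 2 φ → ∀ z ∈ Ω,
        (IsLocalMax (fun x => u x - φ x) z →
          0 ≤ fderiv ℝ (fderiv ℝ φ) z (gradient φ z) (gradient φ z)) ∧
        (IsLocalMin (fun x => u x - φ x) z →
          fderiv ℝ (fderiv ℝ φ) z (gradient φ z) (gradient φ z) ≤ 0)) →
      ContDiffOn ℝ 1 u Ω ∧ ∀ (x0 : E) (r K : ℝ), 0 < r → ball x0 r ⊆ Ω →
        (∀ x ∈ ball x0 r, ∀ y ∈ ball x0 r, u x - u y ≤ K) →
        ∀ x ∈ ball x0 (r / 2), ‖gradient u x‖ ≤ C * K / r ∧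
          ∀ y ∈ ball x0 (r / 2),
            ‖gradient u x - gradient u y‖ ≤ C * K / r * (‖x - y‖ / r) ^ α := by
  obtain ⟨α, C, hα, hC, H⟩ := reg_scaled
  refine ⟨α, C, hα, ?_⟩
  intro E _ _ _ Ω u hΩ hc hv
  have s1 : SubP u Ω := by
    intro x y hy B C hm
    have := (hv _ (poly_contDiff x B C) y hy).1 hm
    rw [poly_infLap] at this
    linarith
  have s2 : SubP (fun y => - u y) Ω := by
    intro x y hy B C hm
    have hm' : IsLocalMin (fun w => u w - poly x (-B) (-C) w) y := by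
      filter_upwards [hm] with w hw
      rw [poly_neg, poly_neg]
      linarith
    have := (hv _ (poly_contDiff x (-B) (-C)) y hy).2 hm'
    rw [poly_infLap] at this
    linarith
  have key : ∀ (x0 : E) (r K : ℝ), 0 < r → 0 < K → ball x0 r ⊆ Ω →
      (∀ x ∈ ball x0 r, ∀ y ∈ ball x0 r, u x - u y ≤ K) →
      ∀ x ∈ ball x0 (r / 2), DifferentiableAt ℝ u x ∧ ‖gradient u x‖ ≤ C * K / r ∧
        ∀ y ∈ ball x0 (r / 2), ‖gradient u x - gradient u y‖ ≤ C * K / r * (‖x - y‖ / r) ^ α := by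
    intro x0 r K hr hK hb hosc
    refine H E u x0 r K hr hK (fun x hx => ?_) hosc
    have hsub : closedBall x (r / 8) ⊆ Ω := by
      refine subset_trans ?_ hb
      apply closedBall_subset_ball'
      rw [dist_eq_norm]
      linarith
    exact ⟨cc_of_subP hc s1 hsub, cc_of_subP hc.neg s2 hsub⟩
  constructor
  · have loc : ∀ x0 ∈ Ω, ∃ r K : ℝ, 0 < r ∧ ∀ x ∈ ball x0 (r / 2), DifferentiableAt ℝ u x ∧
        ‖gradient u x‖ ≤ C * K / r ∧ ∀ y ∈ ball x0 (r / 2),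
          ‖gradient u x - gradient u y‖ ≤ C * K / r * (‖x - y‖ / r) ^ α := by
      intro x0 hx0
      obtain ⟨r, hr, hrΩ⟩ := nhds_basis_closedBall.mem_iff.1 (hΩ.mem_nhds hx0)
      obtain ⟨M, hM⟩ := (isCompact_closedBall x0 r).exists_bound_of_continuousOn (hc.mono hrΩ)
      have hM0 : 0 ≤ M := (norm_nonneg _).trans (hM x0 (mem_closedBall_self hr.le))
      refine ⟨r, 2 * M + 1, hr, key x0 r _ hr (by positivity) (ball_subset_closedBall.trans hrΩ)
        (fun x hx y hy => ?_)⟩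
      have h1 := hM x (ball_subset_closedBall hx)
      have h2 := hM y (ball_subset_closedBall hy)
      rw [Real.norm_eq_abs, abs_le] at h1 h2
      linarith
    have e : (1 : WithTop ℕ∞) = 0 + 1 := by simp
    rw [e, contDiffOn_succ_iff_fderiv_of_isOpen hΩ]
    refine ⟨fun x hx => ?_, by simp, ?_⟩
    · obtain ⟨r, K, hr, h⟩ := loc x hx
      exact (h x (mem_ball_self (by positivity))).1.differentiableWithinAt
    · rw [contDiffOn_zero]
      intro x hx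
      apply ContinuousAt.continuousWithinAt
      have hg : ContinuousAt (gradient u) x := by
        obtain ⟨r, K, hr, h⟩ := loc x hx
        rw [ContinuousAt, tendsto_iff_norm_sub_tendsto_zero]
        have hlim : Tendsto (fun y => C * K / r * (‖y - x‖ / r) ^ α) (𝓝 x) (𝓝 0) := by
          have h1 : ContinuousAt (fun y : E => C * K / r * (‖y - x‖ / r) ^ α) x := by
            apply ContinuousAt.mul continuousAt_const
            exact ContinuousAt.rpow_const (by fun_prop) (Or.inr hα.le)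
          have h2 := h1.tendsto
          simpa [Real.zero_rpow hα.ne'] using h2
        refine squeeze_zero' (Eventually.of_forall fun y => norm_nonneg _) ?_ hlim
        filter_upwards [ball_mem_nhds x (by positivity : 0 < r / 2)] with y hy
        exact (h y hy).2.2 x (mem_ball_self (by positivity))
      have e2 : fderiv ℝ u = fun y => InnerProductSpace.toDual ℝ E (gradient u y) := by
        funext y
        simp [gradient]
      rw [e2]
      exact (InnerProductSpace.toDual ℝ E).continuous.continuousAt.comp hg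
  · intro x0 r K hr hb hosc x hx
    have hK : 0 ≤ K := by
      have := hosc x0 (mem_ball_self hr) x0 (mem_ball_self hr)
      linarith
    have key' := fun θ (hθ : 0 < θ) => key x0 r (K + θ) hr (by linarith) hb
      (fun x hx y hy => by linarith [hosc x hx y hy]) x hx
    refine ⟨le_of_theta (K := C / r) fun θ hθ _ => ?_, fun y hy =>
      le_of_theta (K := C / r * (‖x - y‖ / r) ^ α) fun θ hθ _ => ?_⟩
    · refine (key' θ hθ).2.1.trans (le_of_eq ?_)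
      ring
    · refine ((key' θ hθ).2.2 y hy).trans (le_of_eq ?_)
      ring

end Vale.Agent.P080
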