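import Vale.Agent.P080.Key2

namespace Vale.Agent.P080

open Metric Set
open scoped RealInnerProductSpace

variable {E : Type*} [NormedAddCommGroup E] [InnerProductSpace ℝ E]

omit [InnerProductSpace ℝ E] in
lemma sq_add_le (a b : E) : ‖a + b‖ ^ 2 ≤ 2 * ‖a‖ ^ 2 + 2 * ‖b‖ ^ 2 := by
  have h1 := norm_add_le a b
  have h2 : ‖a + b‖ ^ 2 ≤ (‖a‖ + ‖b‖) ^ 2 := by gcongr
  nlinarith [sq_nonneg (‖a‖ - ‖b‖)]

omit [InnerProductSpace ℝ E] in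
lemma sq_sub_le (a b : E) : ‖a - b‖ ^ 2 ≤ 2 * ‖a‖ ^ 2 + 2 * ‖b‖ ^ 2 := by
  have := sq_add_le a (-b)
  rwa [norm_neg, ← sub_eq_add_neg] at this

lemma sq_smul (t : ℝ) (a : E) : ‖t • a‖ ^ 2 = t ^ 2 * ‖a‖ ^ 2 := by
  rw [norm_smul, mul_pow, Real.norm_eq_abs, sq_abs]

def FlatU (u : E → ℝ) (z : E) (F l : ℝ) (p : E) (w : ℝ) : Prop :=
  ∀ t, |t| ≤ F → ∀ x, u (z + t • p + x)
    ≤ u z + ⟪p, x⟫ + t * (w + ‖p‖ ^ 2 / 2) + l * F + ‖x‖ ^ 2 / F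

def Flat (u v : E → ℝ) (z : E) (F l : ℝ) (p : E) (w : ℝ) : Prop :=
  FlatU u z F l p w ∧ FlatU v z F l (-p) w

lemma Flat.symm {u v : E → ℝ} {z p : E} {F l w : ℝ} (h : Flat u v z F l p w) :
    Flat v u z F l (-p) w := ⟨h.2, by rw [neg_neg]; exact h.1⟩

lemma Flat.mono {u v : E → ℝ} {z p : E} {F l l' w : ℝ} (h : Flat u v z F l p w) (hF : 0 ≤ F)
    (hl : l ≤ l') : Flat u v z F l' p w := by
  have := mul_le_mul_of_nonneg_right hl hF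
  exact ⟨fun t ht x => by linarith [h.1 t ht x], fun t ht x => by linarith [h.2 t ht x]⟩

lemma Flat.lower {u v : E → ℝ} (hv : ∀ x, v x = - u x) {z p : E} {F l w : ℝ}
    (h : Flat u v z F l p w) {t : ℝ} (ht : |t| ≤ F) (x : E) :
    u z + ⟪p, x⟫ + t * (w + ‖p‖ ^ 2 / 2) - l * F - ‖x‖ ^ 2 / F ≤ u (z + t • p + x) := by
  have := h.2 (-t) (by rwa [abs_neg]) x
  rw [hv, hv, smul_neg, neg_smul, neg_neg, inner_neg_left, norm_neg] at this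
  linarith

lemma Flat.kk_upper {u v : E → ℝ} {z p : E} {F l w : ℝ} (h : Flat u v z F l p w) {t τ : ℝ}
    (hτ : 0 < τ) (hF : 4 * τ ≤ F) (ht : |t + τ| ≤ F) (ξ : E) :
    kk u τ (z + t • p + ξ)
      ≤ u z + ⟪p, ξ⟫ + t * (w + ‖p‖ ^ 2 / 2) + τ * w + l * F + 2 * ‖ξ‖ ^ 2 / F := by
  apply kk_le hτ
  intro y
  set η := y - (z + (t + τ) • p + ξ) with hη
  have hy : y = z + (t + τ) • p + (ξ + η) := by rw [hη]; abel
  have h1 := h.1 (t + τ) ht (ξ + η)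
  rw [← hy, inner_add_right] at h1
  have h2 := cst_expand hτ (z + (t + τ) • p + ξ) p η
  have e1 : z + (t + τ) • p + ξ - τ • p = z + t • p + ξ := by rw [add_smul]; abel
  have e2 : z + (t + τ) • p + ξ + η = y := by rw [hη]; abel
  rw [e1, e2] at h2
  have hF0 : 0 < F := by linarith
  have h3 : ‖ξ + η‖ ^ 2 / F ≤ (2 * ‖ξ‖ ^ 2 + 2 * ‖η‖ ^ 2) / F := by
    gcongr; exact sq_add_le ξ η
  have h4 : 2 * ‖η‖ ^ 2 / F ≤ ‖η‖ ^ 2 / (2 * τ) := by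
    rw [div_le_div_iff₀ hF0 (by positivity)]
    nlinarith [sq_nonneg ‖η‖]
  rw [add_div] at h3
  linarith

lemma Flat.kk_lower {u v : E → ℝ} (hu : Lip u) (hv : ∀ x, v x = - u x) {z p : E} {F l w : ℝ}
    (h : Flat u v z F l p w) {t τ : ℝ} (hτ : 0 < τ) (ht : |t + τ| ≤ F) (ξ : E) :
    u z + ⟪p, ξ⟫ + t * (w + ‖p‖ ^ 2 / 2) + τ * w - l * F - ‖ξ‖ ^ 2 / F
      ≤ kk u τ (z + t • p + ξ) := by
  have h1 := le_kk hu hτ (z + t • p + ξ) (z + t • p + ξ + τ • p)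
  rw [cst_smul hτ] at h1
  have h2 := h.lower hv ht ξ
  have e1 : z + (t + τ) • p + ξ = z + t • p + ξ + τ • p := by rw [add_smul]; abel
  rw [e1] at h2
  linarith

lemma Flat.upP {u v : E → ℝ} (hv : ∀ x, v x = - u x) {z p : E} {F l w : ℝ}
    (h : Flat u v z F l p w) (hF : 0 < F) {t : ℝ} (ht : |t| ≤ F) (ξ : E) :
    UpP u (z + t • p + ξ) (F / 4) (2 * l * F + 3 * ‖ξ‖ ^ 2 / F) p := by
  intro x
  have h1 := h.1 t ht (ξ + x)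
  have h2 := h.lower hv ht ξ
  rw [← add_assoc, inner_add_right] at h1
  have h3 : ‖ξ + x‖ ^ 2 / F ≤ (2 * ‖ξ‖ ^ 2 + 2 * ‖x‖ ^ 2) / F := by
    gcongr; exact sq_add_le ξ x
  have e1 : ‖x‖ ^ 2 / (2 * (F / 4)) = 2 * ‖x‖ ^ 2 / F := by field_simp; ring
  have e2 : 3 * ‖ξ‖ ^ 2 / F = 2 * ‖ξ‖ ^ 2 / F + ‖ξ‖ ^ 2 / F := by ring
  rw [add_div] at h3
  linarith

lemma Flat.sl_upper {u v : E → ℝ} (hv : ∀ x, v x = - u x) {z p : E} {F l w : ℝ}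
    (h : Flat u v z F l p w) {τ : ℝ} (hτ : 0 < τ) (hF : 4 * τ ≤ F) (ξ : E) :
    sl u τ (z + ξ) ≤ w + (2 * l * F + 3 * ‖ξ‖ ^ 2 / F) / τ := by
  have h1 := h.kk_upper (t := 0) hτ hF (by rw [zero_add, abs_of_pos hτ]; linarith) ξ
  have h2 := h.lower hv (t := 0) (by rw [abs_zero]; linarith) ξ
  simp only [zero_smul, add_zero, zero_mul] at h1 h2
  unfold sl
  rw [div_le_iff₀ hτ, add_mul, div_mul_cancel₀ _ hτ.ne']
  have e2 : 3 * ‖ξ‖ ^ 2 / F = 2 * ‖ξ‖ ^ 2 / F + ‖ξ‖ ^ 2 / F := by ring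
  linarith

lemma Flat.sl_lower {u v : E → ℝ} (hu : Lip u) (hv : ∀ x, v x = - u x) {z p : E} {F l w : ℝ}
    (h : Flat u v z F l p w) {t τ : ℝ} (hτ : 0 < τ) (ht : |t| ≤ F) (ht' : |t + τ| ≤ F) (ξ : E) :
    w - (2 * l * F + 2 * ‖ξ‖ ^ 2 / F) / τ ≤ sl u τ (z + t • p + ξ) := by
  have h1 := h.kk_lower hu hv hτ ht' ξ
  have h2 := h.1 t ht ξ
  unfold sl
  rw [le_div_iff₀ hτ, sub_mul, div_mul_cancel₀ _ hτ.ne']
  have e2 : 2 * ‖ξ‖ ^ 2 / F = ‖ξ‖ ^ 2 / F + ‖ξ‖ ^ 2 / F := by ring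
  linarith

lemma Flat.slope_upper {u v : E → ℝ} (hu : Lip u) (hv : ∀ x, v x = - u x) {z p : E} {F l w : ℝ}
    (h : Flat u v z F l p w) {a : ℝ} (ha : 0 < a) (hF : 8 * a ≤ F) (ξ : E) :
    kk u (2 * a) (z + ξ) - kk u a (z + ξ) ≤ a * w + 2 * l * F + 3 * ‖ξ‖ ^ 2 / F := by
  have h1 := h.kk_upper (t := 0) (τ := 2 * a) (by positivity) (by linarith)
    (by rw [zero_add, abs_of_pos (by positivity)]; linarith) ξ
  have h2 := h.kk_lower hu hv (t := 0) ha (by rw [zero_add, abs_of_pos ha]; linarith) ξ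
  simp only [zero_smul, add_zero, zero_mul] at h1 h2
  have e2 : 3 * ‖ξ‖ ^ 2 / F = 2 * ‖ξ‖ ^ 2 / F + ‖ξ‖ ^ 2 / F := by ring
  linarith

/-- `a` is an optimal velocity -/
def IsMx (u : E → ℝ) (τ : ℝ) (x a : E) : Prop :=
  kk u τ x = u (x + τ • a) - τ * ‖a‖ ^ 2 / 2 ∧ ‖a‖ ≤ 2

lemma exists_isMx [ProperSpace E] {u : E → ℝ} (hu : Lip u) {τ : ℝ} (hτ : 0 < τ) (x : E) :
    ∃ a, IsMx u τ x a := by
  obtain ⟨y, hy, hy2⟩ := exists_max hu hτ x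
  have h1 : x + τ • τ⁻¹ • (y - x) = y := by
    rw [smul_smul, mul_inv_cancel₀ hτ.ne', one_smul]; abel
  refine ⟨τ⁻¹ • (y - x), ?_, ?_⟩
  · rw [← cst_smul hτ x, h1, hy]
  · rw [norm_smul, Real.norm_eq_abs, abs_of_pos (inv_pos.2 hτ), norm_sub_rev, inv_mul_le_iff₀ hτ]
    linarith

lemma IsMx.upP {u : E → ℝ} (hu : Lip u) {τ : ℝ} (hτ : 0 < τ) {x a : E} (h : IsMx u τ x a) :
    UpP u (x + τ • a) τ 0 a := by
  intro y
  have h1 := le_kk hu hτ x (x + τ • a + y)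
  have h2 := cst_expand hτ (x + τ • a) a y
  rw [add_sub_cancel_right] at h2
  linarith [h.1]

lemma IsMx.dist {u : E → ℝ} {τ : ℝ} (hτ : 0 < τ) {x a : E} (h : IsMx u τ x a) :
    ‖x + τ • a - x‖ ≤ 2 * τ := by
  rw [add_sub_cancel_left, norm_smul, Real.norm_eq_abs, abs_of_pos hτ]
  nlinarith [h.2]

lemma CEup {u : E → ℝ} (hu : Lip u) {z p d : E} {ρ w ε S : ℝ} (hρ : 0 < ρ)
    (h1 : u (z + ρ • (d - p)) = u z - ρ * S - ρ * ‖d - p‖ ^ 2 / 2)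
    (h2 : ∀ τ, 0 < τ → τ ≤ 2 * ρ → kk u τ (z + ρ • (d - p)) ≤ u (z + ρ • (d - p)) + τ * w)
    (h3 : w - ε ≤ S) (h4 : ‖d‖ ^ 2 ≤ 2 * ε) : FlatU u z (ρ / 2) (8 * ε) p w := by
  intro t ht ξ
  rw [abs_le] at ht
  have hτ : 0 < ρ + t := by linarith
  have k1 := h2 (ρ + t) hτ (by linarith)
  have k2 := le_kk hu hτ (z + ρ • (d - p)) (z + t • p + ξ)
  have k3 := cst_expand hτ (z + ρ • (d - p) + (ρ + t) • p) p (ξ - ρ • d)
  have e1 : z + ρ • (d - p) + (ρ + t) • p + (ξ - ρ • d) = z + t • p + ξ := by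
    rw [smul_sub, add_smul]; abel
  rw [add_sub_cancel_right, e1, inner_sub_right, inner_smul_right] at k3
  rw [norm_sub_sq_real, real_inner_comm] at h1
  have k4 : ‖ξ - ρ • d‖ ^ 2 / (2 * (ρ + t)) ≤ (2 * ‖ξ‖ ^ 2 + 2 * (ρ ^ 2 * ‖d‖ ^ 2)) / ρ := by
    have := sq_sub_le ξ (ρ • d)
    rw [sq_smul] at this
    gcongr
    linarith
  have e2 : (2 * ‖ξ‖ ^ 2 + 2 * (ρ ^ 2 * ‖d‖ ^ 2)) / ρ = ‖ξ‖ ^ 2 / (ρ / 2) + 2 * ρ * ‖d‖ ^ 2 := by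
    field_simp
  have k5 := mul_le_mul_of_nonneg_left h3 hρ.le
  have k6 := mul_le_mul_of_nonneg_left h4 hρ.le
  linarith

lemma CE {u v : E → ℝ} (hu : Lip u) (hv : ∀ x, v x = - u x) {z a b : E} {ρ w ε T T' : ℝ}
    (hρ : 0 < ρ) (ha : IsMx u ρ z a) (hb : IsMx v ρ z b) (hT' : 2 * ρ ≤ T') (hT : T' ≤ T)
    (c1 : Cvx u T (z + ρ • b)) (c2 : Cvx v T (z + ρ • a))
    (s1 : sl u T' (z + ρ • b) ≤ w) (s2 : sl v T' (z + ρ • a) ≤ w)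
    (s3 : w - ε ≤ sl u ρ z) (s4 : w - ε ≤ sl v ρ z) :
    ∃ p, Flat u v z (ρ / 2) (8 * ε) p w := by
  have hvl := hu.neg hv
  set p : E := (1 / 2 : ℝ) • (a - b) with hp
  set d : E := (1 / 2 : ℝ) • (a + b) with hd
  have e1 : d - p = b := by
    rw [hp, hd, ← smul_sub]
    have : a + b - (a - b) = (2 : ℝ) • b := by rw [two_smul]; abel
    rw [this, smul_smul]; norm_num
  have e2 : d - -p = a := by
    rw [sub_neg_eq_add, hp, hd, ← smul_add]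
    have : a + b + (a - b) = (2 : ℝ) • a := by rw [two_smul]; abel
    rw [this, smul_smul]; norm_num
  have ka : u (z + ρ • a) = u z + ρ * sl u ρ z + ρ * ‖a‖ ^ 2 / 2 := by
    have := kk_eq_sl u hρ z
    linarith [ha.1]
  have kb : v (z + ρ • b) = v z + ρ * sl v ρ z + ρ * ‖b‖ ^ 2 / 2 := by
    have := kk_eq_sl v hρ z
    linarith [hb.1]
  have m1 : ∀ τ, 0 < τ → τ ≤ 2 * ρ → kk u τ (z + ρ • b) ≤ u (z + ρ • b) + τ * w := by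
    intro τ h0 h1
    rw [kk_eq_sl u h0]
    have := (c1.sl_mono h0 (h1.trans hT') hT).trans s1
    nlinarith
  have m2 : ∀ τ, 0 < τ → τ ≤ 2 * ρ → kk v τ (z + ρ • a) ≤ v (z + ρ • a) + τ * w := by
    intro τ h0 h1
    rw [kk_eq_sl v h0]
    have := (c2.sl_mono h0 (h1.trans hT') hT).trans s2
    nlinarith
  have hd2 : ‖d‖ ^ 2 ≤ 2 * ε := by
    have k1 := m1 (2 * ρ) (by positivity) le_rfl
    have k2 := le_kk hu (by positivity : 0 < 2 * ρ) (z + ρ • b) (z + ρ • a)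
    have e3 : z + ρ • a = z + ρ • b + (2 * ρ) • p := by
      rw [hp, smul_smul, smul_sub]
      have : 2 * ρ * (1 / 2) = ρ := by ring
      rw [this]; abel
    have k3 := cst_smul (by positivity : 0 < 2 * ρ) (z + ρ • b) p
    rw [← e3] at k3
    have k4 : ‖a‖ ^ 2 + ‖b‖ ^ 2 = 2 * ‖d‖ ^ 2 + 2 * ‖p‖ ^ 2 := by
      rw [← e1, ← e2, sub_neg_eq_add, norm_add_sq_real, norm_sub_sq_real d p]; ring
    rw [hv, hv] at kb
    have k5 := mul_le_mul_of_nonneg_left s3 hρ.le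
    have k6 := mul_le_mul_of_nonneg_left s4 hρ.le
    have k7 : ρ * ‖d‖ ^ 2 ≤ ρ * (2 * ε) := by
      have : ρ * ‖a‖ ^ 2 + ρ * ‖b‖ ^ 2 = 2 * (ρ * ‖d‖ ^ 2) + 2 * (ρ * ‖p‖ ^ 2) := by
        rw [← mul_add, k4]; ring
      linarith
    exact le_of_mul_le_mul_left k7 hρ
  refine ⟨p, ?_, ?_⟩
  · apply CEup hu hρ (d := d) (S := sl v ρ z) _ (by rw [e1]; exact m1) s4 hd2
    rw [e1]
    rw [hv, hv] at kb
    linarith
  · apply CEup hvl hρ (d := d) (S := sl u ρ z) _ (by rw [e2]; exact m2) s3 hd2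
    rw [e2, hv, hv]
    linarith

lemma sl_end_bound [ProperSpace E] {u v : E → ℝ} (hu : Lip u) (hv : ∀ x, v x = - u x) {z b : E}
    {ρ Λ V T : ℝ} (hρ : 0 < ρ) (hΛ : 2 ≤ Λ) (hT : Λ * ρ ≤ T) (hb : IsMx v ρ z b)
    (cz : Cvx u T z) (HV : ∀ a, IsMx u (Λ * ρ) (z + ρ • b) a → ‖a + b‖ ^ 2 ≤ V) :
    Λ * sl u (Λ * ρ) (z + ρ • b)
      ≤ (Λ - 1) * sl u (Λ * ρ) z + sl v ρ z + Λ * (V / (2 * (Λ - 1))) := by
  have hΛρ : 0 < Λ * ρ := by positivity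
  have hΛ1 : 0 < Λ - 1 := by linarith
  have hΛρ' : 0 < (Λ - 1) * ρ := by positivity
  obtain ⟨a, ha⟩ := exists_isMx hu hΛρ (z + ρ • b)
  have k1 := HV a ha
  have k2 := le_kk hu hΛρ' z (z + ρ • b + (Λ * ρ) • a)
  have k3 : cst ((Λ - 1) * ρ) z (z + ρ • b + (Λ * ρ) • a) + ρ * ‖b‖ ^ 2 / 2
      - Λ * ρ * ‖a‖ ^ 2 / 2 = ρ * Λ * (‖a + b‖ ^ 2 / (2 * (Λ - 1))) := by
    unfold cst
    have : z - (z + ρ • b + (Λ * ρ) • a) = -(ρ • b + (Λ * ρ) • a) := by abel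
    rw [this, norm_neg, norm_add_sq_real, norm_add_sq_real, sq_smul, sq_smul, inner_smul_left,
      inner_smul_right, real_inner_comm]
    simp only [conj_trivial]
    field_simp
    ring
  have k4 := kk_eq_sl u hΛρ (z + ρ • b)
  have k5 := kk_eq_sl u hΛρ' z
  have k6 := kk_eq_sl v hρ z
  have k7 := hb.1
  rw [hv] at k6 k7
  have k8 := cz.sl_mono hΛρ' (by nlinarith : (Λ - 1) * ρ ≤ Λ * ρ) hT
  have k9 := mul_le_mul_of_nonneg_left k8 hΛρ'.le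
  have k10 : ρ * Λ * (‖a + b‖ ^ 2 / (2 * (Λ - 1))) ≤ ρ * Λ * (V / (2 * (Λ - 1))) := by gcongr
  have k11 : ρ * (Λ * sl u (Λ * ρ) (z + ρ • b))
      ≤ ρ * ((Λ - 1) * sl u (Λ * ρ) z + sl v ρ z + Λ * (V / (2 * (Λ - 1)))) := by
    linarith [ha.1]
  exact le_of_mul_le_mul_left k11 hρ

lemma sl_cross {u v : E → ℝ} (hu : Lip u) (hv : ∀ x, v x = - u x) {z b : E} {ρ : ℝ} (hρ : 0 < ρ)
    (hb : IsMx v ρ z b) : sl v ρ z ≤ sl u ρ (z + ρ • b) := by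
  have k1 := le_kk hu hρ (z + ρ • b) z
  rw [cst_comm, cst_smul hρ] at k1
  have k4 := kk_eq_sl u hρ (z + ρ • b)
  have k6 := kk_eq_sl v hρ z
  have k7 := hb.1
  rw [hv] at k6 k7
  have : ρ * sl v ρ z ≤ ρ * sl u ρ (z + ρ • b) := by linarith
  exact le_of_mul_le_mul_left this hρ

lemma CE2 [ProperSpace E] {u v : E → ℝ} (hu : Lip u) (hv : ∀ x, v x = - u x) {z : E}
    {ρ Λ V T Δ : ℝ} (hρ : 0 < ρ) (hΛ : 2 ≤ Λ) (hT : Λ * ρ ≤ T) (hV : 0 ≤ V)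
    (hc : ∀ y, ‖y - z‖ ≤ 2 * ρ → Cvx u T y ∧ Cvx v T y)
    (HV1 : ∀ b a, IsMx v ρ z b → IsMx u (Λ * ρ) (z + ρ • b) a → ‖a + b‖ ^ 2 ≤ V)
    (HV2 : ∀ b a, IsMx u ρ z b → IsMx v (Λ * ρ) (z + ρ • b) a → ‖a + b‖ ^ 2 ≤ V)
    (hD : sl u (Λ * ρ) z + sl v (Λ * ρ) z - (sl u ρ z + sl v ρ z) ≤ Δ) :
    ∃ p w, Flat u v z (ρ / 2) (8 * Δ + 12 * V / (Λ - 1)) p w := by
  have hvl := hu.neg hv
  have hu' : ∀ x, u x = - v x := fun x => by rw [hv, neg_neg]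
  have hΛ1 : 0 < Λ - 1 := by linarith
  have hΛ0 : 0 < Λ := by linarith
  obtain ⟨a, ha⟩ := exists_isMx hu hρ z
  obtain ⟨b, hb⟩ := exists_isMx hvl hρ z
  have cz := hc z (by rw [sub_self, norm_zero]; positivity)
  have ca := hc _ (ha.dist hρ)
  have cb := hc _ (hb.dist hρ)
  have k1 := sl_end_bound hu hv hρ hΛ hT hb cz.1 (fun a' => HV1 b a' hb)
  have k2 := sl_end_bound hvl hu' hρ hΛ hT ha cz.2 (fun a' => HV2 a a' ha)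
  have hρΛ : ρ ≤ Λ * ρ := by nlinarith
  have k3 := (sl_cross hu hv hρ hb).trans (cb.1.sl_mono hρ hρΛ hT)
  have k4 := (sl_cross hvl hu' hρ ha).trans (ca.2.sl_mono hρ hρΛ hT)
  have k5 := cz.1.sl_mono hρ hρΛ hT
  have k6 := cz.2.sl_mono hρ hρΛ hT
  set η := V / (2 * (Λ - 1)) with hη
  have hη0 : 0 ≤ η := by positivity
  set P := sl u (Λ * ρ) z
  set Q := sl v (Λ * ρ) z
  set P0 := sl u ρ z
  set Q0 := sl v ρ z
  set A := sl u (Λ * ρ) (z + ρ • b)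
  set B := sl v (Λ * ρ) (z + ρ • a)
  have hPm : P ≤ max P Q := le_max_left _ _
  have hQm : Q ≤ max P Q := le_max_right _ _
  have m1 : A ≤ max P Q + η := by
    have : Λ * A ≤ Λ * (max P Q + η) := by nlinarith
    exact le_of_mul_le_mul_left this hΛ0
  have m2 : B ≤ max P Q + η := by
    have : Λ * B ≤ Λ * (max P Q + η) := by nlinarith
    exact le_of_mul_le_mul_left this hΛ0
  have m3 : Q0 ≤ P + 2 * η := by
    have : (Λ - 1) * Q0 ≤ (Λ - 1) * (P + 2 * η) := by nlinarith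
    exact le_of_mul_le_mul_left this hΛ1
  have m4 : P0 ≤ Q + 2 * η := by
    have : (Λ - 1) * P0 ≤ (Λ - 1) * (Q + 2 * η) := by nlinarith
    exact le_of_mul_le_mul_left this hΛ1
  have m5 : max P Q ≤ P0 + Δ + 2 * η := max_le (by linarith) (by linarith)
  have m6 : max P Q ≤ Q0 + Δ + 2 * η := max_le (by linarith) (by linarith)
  obtain ⟨p, hp⟩ := CE hu hv hρ ha hb (ε := Δ + 3 * η) (w := max P Q + η) (T' := Λ * ρ)
    (by nlinarith) hT cb.1 ca.2 m1 m2 (by linarith) (by linarith)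
  refine ⟨p, max P Q + η, ?_⟩
  have e : 8 * Δ + 12 * V / (Λ - 1) = 8 * (Δ + 3 * η) := by rw [hη]; field_simp; ring
  rw [e]; exact hp

end Vale.Agent.P080
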