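import Vale.Agent.P080.Flat

namespace Vale.Agent.P080

open Metric Set
open scoped RealInnerProductSpace

lemma pigeon (D : ℕ → ℝ) (N : ℕ) (hN : 0 < N) {R : ℝ} (h : D N - D 0 ≤ R) :
    ∃ i < N, D (i + 1) - D i ≤ R / N := by
  by_contra hc
  push Not at hc
  have h1 : ∀ n ≤ N, n * (R / N) ≤ D n - D 0 ∧ (0 < n → n * (R / N) < D n - D 0) := by
    intro n
    induction n with
    | zero => intro _; simp
    | succ n ih =>
      intro hn
      have h2 := (ih (by omega)).1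
      have h3 := hc n (by omega)
      push_cast
      constructor
      · linarith
      · intro _; linarith
  have h2 := (h1 N le_rfl).2 hN
  have hN' : (0 : ℝ) < N := by exact_mod_cast hN
  rw [mul_div_cancel₀ _ hN'.ne'] at h2
  linarith

variable {E : Type*} [NormedAddCommGroup E] [InnerProductSpace ℝ E]

lemma VL {u v : E → ℝ} (hu : Lip u) (hv : ∀ x, v x = - u x) {z p ξ a : E}
    {F l w t σ τ e : ℝ} (hF : 0 < F) (hσ : 0 < σ) (hτ : 0 < τ) (hfl : Flat u v z F l p w)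
    (ha : IsMx u σ (z + t • p + ξ) a) (hpar : Par v (z + t • p + ξ + σ • a) τ e)
    (ht : |t + σ| ≤ F) (habs : 48 * σ ^ 2 * (1 / τ + 4 / F) ≤ F) :
    ‖a - p‖ ^ 2 ≤ 8 * e * (1 / σ + 1 / τ)
      + 8 * (e + 2 * l * F + 6 * ‖ξ‖ ^ 2 / F) * (1 / τ + 4 / F) := by
  obtain ⟨q, hq⟩ := hpar
  have k1 := SL hv hσ hτ (ha.upP hu hσ) hq
  have k2 := hfl.upP hv hF ht (ξ + σ • (a - p))
  have e1 : z + (t + σ) • p + (ξ + σ • (a - p)) = z + t • p + ξ + σ • a := by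
    rw [add_smul, smul_sub]; abel
  rw [e1] at k2
  have k3 := SL hv (by positivity) hτ k2 hq
  have e2 : 1 / (F / 4) + 1 / τ = 1 / τ + 4 / F := by field_simp; ring
  rw [e2] at k3
  have k4 := sq_add_le ξ (σ • (a - p))
  rw [sq_smul] at k4
  have k5 := sq_sub_le (a + q) (p + q)
  rw [add_sub_add_right_eq_sub] at k5
  set A := 1 / τ + 4 / F with hA
  have hA0 : 0 < A := by positivity
  set X := ‖a - p‖ ^ 2 with hX
  have hX0 : 0 ≤ X := by positivity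
  have k6 : 3 * ‖ξ + σ • (a - p)‖ ^ 2 / F ≤ 6 * ‖ξ‖ ^ 2 / F + 6 * σ ^ 2 * X / F := by
    rw [← add_div]; gcongr; linarith
  have k7 : 6 * σ ^ 2 * X / F * A ≤ X / 8 := by
    have : 6 * σ ^ 2 * X / F * A = (48 * σ ^ 2 * A) / F * (X / 8) := by field_simp; ring
    rw [this]
    have h2 : (48 * σ ^ 2 * A) / F ≤ 1 := by rw [div_le_one hF]; exact habs
    nlinarith
  have k8 := mul_le_mul_of_nonneg_right k6 hA0.le
  linarith

lemma VV {u v : E → ℝ} (hu : Lip u) (hv : ∀ x, v x = - u x) {z p a b : E}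
    {F l w ρ Λ τ κ : ℝ} (hρ : 0 < ρ) (hΛ : 1 ≤ Λ) (hF : 32 * (Λ * ρ) ≤ F) (hτ : 0 < τ)
    (hτF : 4 * τ ≤ F) (hτρ : 96 * ρ ^ 2 ≤ τ * F) (hκ : 0 ≤ κ) (hl : 0 ≤ l)
    (hfl : Flat u v z F l p w)
    (hpar : ∀ y, ‖y - z‖ ≤ F → Par u y τ (2 * κ * τ) ∧ Par v y (F / 8) (2 * κ * (F / 8)))
    (hb : IsMx v ρ z b) (ha : IsMx u (Λ * ρ) (z + ρ • b) a) :
    ‖a + b‖ ^ 2 ≤ 4 * (16 * κ * τ / ρ + 48 * κ + 32 * l * F / τ) + 4 * κ * F / (Λ * ρ)
      + 80 * κ + 384 * l := by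
  have hvl := hu.neg hv
  have hu' : ∀ x, u x = - v x := fun x => by rw [hv, neg_neg]
  have hΛρ : 0 < Λ * ρ := by positivity
  have hρΛ : ρ ≤ Λ * ρ := by nlinarith
  have hF0 : 0 < F := by linarith
  have h4 : 4 / F ≤ 1 / τ := by rw [div_le_div_iff₀ hF0 hτ]; linarith
  -- the velocity b
  have e0 : z + (0 : ℝ) • (-p) + 0 = z := by simp
  have k1 := VL hvl hu' (z := z) (p := -p) (ξ := 0) (a := b) (t := 0) (e := 2 * κ * τ) hF0 hρ hτ
    hfl.symm (by rw [e0]; exact hb)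
    (by rw [e0]; exact (hpar _ ((hb.dist hρ).trans (by linarith))).1)
    (by rw [zero_add, abs_of_pos hρ]; linarith)
    (by
      have : 48 * ρ ^ 2 * (1 / τ + 4 / F) ≤ 48 * ρ ^ 2 * (1 / τ + 1 / τ) := by gcongr
      have h2 : 48 * ρ ^ 2 * (1 / τ + 1 / τ) = 96 * ρ ^ 2 / τ := by field_simp; ring
      have h3 : 96 * ρ ^ 2 / τ ≤ F := by rw [div_le_iff₀ hτ]; linarith
      linarith)
  rw [sub_neg_eq_add, norm_zero] at k1
  set V1 := 16 * κ * τ / ρ + 48 * κ + 32 * l * F / τ with hV1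
  have k2 : ‖b + p‖ ^ 2 ≤ V1 := by
    have h1 : 8 * (2 * κ * τ + 2 * l * F + 6 * 0 ^ 2 / F) * (1 / τ + 4 / F)
        ≤ 8 * (2 * κ * τ + 2 * l * F + 6 * 0 ^ 2 / F) * (1 / τ + 1 / τ) := by gcongr
    have h2 : 8 * (2 * κ * τ) * (1 / ρ + 1 / τ)
        + 8 * (2 * κ * τ + 2 * l * F + 6 * 0 ^ 2 / F) * (1 / τ + 1 / τ) = V1 := by
      rw [hV1]; field_simp; ring
    linarith
  have hV10 : 0 ≤ V1 := by positivity
  -- the velocity a
  have e1 : z + (-ρ) • p + ρ • (b + p) = z + ρ • b := by rw [smul_add, neg_smul]; abel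
  have k3 := VL hu hv (z := z) (p := p) (ξ := ρ • (b + p)) (a := a) (t := -ρ)
    (e := 2 * κ * (F / 8)) (τ := F / 8) hF0 hΛρ (by positivity) hfl (by rw [e1]; exact ha)
    (by
      rw [e1]
      refine (hpar _ ?_).2
      have h1 := ha.dist hΛρ
      have h2 := hb.dist hρ
      have h3 := norm_sub_le_norm_sub_add_norm_sub (z + ρ • b + (Λ * ρ) • a) (z + ρ • b) z
      linarith)
    (by rw [abs_of_nonneg (by linarith)]; linarith)
    (by
      have h2 : 48 * (Λ * ρ) ^ 2 * (1 / (F / 8) + 4 / F) = 576 * (Λ * ρ) ^ 2 / F := by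
        field_simp; ring
      rw [h2, div_le_iff₀ hF0]
      nlinarith)
  have k4 : ‖a - p‖ ^ 2 ≤ 2 * κ * F / (Λ * ρ) + 40 * κ + 192 * l + V1 := by
    rw [sq_smul] at k3
    have h2 : 8 * (2 * κ * (F / 8)) * (1 / (Λ * ρ) + 1 / (F / 8))
        + 8 * (2 * κ * (F / 8) + 2 * l * F + 6 * (ρ ^ 2 * ‖b + p‖ ^ 2) / F) * (1 / (F / 8) + 4 / F)
        = 2 * κ * F / (Λ * ρ) + 40 * κ + 192 * l + 576 * ρ ^ 2 / F ^ 2 * ‖b + p‖ ^ 2 := by
      field_simp; ring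
    have h3 : 576 * ρ ^ 2 / F ^ 2 ≤ 1 := by
      rw [div_le_one (by positivity)]; nlinarith
    have h5 : 576 * ρ ^ 2 / F ^ 2 * ‖b + p‖ ^ 2 ≤ 1 * V1 := by gcongr
    linarith
  have k5 := sq_add_le (a - p) (b + p)
  have e2 : a - p + (b + p) = a + b := by abel
  rw [e2] at k5
  have e3 : 4 * κ * F / (Λ * ρ) = 2 * (2 * κ * F / (Λ * ρ)) := by ring
  linarith

lemma P2 {u v : E → ℝ} (hu : Lip u) (hv : ∀ x, v x = - u x) {B p : E} {τ e ρ T : ℝ}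
    (hρ : 0 < ρ) (hρτ : 2 * ρ ≤ τ) (hT : τ ≤ T) (hp : UpP u B τ e p) (hc : Cvx u T (B - τ • p)) :
    sl u (τ / 2) (B - τ • p) - e / ρ ≤ sl v ρ B := by
  have hτ : 0 < τ := by linarith
  have hτρ : 0 < τ - ρ := by linarith
  have k1 := hp.vertex hτ
  set x := B - τ • p
  obtain ⟨y, hy, -⟩ := cst_split hτρ hρ x B
  rw [sub_add_cancel] at hy
  have k2 := le_kk (hu.neg hv) hρ B y
  rw [hv, cst_comm] at k2
  have k3 := le_kk hu hτρ x y
  have k4 := hc.sl_le_slope (a := τ / 2) (c := τ - ρ) (d := τ) (by positivity) hτρ.le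
    (by linarith) (by linarith) hT
  rw [sub_sub_cancel, le_div_iff₀ hρ] at k4
  have k5 := kk_eq_sl v hρ B
  rw [hv] at k5
  have k6 : ρ * (sl u (τ / 2) x - e / ρ) ≤ ρ * sl v ρ B := by
    rw [mul_sub, mul_div_cancel₀ _ hρ.ne']
    linarith
  exact le_of_mul_le_mul_left k6 hρ

lemma IF_lower {u v : E → ℝ} (hu : Lip u) (hv : ∀ x, v x = - u x) {z p : E}
    {F l w ρ κ T : ℝ} (hρ : 0 < ρ) (hF : 16 * ρ ≤ F) (hT : F ≤ T) (hκ1 : κ ≤ 1)
    (hκl : κ ≤ l) (hκρ : κ * F ≤ l * ρ) (hfl : Flat u v z F l p w)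
    (hc : ∀ y, ‖y - z‖ ≤ F → Cvx u T y) (hpar : Par u z (F / 8) (2 * κ * (F / 8))) :
    w - 65 * l ≤ sl v ρ z := by
  obtain ⟨q, hq⟩ := hpar
  have hF0 : 0 < F := by linarith
  have hu' : ∀ x, u x = - v x := fun x => by rw [hv, neg_neg]
  have hκ : 0 ≤ κ := by
    have := hq.nonneg
    nlinarith
  have hl : 0 ≤ l := hκ.trans hκl
  have hq4 := hq.norm_le hu (by positivity) (by nlinarith)
  have k1 := P2 hu hv hρ (by linarith) (by linarith) hq (hc _ (by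
    rw [sub_sub_cancel_left, norm_neg, norm_smul, Real.norm_eq_abs, abs_of_pos (by positivity)]
    nlinarith))
  have k2 := hfl.symm.upP hu' hF0 (t := 0) (by rw [abs_zero]; linarith) 0
  simp only [zero_smul, add_zero, norm_zero] at k2
  have k3 := SL hv (by positivity) (by positivity) hq k2
  have k4 : ‖q + -p‖ ^ 2 ≤ 54 * l := by
    have : 2 * (2 * κ * (F / 8) + (2 * l * F + 3 * 0 ^ 2 / F)) * (1 / (F / 8) + 1 / (F / 4))
        = 6 * κ + 48 * l := by field_simp; ring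
    linarith
  have e1 : z + (-(F / 8)) • p + (-(F / 8)) • (q + -p) = z - (F / 8) • q := by
    rw [smul_add, smul_neg, neg_smul, neg_smul]; abel
  have k5 := hfl.sl_lower hu hv (t := -(F / 8)) (τ := F / 8 / 2) (by positivity)
    (by rw [abs_neg, abs_of_pos (by positivity)]; linarith)
    (by rw [abs_of_neg (by linarith)]; linarith) ((-(F / 8)) • (q + -p))
  rw [e1, sq_smul] at k5
  have k6 : (2 * l * F + 2 * ((-(F / 8)) ^ 2 * ‖q + -p‖ ^ 2) / F) / (F / 8 / 2)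
      = 32 * l + ‖q + -p‖ ^ 2 / 2 := by field_simp; ring
  have k7 : 2 * κ * (F / 8) / ρ ≤ l := by
    rw [div_le_iff₀ hρ]; nlinarith
  linarith

lemma IF_step [ProperSpace E] {u v : E → ℝ} (hu : Lip u) (hv : ∀ x, v x = - u x) {z p : E}
    {F l w κ T c Λ : ℝ} {N : ℕ} (hΛ : 100000 ≤ Λ) (hN : 10000 ≤ N) (hc : c * (64 * Λ ^ N) = 1)
    (hF : 0 < F) (hT : F ≤ T) (hκ : 0 ≤ κ) (hκ1 : κ ≤ 1) (hl : 0 ≤ l) (hκl : κ ≤ c * l)
    (hfl : Flat u v z F l p w)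
    (hg : ∀ y, ‖y - z‖ ≤ F → (Cvx u T y ∧ Cvx v T y) ∧
      Par u y (F / 8) (2 * κ * (F / 8)) ∧ Par v y (F / 8) (2 * κ * (F / 8))) :
    ∃ F' p' w', c * F ≤ F' ∧ F' ≤ F / 2 ∧ Flat u v z F' (l / 2) p' w' := by
  have hvl := hu.neg hv
  have hu' : ∀ x, u x = - v x := fun x => by rw [hv, neg_neg]
  have hΛ1 : 1 ≤ Λ := by linarith
  have hΛN : 1 ≤ Λ ^ N := one_le_pow₀ hΛ1
  have hc0 : 0 < c := by
    by_contra h
    push Not at h
    nlinarith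
  have hc1 : c ≤ 1 / 64 := by nlinarith
  have hκl' : κ ≤ l := by nlinarith
  set ρ0 := 2 * c * F with hρ0
  have hρ00 : 0 < ρ0 := by positivity
  have hρN : ρ0 * Λ ^ N = F / 32 := by
    have : ρ0 * Λ ^ N = (c * (64 * Λ ^ N)) * (F / 32) := by rw [hρ0]; ring
    rw [this, hc, one_mul]
  have hz : ‖z - z‖ ≤ F := by rw [sub_self, norm_zero]; exact hF.le
  have hκρ : κ * F ≤ l * ρ0 := by
    have := mul_le_mul_of_nonneg_right hκl hF.le
    have h2 : 0 ≤ c * l * F := by positivity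
    rw [hρ0]; linarith
  have hρ0F : 16 * ρ0 ≤ F := by rw [hρ0]; nlinarith
  have l1 := IF_lower hu hv hρ00 hρ0F hT hκ1 hκl' hκρ hfl (fun y hy => (hg y hy).1.1)
    (hg z hz).2.1
  have l2 := IF_lower hvl hu' hρ00 hρ0F hT hκ1 hκl' hκρ hfl.symm (fun y hy => (hg y hy).1.2)
    (hg z hz).2.2
  have u1 := hfl.sl_upper hv (τ := F / 32) (by positivity) (by linarith) 0
  have u2 := hfl.symm.sl_upper hu' (τ := F / 32) (by positivity) (by linarith) 0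
  have e1 : (2 * l * F + 3 * ‖(0 : E)‖ ^ 2 / F) / (F / 32) = 64 * l := by
    rw [norm_zero]; field_simp; ring
  rw [e1, add_zero] at u1 u2
  obtain ⟨i, hi, hD⟩ := pigeon (fun i => sl u (ρ0 * Λ ^ i) z + sl v (ρ0 * Λ ^ i) z) N (by omega)
    (R := 258 * l) (by
      simp only [pow_zero, mul_one, hρN]
      linarith)
  set ρ := ρ0 * Λ ^ i with hρ
  have hρi : 1 ≤ Λ ^ i := one_le_pow₀ hΛ1
  have hρρ0 : ρ0 ≤ ρ := by rw [hρ]; nlinarith
  have hρpos : 0 < ρ := by linarith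
  have e2 : ρ0 * Λ ^ (i + 1) = Λ * ρ := by rw [hρ]; ring
  have hΛρ : Λ * ρ ≤ F / 32 := by
    rw [← e2, ← hρN]
    have : Λ ^ (i + 1) ≤ Λ ^ N := pow_le_pow_right₀ hΛ1 (by omega)
    gcongr
  have hρΛρ : ρ ≤ Λ * ρ := by nlinarith
  simp only [e2] at hD
  have hV : 4 * (16 * κ * (F / 8) / ρ + 48 * κ + 32 * l * F / (F / 8)) + 4 * κ * F / (Λ * ρ)
      + 80 * κ + 384 * l ≤ 1700 * l := by
    have h1 : κ * F / ρ ≤ l := by rw [div_le_iff₀ hρpos]; nlinarith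
    have h2 : κ * F / (Λ * ρ) ≤ κ * F / ρ := by gcongr
    have h3 : 16 * κ * (F / 8) / ρ = 2 * (κ * F / ρ) := by ring
    have h4 : 32 * l * F / (F / 8) = 256 * l := by field_simp; ring
    have h5 : 4 * κ * F / (Λ * ρ) = 4 * (κ * F / (Λ * ρ)) := by ring
    linarith
  have hρ2 : 96 * ρ ^ 2 ≤ F / 8 * F := by nlinarith
  obtain ⟨p', w', hfl'⟩ := CE2 hu hv (z := z) (Λ := Λ) (V := 1700 * l) (T := T) hρpos
    (by linarith) (by linarith) (by positivity) (fun y hy => (hg y (by linarith)).1)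
    (fun b a hb ha => (VV hu hv hρpos hΛ1 (by linarith) (by positivity : 0 < F / 8) (by linarith)
      hρ2 hκ hl hfl (fun y hy => (hg y hy).2) hb ha).trans hV)
    (fun b a hb ha => (VV hvl hu' hρpos hΛ1 (by linarith) (by positivity : 0 < F / 8) (by linarith)
      hρ2 hκ hl hfl.symm (fun y hy => (hg y hy).2.symm) hb ha).trans hV) hD
  refine ⟨ρ / 2, p', w', by linarith, by linarith, hfl'.mono (by positivity) ?_⟩
  have hN' : (10000 : ℝ) ≤ N := by exact_mod_cast hN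
  have h1 : 258 * l / N ≤ 258 * l / 10000 := by gcongr
  have h2 : 12 * (1700 * l) / (Λ - 1) ≤ 12 * (1700 * l) / 99999 := by gcongr; linarith
  linarith

/-- improvement-of-flatness property for the constant `c` -/
def IFP (E : Type*) [NormedAddCommGroup E] [InnerProductSpace ℝ E] (c : ℝ) : Prop :=
  ∀ (u v : E → ℝ), Lip u → (∀ x, v x = - u x) → ∀ (z p : E) (F l w κ T : ℝ), 0 < F → F ≤ T →
    0 ≤ κ → κ ≤ 1 → 0 ≤ l → κ ≤ c * l → Flat u v z F l p w →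
    (∀ y, ‖y - z‖ ≤ F → (Cvx u T y ∧ Cvx v T y) ∧
      Par u y (F / 8) (2 * κ * (F / 8)) ∧ Par v y (F / 8) (2 * κ * (F / 8))) →
    ∃ F' p' w', c * F ≤ F' ∧ F' ≤ F / 2 ∧ Flat u v z F' (l / 2) p' w'

lemma exists_IFP : ∃ c : ℝ, 0 < c ∧ c ≤ 1 / 64 ∧ ∀ (E : Type) [NormedAddCommGroup E]
    [InnerProductSpace ℝ E] [ProperSpace E], IFP E c := by
  obtain ⟨N, hN⟩ : ∃ N : ℕ, 10000 ≤ N := ⟨_, le_rfl⟩
  have h1 : (1 : ℝ) ≤ 100000 ^ N := one_le_pow₀ (by norm_num)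
  refine ⟨1 / (64 * 100000 ^ N), by positivity, ?_, ?_⟩
  · gcongr; linarith
  · intro E _ _ _ u v hu hv z p F l w κ T hF hT hκ hκ1 hl hκl hfl hg
    exact IF_step hu hv (Λ := 100000) le_rfl hN (by field_simp) hF hT hκ hκ1 hl hκl hfl hg

lemma M1 {c : ℝ} (hc : 0 < c) (hc1 : c ≤ 1) (hIF : IFP E c) {u v : E → ℝ} (hu : Lip u)
    (hv : ∀ x, v x = - u x) {z p : E} {F l w κ T R s σ : ℝ} (hs : 0 < s) (hFR : F ≤ R)
    (hT : R ≤ T) (hκ : 0 ≤ κ) (hκ1 : κ ≤ 1) (hl : 0 ≤ l) (hκl : κ ≤ c * l)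
    (hfl : Flat u v z F l p w) (hσ : 8 * c * s ≤ σ) (hσF : σ ≤ c * F)
    (hg : ∀ y, ‖y - z‖ ≤ R → (Cvx u T y ∧ Cvx v T y) ∧
      ∀ τ, s ≤ τ → τ ≤ R → Par u y τ (2 * κ * τ) ∧ Par v y τ (2 * κ * τ)) :
    ∃ F' p' w', σ ≤ F' ∧ c * F' ≤ σ ∧ Flat u v z F' (l / 2) p' w' := by
  have hσ0 : 0 < σ := lt_of_lt_of_le (by positivity) hσ
  have step : ∀ F p w, F ≤ R → σ ≤ c * F → Flat u v z F l p w →
      ∃ F' p' w', σ ≤ F' ∧ F' ≤ F / 2 ∧ Flat u v z F' (l / 2) p' w' := by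
    intro F p w hFR hσF hfl
    have hF : 0 < F := by
      by_contra h
      push Not at h
      nlinarith
    have hsF : s ≤ F / 8 := by
      have : c * (8 * s) ≤ c * F := by linarith
      have := le_of_mul_le_mul_left this hc
      linarith
    obtain ⟨F', p', w', h1, h2, h3⟩ := hIF u v hu hv z p F l w κ T hF (hFR.trans hT) hκ hκ1 hl hκl
      hfl (fun y hy => ⟨(hg y (hy.trans hFR)).1,
        (hg y (hy.trans hFR)).2 _ hsF (by linarith)⟩)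
    exact ⟨F', p', w', by linarith, h2, h3⟩
  have ind : ∀ n : ℕ, ∀ F p w, F ≤ R → σ ≤ F → F ≤ 2 ^ n * σ → Flat u v z F (l / 2) p w →
      ∃ F' p' w', σ ≤ F' ∧ c * F' ≤ σ ∧ Flat u v z F' (l / 2) p' w' := by
    intro n
    induction n with
    | zero =>
      intro F p w _ h1 h2 h3
      refine ⟨F, p, w, h1, ?_, h3⟩
      rw [pow_zero, one_mul] at h2
      nlinarith
    | succ n ih =>
      intro F p w h0 h1 h2 h3
      by_cases h : c * F ≤ σ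
      · exact ⟨F, p, w, h1, h, h3⟩
      · push Not at h
        obtain ⟨F', p', w', k1, k2, k3⟩ := step F p w h0 h.le
          (h3.mono (by linarith) (by linarith))
        refine ih F' p' w' (by linarith) k1 ?_ k3
        rw [pow_succ] at h2
        linarith
  obtain ⟨F', p', w', k1, k2, k3⟩ := step F p w hFR hσF hfl
  obtain ⟨n, hn⟩ := pow_unbounded_of_one_lt (F' / σ) (one_lt_two (α := ℝ))
  rw [div_lt_iff₀ hσ0] at hn
  exact ind n F' p' w' (by linarith) k1 hn.le k3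

end Vale.Agent.P080
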