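import Mathlib

namespace Vale.Agent.P080

open Metric Set
open scoped RealInnerProductSpace

variable {E : Type*} [NormedAddCommGroup E] [InnerProductSpace ℝ E]

/-- quadratic cost -/
noncomputable def cst (τ : ℝ) (x y : E) : ℝ := ‖x - y‖ ^ 2 / (2 * τ)

/-- sup-convolution (Hopf-Lax flow) -/
noncomputable def kk (u : E → ℝ) (τ : ℝ) (x : E) : ℝ :=
  ⨆ v : E, (u (x + τ • v) - τ * ‖v‖ ^ 2 / 2)

def Lip (u : E → ℝ) : Prop := ∀ x y, u x - u y ≤ ‖x - y‖

omit [InnerProductSpace ℝ E] in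
lemma cst_comm (τ : ℝ) (x y : E) : cst τ x y = cst τ y x := by
  unfold cst; rw [norm_sub_rev]

omit [InnerProductSpace ℝ E] in
lemma cst_self (τ : ℝ) (x : E) : cst τ x x = 0 := by
  unfold cst; simp

omit [InnerProductSpace ℝ E] in
lemma cst_nonneg {τ : ℝ} (hτ : 0 ≤ τ) (x y : E) : 0 ≤ cst τ x y := by
  unfold cst; positivity

omit [InnerProductSpace ℝ E] in
lemma cst_anti {a b : ℝ} (ha : 0 < a) (hab : a ≤ b) (x y : E) : cst b x y ≤ cst a x y := by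
  unfold cst
  apply div_le_div_of_nonneg_left (by positivity) (by positivity) (by linarith)

lemma lin_le_sq {τ : ℝ} (hτ : 0 < τ) (t : ℝ) : t ≤ τ / 2 + t ^ 2 / (2 * τ) := by
  have : τ / 2 + t ^ 2 / (2 * τ) - t = (t - τ) ^ 2 / (2 * τ) := by field_simp; ring
  have h2 : 0 ≤ (t - τ) ^ 2 / (2 * τ) := by positivity
  linarith

omit [InnerProductSpace ℝ E] in
lemma cst_tri {a b : ℝ} (ha : 0 < a) (hb : 0 < b) (x y z : E) :
    cst (a + b) x z ≤ cst a x y + cst b y z := by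
  unfold cst
  have h1 : ‖x - z‖ ≤ ‖x - y‖ + ‖y - z‖ := norm_sub_le_norm_sub_add_norm_sub x y z
  have h2 : ‖x - z‖ ^ 2 ≤ (‖x - y‖ + ‖y - z‖) ^ 2 := by gcongr
  set s := ‖x - y‖
  set t := ‖y - z‖
  have h3 : s ^ 2 / (2 * a) + t ^ 2 / (2 * b) - (s + t) ^ 2 / (2 * (a + b))
      = (b * s - a * t) ^ 2 / (2 * a * b * (a + b)) := by field_simp; ring
  have h4 : 0 ≤ (b * s - a * t) ^ 2 / (2 * a * b * (a + b)) := by positivity
  have h5 : ‖x - z‖ ^ 2 / (2 * (a + b)) ≤ (s + t) ^ 2 / (2 * (a + b)) := by gcongr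
  linarith

lemma cst_smul {τ : ℝ} (hτ : 0 < τ) (x v : E) : cst τ x (x + τ • v) = τ * ‖v‖ ^ 2 / 2 := by
  unfold cst
  have : x - (x + τ • v) = -(τ • v) := by abel
  rw [this, norm_neg, norm_smul, Real.norm_eq_abs, abs_of_pos hτ]
  field_simp

/-- splitting the cost along a segment -/
lemma cst_split {a b : ℝ} (ha : 0 < a) (hb : 0 < b) (x z : E) :
    ∃ y, cst (a + b) x z = cst a x y + cst b y z ∧ ‖x - y‖ = a / (a + b) * ‖x - z‖ := by
  have hab : 0 < a + b := by linarith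
  refine ⟨x + (a / (a + b)) • (z - x), ?_, ?_⟩
  · unfold cst
    have h1 : x - (x + (a / (a + b)) • (z - x)) = (a / (a + b)) • (x - z) := by
      rw [← neg_sub x z, smul_neg]; abel
    have h2 : x + (a / (a + b)) • (z - x) - z = (b / (a + b)) • (x - z) := by
      have : b / (a + b) = 1 - a / (a + b) := by field_simp; ring
      rw [this, sub_smul, one_smul, ← neg_sub x z, smul_neg]; abel
    rw [h1, h2, norm_smul, norm_smul, Real.norm_eq_abs, Real.norm_eq_abs,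
      abs_of_pos (by positivity), abs_of_pos (by positivity)]
    field_simp
  · have h1 : x - (x + (a / (a + b)) • (z - x)) = (a / (a + b)) • (x - z) := by
      rw [← neg_sub x z, smul_neg]; abel
    rw [h1, norm_smul, Real.norm_eq_abs, abs_of_pos (by positivity)]

omit [InnerProductSpace ℝ E] in
lemma Lip.continuous {u : E → ℝ} (hu : Lip u) : Continuous u := by
  have : LipschitzWith 1 u := by
    apply LipschitzWith.of_dist_le_mul
    intro x y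
    rw [Real.dist_eq, dist_eq_norm, abs_le]
    have h1 := hu x y
    have h2 := hu y x
    rw [norm_sub_rev] at h2
    constructor <;> simp <;> linarith
  exact this.continuous

lemma kk_bdd {u : E → ℝ} (hu : Lip u) {τ : ℝ} (hτ : 0 ≤ τ) (x v : E) :
    u (x + τ • v) - τ * ‖v‖ ^ 2 / 2 ≤ u x + τ / 2 := by
  have h1 := hu (x + τ • v) x
  have h2 : x + τ • v - x = τ • v := by abel
  rw [h2, norm_smul, Real.norm_eq_abs, abs_of_nonneg hτ] at h1
  nlinarith [mul_nonneg hτ (sq_nonneg (‖v‖ - 1))]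

lemma kk_bddAbove {u : E → ℝ} (hu : Lip u) {τ : ℝ} (hτ : 0 ≤ τ) (x : E) :
    BddAbove (range fun v : E => u (x + τ • v) - τ * ‖v‖ ^ 2 / 2) := by
  refine ⟨u x + τ / 2, ?_⟩
  rintro _ ⟨v, rfl⟩
  exact kk_bdd hu hτ x v

lemma kk_zero (u : E → ℝ) (x : E) : kk u 0 x = u x := by
  unfold kk; simp

lemma kk_le_add {u : E → ℝ} (hu : Lip u) {τ : ℝ} (hτ : 0 ≤ τ) (x : E) :
    kk u τ x ≤ u x + τ / 2 :=
  ciSup_le fun v => kk_bdd hu hτ x v

lemma le_kk {u : E → ℝ} (hu : Lip u) {τ : ℝ} (hτ : 0 < τ) (x y : E) :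
    u y - cst τ x y ≤ kk u τ x := by
  have h := le_ciSup (kk_bddAbove hu hτ.le x) (τ⁻¹ • (y - x))
  have h1 : x + τ • τ⁻¹ • (y - x) = y := by
    rw [smul_smul, mul_inv_cancel₀ hτ.ne', one_smul]; abel
  have h2 := cst_smul hτ x (τ⁻¹ • (y - x))
  rw [h1] at h2 h
  rw [h2]
  exact h

lemma kk_le {u : E → ℝ} {τ A : ℝ} (hτ : 0 < τ) {x : E} (h : ∀ y, u y - cst τ x y ≤ A) :
    kk u τ x ≤ A := by
  apply ciSup_le
  intro v
  have := h (x + τ • v)
  rwa [cst_smul hτ] at this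

lemma self_le_kk {u : E → ℝ} (hu : Lip u) {τ : ℝ} (hτ : 0 ≤ τ) (x : E) : u x ≤ kk u τ x := by
  rcases hτ.eq_or_lt with h | h
  · rw [← h, kk_zero]
  · have := le_kk hu h x x
    rwa [cst_self, sub_zero] at this

lemma exists_max [ProperSpace E] {u : E → ℝ} (hu : Lip u) {τ : ℝ} (hτ : 0 < τ) (x : E) :
    ∃ y, kk u τ x = u y - cst τ x y ∧ ‖x - y‖ ≤ 2 * τ := by
  have hc : Continuous fun y => u y - cst τ x y := by
    have := hu.continuous
    unfold cst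
    fun_prop
  obtain ⟨y, hy, hmax⟩ := (isCompact_closedBall x (2 * τ)).exists_isMaxOn
    ⟨x, mem_closedBall_self (by positivity)⟩ hc.continuousOn
  refine ⟨y, le_antisymm ?_ (le_kk hu hτ x y), ?_⟩
  · apply kk_le hτ
    intro z
    by_cases hz : z ∈ closedBall x (2 * τ)
    · exact hmax hz
    · have h0 : u x - cst τ x x ≤ u y - cst τ x y := hmax (mem_closedBall_self (by positivity))
      rw [cst_self] at h0
      rw [mem_closedBall, dist_comm, dist_eq_norm, not_le] at hz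
      have h1 := hu z x
      rw [norm_sub_rev] at h1
      have h2 : ‖x - z‖ ≤ cst τ x z := by
        unfold cst
        rw [le_div_iff₀ (by positivity)]
        nlinarith [norm_nonneg (x - z)]
      linarith
  · rw [mem_closedBall, dist_comm, dist_eq_norm] at hy
    exact hy

lemma kk_semi {u : E → ℝ} (hu : Lip u) {a b : ℝ} (ha : 0 < a) (hb : 0 ≤ b) (x y : E) :
    kk u b y - cst a x y ≤ kk u (a + b) x := by
  rcases hb.eq_or_lt with h | h
  · rw [← h, kk_zero, add_zero]; exact le_kk hu ha x y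
  · have : kk u b y ≤ kk u (a + b) x + cst a x y := by
      apply kk_le h
      intro z
      have h1 := le_kk hu (add_pos ha h) x z
      have h2 := cst_tri ha h x y z
      linarith
    linarith

lemma kk_split [ProperSpace E] {u : E → ℝ} (hu : Lip u) {a b : ℝ} (ha : 0 < a) (hb : 0 < b)
    (x : E) : ∃ y, kk u (a + b) x ≤ kk u b y - cst a x y ∧ ‖x - y‖ ≤ 2 * a := by
  obtain ⟨z, hz, hz2⟩ := exists_max hu (add_pos ha hb) x
  obtain ⟨y, hy, hy2⟩ := cst_split ha hb x z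
  refine ⟨y, ?_, ?_⟩
  · have := le_kk hu hb y z
    linarith
  · rw [hy2]
    have : a / (a + b) * ‖x - z‖ ≤ a / (a + b) * (2 * (a + b)) := by gcongr
    have h2 : a / (a + b) * (2 * (a + b)) = 2 * a := by field_simp
    linarith

lemma kk_lip {u : E → ℝ} (hu : Lip u) {τ : ℝ} (hτ : 0 ≤ τ) : Lip (kk u τ) := by
  intro x y
  have : kk u τ x ≤ kk u τ y + ‖x - y‖ := by
    apply ciSup_le
    intro v
    have h1 := le_ciSup (kk_bddAbove hu hτ y) v
    have h2 := hu (x + τ • v) (y + τ • v)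
    have h3 : x + τ • v - (y + τ • v) = x - y := by abel
    rw [h3] at h2
    change u (y + τ • v) - τ * ‖v‖ ^ 2 / 2 ≤ kk u τ y at h1
    linarith
  linarith

lemma kk_mono {u : E → ℝ} (hu : Lip u) {a b : ℝ} (ha : 0 ≤ a) (hab : a ≤ b) (x : E) :
    kk u a x ≤ kk u b x := by
  rcases hab.eq_or_lt with h | h
  · rw [h]
  · have := kk_semi hu (sub_pos.2 h) ha x x
    rwa [cst_self, sub_zero, sub_add_cancel] at this

lemma kk_le_kk_add [ProperSpace E] {u : E → ℝ} (hu : Lip u) {a b : ℝ} (ha : 0 ≤ a) (hb : 0 ≤ b)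
    (x : E) : kk u (a + b) x ≤ kk u a x + b / 2 := by
  rcases hb.eq_or_lt with h | h
  · rw [← h]; simp
  rcases ha.eq_or_lt with h' | h'
  · rw [← h', zero_add, kk_zero]; exact kk_le_add hu hb x
  obtain ⟨y, hy, -⟩ := kk_split hu h h' x
  rw [add_comm]
  have h1 := kk_lip hu ha y x
  rw [norm_sub_rev] at h1
  have h2 := lin_le_sq h ‖x - y‖
  unfold cst at hy
  linarith

/-- the convexity hypothesis -/
def Cvx (u : E → ℝ) (T : ℝ) (x : E) : Prop :=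
  ∀ a b c : ℝ, 0 ≤ a → a ≤ b → b ≤ c → c ≤ T →
    (c - a) * kk u b x ≤ (c - b) * kk u a x + (b - a) * kk u c x

/-- comparison of slopes -/
lemma Cvx.slope {u : E → ℝ} {T : ℝ} {x : E} (h : Cvx u T x) {a b c d : ℝ} (ha : 0 ≤ a)
    (hab : a < b) (hcd : c < d) (hac : a ≤ c) (hbd : b ≤ d) (hd : d ≤ T) :
    (kk u b x - kk u a x) / (b - a) ≤ (kk u d x - kk u c x) / (d - c) := by
  have h1 : (kk u b x - kk u a x) / (b - a) ≤ (kk u d x - kk u a x) / (d - a) := by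
    have := h a b d ha hab.le hbd hd
    rw [div_le_div_iff₀ (by linarith) (by linarith)]
    nlinarith
  have h2 : (kk u d x - kk u a x) / (d - a) ≤ (kk u d x - kk u c x) / (d - c) := by
    have := h a c d ha hac hcd.le hd
    rw [div_le_div_iff₀ (by linarith) (by linarith)]
    nlinarith
  linarith

/-- slope from time zero -/
noncomputable def sl (u : E → ℝ) (τ : ℝ) (x : E) : ℝ := (kk u τ x - u x) / τ

lemma Cvx.sl_mono {u : E → ℝ} {T : ℝ} {x : E} (h : Cvx u T x) {a b : ℝ} (ha : 0 < a)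
    (hab : a ≤ b) (hb : b ≤ T) : sl u a x ≤ sl u b x := by
  have := h.slope le_rfl ha (lt_of_lt_of_le ha hab) le_rfl hab hb
  simpa [sl, kk_zero] using this

lemma Cvx.sl_le_slope {u : E → ℝ} {T : ℝ} {x : E} (h : Cvx u T x) {a c d : ℝ} (ha : 0 < a)
    (hc : 0 ≤ c) (hcd : c < d) (had : a ≤ d) (hd : d ≤ T) :
    sl u a x ≤ (kk u d x - kk u c x) / (d - c) := by
  have := h.slope le_rfl ha hcd hc had hd
  simpa [sl, kk_zero] using this

lemma kk_eq_sl (u : E → ℝ) {τ : ℝ} (hτ : 0 < τ) (x : E) : kk u τ x = u x + τ * sl u τ x := by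
  unfold sl; field_simp; ring

/-- upper paraboloid with slope `p` -/
def UpP (u : E → ℝ) (y : E) (τ e : ℝ) (p : E) : Prop :=
  ∀ h, u (y + h) ≤ u y + e + ⟪p, h⟫ + ‖h‖ ^ 2 / (2 * τ)

def Par (u : E → ℝ) (y : E) (τ e : ℝ) : Prop := ∃ p, UpP u y τ e p

lemma UpP.mono {u : E → ℝ} {y p : E} {τ e τ' e' : ℝ} (h : UpP u y τ e p) (h0 : 0 < τ')
    (hτ : τ' ≤ τ) (he : e ≤ e') : UpP u y τ' e' p := by
  intro x
  have h1 := h x
  have h2 : ‖x‖ ^ 2 / (2 * τ) ≤ ‖x‖ ^ 2 / (2 * τ') :=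
    div_le_div_of_nonneg_left (by positivity) (by positivity) (by linarith)
  linarith

lemma Par.mono {u : E → ℝ} {y : E} {τ e τ' e' : ℝ} (h : Par u y τ e) (h0 : 0 < τ')
    (hτ : τ' ≤ τ) (he : e ≤ e') : Par u y τ' e' := by
  obtain ⟨p, hp⟩ := h
  exact ⟨p, hp.mono h0 hτ he⟩

lemma UpP.nonneg {u : E → ℝ} {y p : E} {τ e : ℝ} (h : UpP u y τ e p) : 0 ≤ e := by
  have := h 0
  simpa using this

lemma upP_zero {u : E → ℝ} (hu : Lip u) (y : E) {τ : ℝ} (hτ : 0 < τ) : UpP u y τ (τ / 2) 0 := by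
  intro h
  have h1 := hu (y + h) y
  rw [add_sub_cancel_left] at h1
  have h2 := lin_le_sq hτ ‖h‖
  simp only [inner_zero_left]
  linarith

lemma UpP.norm_le {u : E → ℝ} (hu : Lip u) {y p : E} {τ e : ℝ} (h : UpP u y τ e p) (hτ : 0 < τ)
    (he : e ≤ 2 * τ) : ‖p‖ ≤ 4 := by
  have h1 := h (-(τ • p))
  have h2 := hu y (y + -(τ • p))
  have h3 : y - (y + -(τ • p)) = τ • p := by abel
  rw [h3] at h2
  rw [inner_neg_right, inner_smul_right, real_inner_self_eq_norm_sq, norm_neg] at h1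
  rw [norm_smul, Real.norm_eq_abs, abs_of_pos hτ] at h1 h2
  have h4 : (τ * ‖p‖) ^ 2 / (2 * τ) = τ * ‖p‖ ^ 2 / 2 := by field_simp
  rw [h4] at h1
  by_contra hc
  push Not at hc
  have h5 : τ * (‖p‖ ^ 2 / 2 - ‖p‖ - 2) ≤ 0 := by nlinarith
  have h6 : 0 < ‖p‖ ^ 2 / 2 - ‖p‖ - 2 := by nlinarith
  nlinarith

/-- slopes of an upper and a lower paraboloid are close -/
lemma SL {u v : E → ℝ} (hv : ∀ x, v x = - u x) {y p q : E} {τ₁ τ₂ e₁ e₂ : ℝ} (h₁ : 0 < τ₁)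
    (h₂ : 0 < τ₂) (hp : UpP u y τ₁ e₁ p) (hq : UpP v y τ₂ e₂ q) :
    ‖p + q‖ ^ 2 ≤ 2 * (e₁ + e₂) * (1 / τ₁ + 1 / τ₂) := by
  set A := 1 / τ₁ + 1 / τ₂ with hA
  have hA0 : 0 < A := by positivity
  have k1 := hp (-(A⁻¹ • (p + q)))
  have k2 := hq (-(A⁻¹ • (p + q)))
  rw [hv, hv] at k2
  have k3 : ⟪p, -(A⁻¹ • (p + q))⟫ + ⟪q, -(A⁻¹ • (p + q))⟫ = -(A⁻¹ * ‖p + q‖ ^ 2) := by
    rw [← inner_add_left, inner_neg_right, inner_smul_right, real_inner_self_eq_norm_sq]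
  have k4 : ‖-(A⁻¹ • (p + q))‖ ^ 2 / (2 * τ₁) + ‖-(A⁻¹ • (p + q))‖ ^ 2 / (2 * τ₂)
      = A⁻¹ * ‖p + q‖ ^ 2 / 2 := by
    rw [norm_neg, norm_smul, Real.norm_eq_abs, abs_of_pos (inv_pos.2 hA0)]
    have : (A⁻¹ * ‖p + q‖) ^ 2 / (2 * τ₁) + (A⁻¹ * ‖p + q‖) ^ 2 / (2 * τ₂)
        = (A⁻¹ * ‖p + q‖) ^ 2 / 2 * A := by rw [hA]; field_simp
    rw [this]; field_simp
  have k5 : A⁻¹ * ‖p + q‖ ^ 2 / 2 ≤ e₁ + e₂ := by linarith
  have k6 : ‖p + q‖ ^ 2 = 2 * (A⁻¹ * ‖p + q‖ ^ 2 / 2) * A := by field_simp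
  rw [k6]
  gcongr

lemma cst_expand {τ : ℝ} (hτ : 0 < τ) (B p h : E) :
    cst τ (B - τ • p) (B + h) = τ * ‖p‖ ^ 2 / 2 + ⟪p, h⟫ + ‖h‖ ^ 2 / (2 * τ) := by
  unfold cst
  have : B - τ • p - (B + h) = -(τ • p + h) := by abel
  rw [this, norm_neg, norm_add_sq_real, norm_smul, Real.norm_eq_abs, abs_of_pos hτ,
    inner_smul_left]
  simp only [conj_trivial]
  field_simp

/-- vertex form of an upper paraboloid -/
lemma UpP.vertex {u : E → ℝ} {B p : E} {τ e : ℝ} (hτ : 0 < τ) (h : UpP u B τ e p) :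
    kk u τ (B - τ • p) + cst τ (B - τ • p) B ≤ u B + e := by
  have h0 := cst_expand hτ B p 0
  simp only [add_zero, inner_zero_right, norm_zero] at h0
  have : kk u τ (B - τ • p) ≤ u B + e - τ * ‖p‖ ^ 2 / 2 := by
    apply kk_le hτ
    intro y
    have h1 := h (y - B)
    have h2 := cst_expand hτ B p (y - B)
    rw [add_sub_cancel] at h1 h2
    linarith
  simp at h0
  linarith

lemma par_of_vertex {u : E → ℝ} (hu : Lip u) {B x : E} {τ e : ℝ} (hτ : 0 < τ)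
    (h : kk u τ x + cst τ x B ≤ u B + e) : Par u B τ e := by
  refine ⟨τ⁻¹ • (B - x), fun h' => ?_⟩
  have hx : B - τ • τ⁻¹ • (B - x) = x := by
    rw [smul_smul, mul_inv_cancel₀ hτ.ne', one_smul]; abel
  have h1 := cst_expand hτ B (τ⁻¹ • (B - x)) h'
  have h0 := cst_expand hτ B (τ⁻¹ • (B - x)) 0
  rw [hx] at h1 h0
  simp only [add_zero, inner_zero_right, norm_zero] at h0
  have h2 := le_kk hu hτ x (B + h')
  simp at h0
  simp only [norm_smul, Real.norm_eq_abs, abs_inv] at h1 h0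
  linarith

/-- growth of the vertex functional away from the vertex of a lower paraboloid -/
lemma vertex_growth {u v : E → ℝ} (hu : Lip u) (hv : ∀ x, v x = - u x) {B q : E} {τ e : ℝ}
    (hτ : 0 < τ) (h : UpP v B τ e q) (x : E) :
    u B - e + ‖x - (B + τ • q)‖ ^ 2 / (4 * τ) ≤ kk u τ x + cst τ x B := by
  set ξ := x - (B + τ • q) with hξ
  have hx : x = B + τ • q + ξ := by rw [hξ]; abel
  have h1 := h ((1 / 2 : ℝ) • ξ)
  rw [hv, hv] at h1
  have h2 := le_kk hu hτ x (B + (1 / 2 : ℝ) • ξ)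
  have h3 : cst τ x B - cst τ x (B + (1 / 2 : ℝ) • ξ)
      = ⟪q, (1 / 2 : ℝ) • ξ⟫ + 3 * ‖ξ‖ ^ 2 / (8 * τ) := by
    unfold cst
    have e1 : x - B = τ • q + ξ := by rw [hx]; abel
    have e2 : x - (B + (1 / 2 : ℝ) • ξ) = τ • q + (1 / 2 : ℝ) • ξ := by
      have : ξ = (1 / 2 : ℝ) • ξ + (1 / 2 : ℝ) • ξ := by rw [← add_smul]; norm_num
      rw [← sub_sub, e1]
      nth_rewrite 1 [this]
      abel
    rw [e1, e2, norm_add_sq_real, norm_add_sq_real]
    simp only [norm_smul, inner_smul_left, inner_smul_right, Real.norm_eq_abs, conj_trivial,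
      abs_of_pos hτ]
    rw [abs_of_pos (by norm_num : (0 : ℝ) < 1 / 2)]
    field_simp
    ring
  have h4 : ‖(1 / 2 : ℝ) • ξ‖ ^ 2 / (2 * τ) = ‖ξ‖ ^ 2 / (8 * τ) := by
    rw [norm_smul, Real.norm_eq_abs, abs_of_pos (by norm_num : (0 : ℝ) < 1 / 2)]
    field_simp
    ring
  have h5 : ‖ξ‖ ^ 2 / (4 * τ) = 3 * ‖ξ‖ ^ 2 / (8 * τ) - ‖ξ‖ ^ 2 / (8 * τ) := by
    field_simp; ring
  linarith

end Vale.Agent.P080
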