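import Vale.Agent.P080.Transfer

namespace Vale.Agent.P080

open Metric Set
open scoped RealInnerProductSpace

variable {E : Type*} [NormedAddCommGroup E] [InnerProductSpace ℝ E]

def Loc (u v : E → ℝ) (T κ e s τ0 R q : ℝ) (y : E) : Prop :=
  (Cvx u T y ∧ Cvx v T y) ∧
  (∀ τ, 0 < τ → τ ≤ R → Par u y τ (κ * τ + e) ∧ Par v y τ (κ * τ + e)) ∧
  ∀ σ, 8 * s ≤ σ → σ ≤ 32 * τ0 →
    ∃ F p w, σ ≤ F ∧ F ≤ q * σ ∧ F ≤ R ∧ Flat u v y F (q * κ) p w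

lemma Loc.symm {u v : E → ℝ} {T κ e s τ0 R q : ℝ} {y : E} (h : Loc u v T κ e s τ0 R q y) :
    Loc v u T κ e s τ0 R q y := by
  refine ⟨h.1.symm, fun τ h1 h2 => (h.2.1 τ h1 h2).symm, fun σ h1 h2 => ?_⟩
  obtain ⟨F, p, w, k1, k2, k3, k4⟩ := h.2.2 σ h1 h2
  exact ⟨F, -p, w, k1, k2, k3, k4.symm⟩

def Cfg (u v : E → ℝ) (κ τ η : ℝ) (B z : E) : Prop :=
  ¬ Par u B τ ((1 - η) * κ * τ) ∧ ∃ q0, UpP v B τ (2 * κ * τ) q0 ∧ z = B + τ • q0

lemma vertex_close {u v : E → ℝ} (hv : ∀ x, v x = - u x) {B q q' : E} {τ g e : ℝ} (hτ : 0 < τ)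
    (hg : 0 ≤ g) (h1 : UpP u B τ e q) (he : e ≤ 2 * g ^ 2 * τ)
    (h2 : UpP v B τ (2 * g ^ 2 * τ) q') : ‖B + τ • q' - (B - τ • q)‖ ≤ 4 * g * τ := by
  have k1 := SL hv hτ hτ (h1.mono hτ le_rfl he) h2
  have e1 : 2 * (2 * g ^ 2 * τ + 2 * g ^ 2 * τ) * (1 / τ + 1 / τ) = (4 * g) ^ 2 := by
    field_simp; ring
  rw [e1] at k1
  have k2 := (abs_le_of_sq_le_sq' k1 (by positivity)).2
  have e2 : B + τ • q' - (B - τ • q) = τ • (q + q') := by rw [smul_add]; abel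
  rw [e2, norm_smul, Real.norm_eq_abs, abs_of_pos hτ]
  nlinarith

lemma up_num {ε κ τ e q F : ℝ} (hε : 0 < ε) (hε1 : ε ≤ 1 / 2) (hκ : 0 ≤ κ) (hτ : 0 < τ)
    (hq : 1 ≤ q) (he0 : 0 ≤ e) (he : e ≤ ε * κ * τ) (hF : F ≤ q * (32 * τ)) :
    (1 + ε) * (κ * τ + e - (1 - 100 * q ^ 2 * ε) * κ * τ)
      + 3 / 2 * (ε * τ / (2 * τ)) * ((1 - 100 * q ^ 2 * ε) * κ * τ + 2 * κ * τ)
      + ε * τ * (q * κ * F / (2 * τ) + 2 * (q * κ) * F / τ) ≤ 234 * q ^ 2 * (ε * κ * τ) := by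
  have hX : 0 ≤ ε * κ * τ := by positivity
  have hq2 : 1 ≤ q ^ 2 := one_le_pow₀ hq
  have h1 : (1 + ε) * (κ * τ + e - (1 - 100 * q ^ 2 * ε) * κ * τ)
      ≤ 3 / 2 * (100 * q ^ 2 * (ε * κ * τ) + ε * κ * τ) := by
    have e1 : κ * τ + e - (1 - 100 * q ^ 2 * ε) * κ * τ = 100 * q ^ 2 * (ε * κ * τ) + e := by ring
    rw [e1]
    gcongr
    linarith
  have h2 : 3 / 2 * (ε * τ / (2 * τ)) * ((1 - 100 * q ^ 2 * ε) * κ * τ + 2 * κ * τ)
      ≤ 9 / 4 * (ε * κ * τ) := by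
    have e1 : 3 / 2 * (ε * τ / (2 * τ)) * ((1 - 100 * q ^ 2 * ε) * κ * τ + 2 * κ * τ)
      = 9 / 4 * (ε * κ * τ) - 75 * q ^ 2 * ε * (ε * κ * τ) := by field_simp; ring
    have : 0 ≤ 75 * q ^ 2 * ε * (ε * κ * τ) := by positivity
    linarith
  have h3 : ε * τ * (q * κ * F / (2 * τ) + 2 * (q * κ) * F / τ) ≤ 80 * q ^ 2 * (ε * κ * τ) := by
    have e1 : ε * τ * (q * κ * F / (2 * τ) + 2 * (q * κ) * F / τ) = 5 / 2 * ε * q * κ * F := by
      field_simp; ring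
    have e2 : 80 * q ^ 2 * (ε * κ * τ) = 5 / 2 * ε * q * κ * (q * (32 * τ)) := by ring
    rw [e1, e2]; gcongr
  nlinarith [mul_le_mul_of_nonneg_right hq2 hX]

lemma step_up [ProperSpace E] {u v : E → ℝ} (hu : Lip u) (hv : ∀ x, v x = - u x)
    {T g e s τ0 R q τ ε : ℝ} {B z : E} (hg0 : 0 < g) (hg1 : g ≤ 1) (hq : 1 ≤ q) (hs : 0 < s)
    (hsτ : s ≤ τ) (hτ0 : τ ≤ τ0) (hR : 64 * τ0 ≤ R) (hT : R ≤ T) (hε : 0 < ε)
    (hε1 : 400 * q ^ 2 * ε ≤ 1) (he0 : 0 ≤ e) (he : e ≤ ε * g ^ 2 * τ)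
    (hloc : ∀ y, ‖y - z‖ ≤ 16 * τ / ε + 40 * τ → Loc u v T (g ^ 2) e s τ0 R q y)
    (hcfg : Cfg u v (g ^ 2) τ (100 * q ^ 2 * ε) B z) :
    ∃ B' z', Cfg u v (g ^ 2) (2 * τ) (100 * q ^ 2 * (4 * ε)) B' z' ∧
      ‖z' - z‖ ≤ 200 * q * g * τ := by
  have hτ : 0 < τ := by linarith
  have hq2 : 1 ≤ q ^ 2 := one_le_pow₀ hq
  have hκ1 : g ^ 2 ≤ 1 := by nlinarith
  have hκ : 0 < g ^ 2 := by positivity
  have hε2 : ε ≤ 1 / 400 := by nlinarith
  set κ := g ^ 2 with hκdef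
  obtain ⟨hnp, q0, hq0, hz⟩ := hcfg
  obtain ⟨F, p, w, hF1, hF2, hF3, hfl⟩ := (hloc z (by rw [sub_self, norm_zero]; positivity)).2.2
    (32 * τ) (by linarith) (by linarith)
  have hγi : 1 / (ε / (16 * τ)) = 16 * τ / ε := by field_simp
  have hκτ : 0 < κ * τ := by positivity
  have hκτ1 : κ * τ ≤ τ := by nlinarith
  have he' : e ≤ κ * τ / 400 := by nlinarith
  have hX : 0 < ε * κ * τ := by positivity
  have hAX : 400 * q ^ 2 * (ε * κ * τ) ≤ κ * τ := by nlinarith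
  have key := transfer hu hv (γ := ε / (16 * τ)) (τc := 2 * τ) (ρ := τ) (T := T) hε (by linarith)
    hτ (by linarith) (by field_simp; ring) hfl (by linarith) (by linarith) (τa := τ / 2) (τb := τ)
    (h := τ / 2) (i := 1) (n := 3) (κ := κ) (e := e) (eb := (1 - 100 * q ^ 2 * ε) * κ * τ)
    (em := 2 * κ * τ) (ηa := 0) (ηb := 234 * q ^ 2 * (ε * κ * τ))
    (ηc := 800 * q ^ 2 * (ε * κ * τ)) (B0 := B) (q0 := q0) (by positivity) (by positivity)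
    (by norm_num) (by push_cast; ring) (by push_cast; ring)
    (fun y hy => by
      have hl := hloc y (by rw [hγi] at hy; linarith)
      exact ⟨hl.1, (hl.2.1 _ (by positivity) (by linarith)).1,
        (hl.2.1 _ (by positivity) (by linarith)).1⟩)
    (by linarith) (by linarith) hq0 (by linarith) hz hnp (by linarith) le_rfl (by positivity)
    (by positivity) (by linarith) (up_num hε (by linarith) hκ.le hτ hq he0 he hF2)
    (by
      have : 0 < τ * (q ^ 2 * (ε * κ * τ)) := by positivity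
      linarith)
  rcases key with ⟨B', q', -, -, h, -⟩ | ⟨B', q', hB', hq', hd, -, hnp'⟩
  · exfalso
    have : 0 ≤ ε / (16 * τ) / 2 * ‖B' - (τ / 2) • q' - z‖ ^ 2 := by positivity
    linarith
  obtain ⟨q'', hq''⟩ := ((hloc B' (by rw [hγi] at hB'; linarith)).2.1 (2 * τ) (by positivity)
    (by linarith)).2
  have hq3 : UpP v B' (2 * τ) (2 * κ * (2 * τ)) q'' := hq''.mono (by positivity) le_rfl (by linarith)
  refine ⟨B', B' + (2 * τ) • q'', ⟨fun hp => hnp' (hp.mono (by positivity) le_rfl (by linarith)),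
    q'', hq3, rfl⟩, ?_⟩
  have k1 := vertex_close hv (by positivity) hg0.le hq' (by linarith) hq3
  have k2 : ‖B' - (2 * τ) • q' - z‖ ≤ 160 * q * g * τ := by
    apply (abs_le_of_sq_le_sq' _ (by positivity)).2
    have e1 : 800 * q ^ 2 * (ε * κ * τ) = ε / (16 * τ) / 2 * (160 * q * g * τ) ^ 2 := by
      rw [hκdef]; field_simp; ring
    rw [e1] at hd
    exact (lt_of_mul_lt_mul_left hd (by positivity)).le
  have k3 := norm_sub_le_norm_sub_add_norm_sub (B' + (2 * τ) • q'') (B' - (2 * τ) • q') z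
  have k4 : g * τ ≤ q * (g * τ) := le_mul_of_one_le_left (by positivity) hq
  have k5 : 0 ≤ g * τ := by positivity
  linarith

lemma down_num {ε κ s τ0 e q F δ : ℝ} (hε : 0 < ε) (hε1 : ε ≤ 1 / 2) (hκ : 0 ≤ κ) (hs : 0 < s)
    (hτ : 0 < τ0) (hq : 1 ≤ q) (he0 : 0 ≤ e) (he : e ≤ ε * κ * s) (hF : F ≤ q * (32 * τ0))
    (hδ0 : 0 ≤ δ) (hδ : δ * τ0 ≤ ε * s) :
    (1 + ε) * (κ * τ0 + e - (1 - δ) * κ * τ0)
      + 3 / 2 * (ε * s / (2 * τ0)) * ((1 - δ) * κ * τ0 + 2 * κ * τ0)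
      + ε * s * (q * κ * F / (2 * τ0) + 2 * (q * κ) * F / τ0) ≤ 86 * q ^ 2 * (ε * κ * s) := by
  have hX : 0 ≤ ε * κ * s := by positivity
  have hq2 : 1 ≤ q ^ 2 := one_le_pow₀ hq
  have h1 : (1 + ε) * (κ * τ0 + e - (1 - δ) * κ * τ0) ≤ 3 / 2 * (κ * (ε * s) + ε * κ * s) := by
    have e1 : κ * τ0 + e - (1 - δ) * κ * τ0 = κ * (δ * τ0) + e := by ring
    rw [e1]
    gcongr
    linarith
  have h2 : 3 / 2 * (ε * s / (2 * τ0)) * ((1 - δ) * κ * τ0 + 2 * κ * τ0)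
      ≤ 9 / 4 * (ε * κ * s) := by
    have e1 : 3 / 2 * (ε * s / (2 * τ0)) * ((1 - δ) * κ * τ0 + 2 * κ * τ0)
      = 9 / 4 * (ε * κ * s) - 3 / 4 * δ * (ε * κ * s) := by field_simp; ring
    have : 0 ≤ 3 / 4 * δ * (ε * κ * s) := by positivity
    linarith
  have h3 : ε * s * (q * κ * F / (2 * τ0) + 2 * (q * κ) * F / τ0)
      ≤ 80 * q ^ 2 * (ε * κ * s) := by
    have e1 : ε * s * (q * κ * F / (2 * τ0) + 2 * (q * κ) * F / τ0)
        = 5 / 2 * ε * q * κ * s / τ0 * F := by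
      field_simp; ring
    have e2 : 80 * q ^ 2 * (ε * κ * s) = 5 / 2 * ε * q * κ * s / τ0 * (q * (32 * τ0)) := by
      field_simp; ring
    rw [e1, e2]; gcongr
  nlinarith [mul_le_mul_of_nonneg_right hq2 hX]

lemma D_range {u v : E → ℝ} (hu : Lip u) (hv : ∀ x, v x = - u x) {κ s τ0 q F Fs w ws : ℝ}
    {xc z p ps : E} (hκ : 0 ≤ κ) (hq : 1 ≤ q) (hs : 0 < s) (hτ : 0 < τ0) (hF1 : 32 * τ0 ≤ F)
    (hF2 : F ≤ q * (32 * τ0)) (hfl : Flat u v xc F (q * κ) p w) (hFs1 : 8 * s ≤ Fs)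
    (hFs2 : Fs ≤ q * (8 * s)) (hfls : Flat u v z Fs (q * κ) ps ws)
    (hd : ‖z - xc‖ ^ 2 ≤ 6400 * q ^ 2 * κ * τ0 ^ 2)
    (hσ : s * w - 200 * q ^ 2 * κ * s ≤ kk u (2 * s) z - kk u s z) :
    sl u τ0 z + sl v τ0 z - (sl u s z + sl v s z) ≤ 1800 * q ^ 2 * κ := by
  have hvl := hu.neg hv
  have hu' : ∀ x, u x = - v x := fun x => by rw [hv, neg_neg]
  have hF0 : 0 < F := by linarith
  have u1 := hfl.sl_upper hv hτ (by linarith) (z - xc)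
  have u2 := hfl.symm.sl_upper hu' hτ (by linarith) (z - xc)
  rw [add_sub_cancel] at u1 u2
  have b1 : (2 * (q * κ) * F + 3 * ‖z - xc‖ ^ 2 / F) / τ0 ≤ 664 * q ^ 2 * κ := by
    rw [div_le_iff₀ hτ]
    have m1 : 2 * (q * κ) * F ≤ 2 * (q * κ) * (q * (32 * τ0)) := by gcongr
    have m2 : 3 * ‖z - xc‖ ^ 2 / F ≤ 3 * (6400 * q ^ 2 * κ * τ0 ^ 2) / (32 * τ0) := by gcongr
    have m3 : 3 * (6400 * q ^ 2 * κ * τ0 ^ 2) / (32 * τ0) = 600 * q ^ 2 * κ * τ0 := by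
      field_simp; ring
    linarith
  have s1 := hfls.slope_upper hu hv hs hFs1 0
  have l1 := hfls.sl_lower hu hv (t := 0) hs (by rw [abs_zero]; linarith)
    (by rw [zero_add, abs_of_pos hs]; linarith) 0
  have l2 := hfls.symm.sl_lower hvl hu' (t := 0) hs (by rw [abs_zero]; linarith)
    (by rw [zero_add, abs_of_pos hs]; linarith) 0
  simp only [zero_smul, add_zero, norm_zero] at s1 l1 l2
  have m1 : 2 * (q * κ) * Fs ≤ 2 * (q * κ) * (q * (8 * s)) := by gcongr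
  have b2 : (2 * (q * κ) * Fs + 2 * 0 ^ 2 / Fs) / s ≤ 16 * q ^ 2 * κ := by
    rw [div_le_iff₀ hs]
    simp only [ne_eq, OfNat.ofNat_ne_zero, not_false_eq_true, zero_pow, mul_zero, zero_div]
    linarith
  have b3 : w - 216 * q ^ 2 * κ ≤ ws := by
    simp only [ne_eq, OfNat.ofNat_ne_zero, not_false_eq_true, zero_pow, mul_zero, zero_div] at s1
    have : s * (w - 216 * q ^ 2 * κ) ≤ s * ws := by linarith
    exact le_of_mul_le_mul_left this hs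
  have : 0 ≤ q ^ 2 * κ := by positivity
  linarith

lemma step_down [ProperSpace E] {u v : E → ℝ} (hu : Lip u) (hv : ∀ x, v x = - u x)
    {T g e s τ0 R q ε δ : ℝ} {n : ℕ} {B0 : E} (hg0 : 0 < g) (hg1 : g ≤ 1) (hq : 1 ≤ q)
    (hs : 0 < s) (hn : τ0 = s + n * s) (hR : 64 * τ0 ≤ R) (hT : R ≤ T) (hε : 0 < ε)
    (hε1 : 200 * q ^ 2 * ε ≤ 1) (he0 : 0 ≤ e) (he : e ≤ ε * g ^ 2 * s) (hδ0 : 0 ≤ δ)
    (hδ : δ * τ0 ≤ ε * s)
    (hloc : ∀ y, ‖y - B0‖ ≤ 16 * τ0 ^ 2 / (ε * s) + 44 * τ0 + 84 * q * τ0 →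
      Loc u v T (g ^ 2) e s τ0 R q y)
    (hnp : ¬ Par u B0 τ0 ((1 - δ) * g ^ 2 * τ0)) :
    ∃ z B1 z0, ‖z - B0‖ ≤ 84 * q * τ0 ∧ Cfg u v (g ^ 2) s (100 * q ^ 2 * (2 * ε)) B1 z0 ∧
      ‖z0 - z‖ ≤ 200 * q * g * s ∧
      sl u τ0 z + sl v τ0 z - (sl u s z + sl v s z) ≤ 1800 * q ^ 2 * g ^ 2 := by
  have hns : 0 ≤ (n : ℝ) * s := by positivity
  have hsτ : s ≤ τ0 := by linarith
  have hτ : 0 < τ0 := by linarith
  have hq2 : 1 ≤ q ^ 2 := one_le_pow₀ hq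
  have hκ1 : g ^ 2 ≤ 1 := by nlinarith
  have hκ : 0 < g ^ 2 := by positivity
  have hε2 : ε ≤ 1 / 200 := by nlinarith
  set κ := g ^ 2 with hκdef
  have hκs : 0 < κ * s := by positivity
  have hκs1 : κ * s ≤ s := by nlinarith
  have hκτ1 : κ * τ0 ≤ τ0 := by nlinarith
  have hκsτ : κ * s ≤ κ * τ0 := by gcongr
  have he' : e ≤ κ * s / 200 := by nlinarith
  have hX : 0 < ε * κ * s := by positivity
  have hAX : 200 * q ^ 2 * (ε * κ * s) ≤ κ * s := by nlinarith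
  have hqτ : τ0 ≤ q * τ0 := le_mul_of_one_le_left hτ.le hq
  have hδ1 : δ ≤ 1 := by
    have : δ * τ0 ≤ 1 * τ0 := by nlinarith
    exact le_of_mul_le_mul_right this hτ
  have hrad : 0 ≤ 16 * τ0 ^ 2 / (ε * s) := by positivity
  obtain ⟨q0, hq0⟩ := ((hloc B0 (by rw [sub_self, norm_zero]; positivity)).2.1 τ0 hτ
    (by linarith)).2
  have hq0' : UpP v B0 τ0 (2 * κ * τ0) q0 := hq0.mono hτ le_rfl (by linarith)
  set xc := B0 + τ0 • q0 with hxc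
  have hxcB : ‖xc - B0‖ ≤ 4 * τ0 := by
    have k4 := hq0'.norm_le (hu.neg hv) hτ (by linarith)
    rw [hxc, add_sub_cancel_left, norm_smul, Real.norm_eq_abs, abs_of_pos hτ]
    nlinarith
  obtain ⟨F, p, w, hF1, hF2, hF3, hfl⟩ := (hloc xc (by linarith)).2.2
    (32 * τ0) (by linarith) (by linarith)
  have hγi : 1 / (ε * s / (16 * τ0 ^ 2)) = 16 * τ0 ^ 2 / (ε * s) := by field_simp
  have hloc' : ∀ y, ‖y - xc‖ ≤ 16 * τ0 ^ 2 / (ε * s) + 40 * τ0 → Loc u v T κ e s τ0 R q y := by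
    intro y hy
    have := norm_sub_le_norm_sub_add_norm_sub y xc B0
    exact hloc y (by linarith)
  have key := transfer hu hv (γ := ε * s / (16 * τ0 ^ 2)) (τc := 2 * τ0) (ρ := s) (T := T) hε
    (by linarith) hs (by linarith) (by field_simp; ring) hfl (by linarith) (by linarith)
    (τa := s) (τb := τ0) (h := s) (i := n) (n := 2 * n + 1) (κ := κ) (e := e)
    (eb := (1 - δ) * κ * τ0) (em := 2 * κ * τ0) (ηa := 200 * q ^ 2 * (ε * κ * s))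
    (ηb := 86 * q ^ 2 * (ε * κ * s)) (ηc := 0) (B0 := B0) (q0 := q0) hs hs
    (by omega) hn (by push_cast; linarith)
    (fun y hy => by
      have hl := hloc' y (by rw [hγi] at hy; linarith)
      exact ⟨hl.1, (hl.2.1 _ (by positivity) (by linarith)).1,
        (hl.2.1 _ (by positivity) (by linarith)).1⟩)
    (by linarith) (by linarith) hq0' (by linarith) rfl hnp
    (by have : 0 ≤ 1 - δ := by linarith
        positivity)
    (by positivity) (by linarith) le_rfl (by positivity)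
    (down_num hε (by linarith) hκ.le hs hτ hq he0 he hF2 hδ0 hδ)
    (by
      have h1 : 0 < τ0 * (q ^ 2 * (ε * κ * s)) := by positivity
      have h2 : 0 < s * (q ^ 2 * (ε * κ * s)) := by positivity
      linarith)
  rcases key with ⟨B', q', hB', hq', hd, hσ, hnp'⟩ | ⟨B', q', -, -, h, -⟩
  swap
  · exfalso
    have : 0 ≤ ε * s / (16 * τ0 ^ 2) / 2 * ‖B' - (2 * τ0) • q' - xc‖ ^ 2 := by positivity
    linarith
  obtain ⟨q'', hq''⟩ := ((hloc' B' (by rw [hγi] at hB'; linarith)).2.1 s hs (by linarith)).2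
  have hq3 : UpP v B' s (2 * κ * s) q'' := hq''.mono hs le_rfl (by linarith)
  have k1 := vertex_close hv hs hg0.le hq' (by linarith) hq3
  set z := B' - s • q' with hz
  have k2 : ‖z - xc‖ ^ 2 ≤ (80 * q * g * τ0) ^ 2 := by
    have e1 : 200 * q ^ 2 * (ε * κ * s) = ε * s / (16 * τ0 ^ 2) / 2 * (80 * q * g * τ0) ^ 2 := by
      rw [hκdef]; field_simp; ring
    rw [e1] at hd
    exact (lt_of_mul_lt_mul_left hd (by positivity)).le
  have k3 := (abs_le_of_sq_le_sq' k2 (by positivity)).2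
  have k4 : 80 * q * g * τ0 ≤ 80 * q * 1 * τ0 := by gcongr
  have k5 : ‖z - B0‖ ≤ 84 * q * τ0 := by
    have := norm_sub_le_norm_sub_add_norm_sub z xc B0
    linarith
  obtain ⟨Fs, ps, ws, hFs1, hFs2, -, hfls⟩ := (hloc z (by linarith)).2.2
    (8 * s) le_rfl (by linarith)
  have k6 : g * s ≤ q * (g * s) := le_mul_of_one_le_left (by positivity) hq
  have k7 : 0 ≤ g * s := by positivity
  refine ⟨z, B', B' + s • q'', k5, ⟨fun hp => hnp' (hp.mono hs le_rfl (by linarith)),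
    q'', hq3, rfl⟩, by linarith, ?_⟩
  apply D_range hu hv hκ.le hq hs hτ hF1 hF2 hfl hFs1 hFs2 hfls
  · rw [hκdef]; linarith
  · have m1 : 0 ≤ ε * s * (q * κ * F / (2 * τ0)) := by
      have : 0 ≤ F := by linarith
      positivity
    have m2 : ε * (s * w - 200 * q ^ 2 * κ * s) ≤ ε * (kk u (s + s) z - kk u s z) := by linarith
    rw [two_mul]
    exact le_of_mul_le_mul_left m2 hε

end Vale.Agent.P080
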