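import Vale.Agent.P080.Improve

namespace Vale.Agent.P080

open Metric Set
open scoped RealInnerProductSpace

variable {E : Type*} [NormedAddCommGroup E] [InnerProductSpace ℝ E]

lemma N3_final {u v : E → ℝ} (hv : ∀ x, v x = - u x) {g τ η q Λ l w : ℝ} {B z z' p : E}
    (hτ : 0 < τ) (hq : 1 ≤ q) (hg : 0 < g) (hη : η ≤ 1 / 2) (hΛ : 2000000 * q ^ 2 ≤ Λ)
    (hcfg : Cfg u v (g ^ 2) τ η B z') (hz : ‖z' - z‖ ≤ 200 * q * g * τ)
    (hfl : Flat u v z (Λ * τ) l p w) (hl : l * Λ ≤ g ^ 2 / 8) : False := by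
  obtain ⟨hnp, q0, hq0, hz'⟩ := hcfg
  have hq2 : 1 ≤ q ^ 2 := one_le_pow₀ hq
  have hΛ1 : 2000000 ≤ Λ := by linarith
  have hΛ0 : 0 < Λ := by linarith
  have hF : 0 < Λ * τ := by positivity
  have hτF : 4 * τ ≤ Λ * τ := by gcongr; linarith
  set ξ := (z' - z) - τ • (p + q0) with hξ
  have e1 : z + τ • p + ξ = B := by
    rw [hξ, hz', smul_add]; abel
  have k1 := hfl.upP hv hF (t := τ) (by rw [abs_of_pos hτ]; linarith) ξ
  rw [e1] at k1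
  have k2 := SL hv (by positivity) hτ k1 hq0
  have k3 := sq_sub_le (z' - z) (τ • (p + q0))
  rw [← hξ, sq_smul] at k3
  have k4 : ‖z' - z‖ ^ 2 ≤ (200 * q * g * τ) ^ 2 := by gcongr
  have he0 := k1.nonneg
  set κ := g ^ 2 with hκ
  have hκ0 : 0 < κ := by positivity
  set X := ‖ξ‖ ^ 2 / (Λ * τ) with hX
  have hX0 : 0 ≤ X := by positivity
  have e2 : 3 * ‖ξ‖ ^ 2 / (Λ * τ) = 3 * X := by rw [hX]; ring
  have e3 : ‖ξ‖ ^ 2 = τ * (Λ * X) := by rw [hX]; field_simp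
  rw [e2] at k1 k2 he0
  have k5 : 2 * l * (Λ * τ) ≤ κ * τ / 4 := by nlinarith
  have hκτ : 0 < κ * τ := by positivity
  have k6 : τ ^ 2 * ‖p + q0‖ ^ 2 ≤ τ * (4 * (κ * τ / 4 + 3 * X + 2 * κ * τ)) := by
    have m1 : 1 / (Λ * τ / 4) ≤ 1 / τ := by gcongr; linarith
    have m2 : 2 * (2 * l * (Λ * τ) + 3 * X + 2 * κ * τ) * (1 / (Λ * τ / 4) + 1 / τ)
        ≤ 2 * (κ * τ / 4 + 3 * X + 2 * κ * τ) * (1 / τ + 1 / τ) := by gcongr
    have m3 : τ ^ 2 * (2 * (κ * τ / 4 + 3 * X + 2 * κ * τ) * (1 / τ + 1 / τ))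
        = τ * (4 * (κ * τ / 4 + 3 * X + 2 * κ * τ)) := by field_simp; ring
    rw [← m3]
    gcongr
    exact k2.trans m2
  have k7 : Λ * X ≤ 80000 * q ^ 2 * (κ * τ) + 18 * (κ * τ) + 24 * X := by
    have : τ * (Λ * X) ≤ τ * (80000 * q ^ 2 * (κ * τ) + 18 * (κ * τ) + 24 * X) := by
      have e4 : (200 * q * g * τ) ^ 2 = τ * (40000 * q ^ 2 * (κ * τ)) := by rw [hκ]; ring
      linarith
    exact le_of_mul_le_mul_left this hτ
  have k8 : X ≤ κ * τ / 12 := by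
    have m1 := mul_le_mul_of_nonneg_right hΛ hX0
    have m2 := mul_le_mul_of_nonneg_right hq2 hX0
    have m3 := mul_le_mul_of_nonneg_right hq2 hκτ.le
    have : q ^ 2 * X ≤ q ^ 2 * (κ * τ / 12) := by linarith
    exact le_of_mul_le_mul_left this (by positivity)
  apply hnp
  refine Par.mono ⟨p, k1⟩ hτ (by linarith) ?_
  nlinarith

lemma V_num {κ q m ρ F : ℝ} (hκ : 0 ≤ κ) (hq : 1 ≤ q) (hm : 2 ≤ m) (hρ : 0 < ρ)
    (hF : F ≤ q * (32 * (m ^ 2 * ρ))) :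
    4 * (16 * κ * (m * ρ) / ρ + 48 * κ + 32 * (q * κ) * F / (m * ρ)) + 4 * κ * F / (m ^ 2 * ρ)
      + 80 * κ + 384 * (q * κ) ≤ 4600 * q ^ 2 * m * κ := by
  have hm0 : 0 < m := by linarith
  have h1 : 16 * κ * (m * ρ) / ρ = 16 * (m * κ) := by field_simp
  have h2 : 32 * (q * κ) * F / (m * ρ) ≤ 1024 * (q ^ 2 * m * κ) := by
    rw [div_le_iff₀ (by positivity)]
    have : 32 * (q * κ) * F ≤ 32 * (q * κ) * (q * (32 * (m ^ 2 * ρ))) := by gcongr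
    linarith
  have h3 : 4 * κ * F / (m ^ 2 * ρ) ≤ 128 * (q * κ) := by
    rw [div_le_iff₀ (by positivity)]
    have : 4 * κ * F ≤ 4 * κ * (q * (32 * (m ^ 2 * ρ))) := by gcongr
    linarith
  have hq2 : 1 ≤ q ^ 2 := one_le_pow₀ hq
  have hq3 : q ≤ q ^ 2 := by nlinarith
  have h4 : m * κ ≤ q ^ 2 * (m * κ) := le_mul_of_one_le_left (by positivity) hq2
  have h5 : κ ≤ q * κ := le_mul_of_one_le_left hκ hq
  have h6 : q * κ ≤ q ^ 2 * κ := by gcongr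
  have h7 : q ^ 2 * κ * 2 ≤ q ^ 2 * κ * m := by gcongr
  linarith

lemma N3 [ProperSpace E] {u v : E → ℝ} (hu : Lip u) (hv : ∀ x, v x = - u x)
    {T g e s τ0 R q τ η Λ m N : ℝ} {B z z' : E} (hg0 : 0 < g) (hq : 1 ≤ q) (hs : 0 < s)
    (hsτ : s ≤ τ) (hR : 64 * τ0 ≤ R) (hT : R ≤ T) (he : e ≤ g ^ 2 * s) (hη : η ≤ 1 / 2)
    (hΛ : 2000000 * q ^ 2 ≤ Λ) (hm : 2000000 * q ^ 2 * Λ ≤ m) (hN : 250000 * q ^ 2 * Λ ≤ N)
    (hτ0 : m ^ 2 * (2 * Λ * τ) ≤ τ0)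
    (hloc : ∀ y, ‖y - z‖ ≤ R → Loc u v T (g ^ 2) e s τ0 R q y)
    (hcfg : Cfg u v (g ^ 2) τ η B z') (hz : ‖z' - z‖ ≤ 200 * q * g * τ)
    (hD : sl u (m ^ 2 * (2 * Λ * τ)) z + sl v (m ^ 2 * (2 * Λ * τ)) z
      - (sl u (2 * Λ * τ) z + sl v (2 * Λ * τ) z) ≤ 1800 * q ^ 2 * g ^ 2 / N) : False := by
  have hvl := hu.neg hv
  have hu' : ∀ x, u x = - v x := fun x => by rw [hv, neg_neg]
  have hτ : 0 < τ := by linarith
  have hq2 : 1 ≤ q ^ 2 := one_le_pow₀ hq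
  have hΛ1 : 2000000 ≤ Λ := by linarith
  have hΛ0 : 0 < Λ := by linarith
  have hqΛ : Λ ≤ q ^ 2 * Λ := le_mul_of_one_le_left hΛ0.le hq2
  have hm2 : 2 ≤ m := by linarith
  have hm0 : 0 < m := by linarith
  have hN0 : 0 < N := by linarith
  set κ := g ^ 2 with hκ
  have hκ0 : 0 < κ := by positivity
  set ρ := 2 * Λ * τ with hρ
  have hτρ : τ ≤ ρ := le_mul_of_one_le_left hτ.le (by linarith)
  have hρ0 : 0 < ρ := by linarith
  have hmm : 2 * m ≤ m ^ 2 := by nlinarith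
  have hm1 : 2 * ρ ≤ m * ρ := by gcongr
  have hm3 : 2 * m * ρ ≤ m ^ 2 * ρ := by gcongr
  have hR0 : 0 ≤ R := by linarith
  obtain ⟨F, p, w, hF1, hF2, hF3, hfl⟩ := (hloc z (by rw [sub_self, norm_zero]; exact hR0)).2.2
    (32 * (m ^ 2 * ρ)) (by linarith) (by linarith)
  have hpar : ∀ τ', s ≤ τ' → τ' ≤ R → ∀ y, ‖y - z‖ ≤ F →
      Par u y τ' (2 * κ * τ') ∧ Par v y τ' (2 * κ * τ') := by
    intro τ' h1 h2 y hy
    have h0 : 0 < τ' := by linarith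
    have h3 := (hloc y (hy.trans hF3)).2.1 τ' h0 h2
    have h4 : κ * s ≤ κ * τ' := by gcongr
    exact ⟨h3.1.mono h0 le_rfl (by linarith), h3.2.mono h0 le_rfl (by linarith)⟩
  have hρ2 : 96 * ρ ^ 2 ≤ m * ρ * F := by
    have h1 : 48 * ρ ≤ F := by linarith
    have h2 : 2 * ρ * (48 * ρ) ≤ m * ρ * F := by gcongr
    linarith
  have hV := V_num hκ0.le hq hm2 hρ0 hF2
  obtain ⟨p', w', hfl'⟩ := CE2 hu hv (z := z) (Λ := m ^ 2) (V := 4600 * q ^ 2 * m * κ) (T := T)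
    hρ0 (by linarith) (by linarith) (by positivity) (fun y hy => (hloc y (by linarith)).1)
    (fun b a hb ha => (VV hu hv hρ0 (by linarith) hF1 (by positivity : 0 < m * ρ) (by linarith)
      hρ2 hκ0.le (by positivity) hfl (fun y hy => ⟨(hpar _ (by linarith) (by linarith) y hy).1,
        (hpar _ (by linarith) (by linarith) y hy).2⟩) hb ha).trans hV)
    (fun b a hb ha => (VV hvl hu' hρ0 (by linarith) hF1 (by positivity : 0 < m * ρ) (by linarith)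
      hρ2 hκ0.le (by positivity) hfl.symm (fun y hy => ⟨(hpar _ (by linarith) (by linarith) y hy).2,
        (hpar _ (by linarith) (by linarith) y hy).1⟩) hb ha).trans hV) hD
  have e1 : ρ / 2 = Λ * τ := by rw [hρ]; ring
  rw [e1] at hfl'
  refine N3_final hv hτ hq hg0 hη hΛ hcfg hz hfl' ?_
  have h1 : 8 * (1800 * q ^ 2 * κ / N) * Λ ≤ κ / 16 := by
    have e2 : 8 * (1800 * q ^ 2 * κ / N) * Λ = κ * (14400 * q ^ 2 * Λ / N) := by ring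
    have h2 : 14400 * q ^ 2 * Λ / N ≤ 1 / 16 := by
      rw [div_le_iff₀ hN0]; linarith
    rw [e2]
    have := mul_le_mul_of_nonneg_left h2 hκ0.le
    linarith
  have h2 : 12 * (4600 * q ^ 2 * m * κ) / (m ^ 2 - 1) * Λ ≤ κ / 16 := by
    have e2 : 12 * (4600 * q ^ 2 * m * κ) / (m ^ 2 - 1) * Λ
        = κ * (55200 * q ^ 2 * Λ * m / (m ^ 2 - 1)) := by ring
    have h2 : 55200 * q ^ 2 * Λ * m / (m ^ 2 - 1) ≤ 1 / 16 := by
      rw [div_le_iff₀ (by linarith)]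
      have := mul_le_mul_of_nonneg_right hm hm0.le
      nlinarith
    rw [e2]
    have := mul_le_mul_of_nonneg_left h2 hκ0.le
    linarith
  linarith

lemma chain [ProperSpace E] {u v : E → ℝ} (hu : Lip u) (hv : ∀ x, v x = - u x)
    {T g e s τ0 R q ε : ℝ} {J : ℕ} {B0 z z0 : E} (hg0 : 0 < g) (hg1 : g ≤ 1) (hq : 1 ≤ q)
    (hs : 0 < s) (hτ0 : τ0 = 2 ^ J * s) (hR : 64 * τ0 ≤ R) (hT : R ≤ T) (hε : 0 < ε)
    (hε1 : 400 * q ^ 2 * (4 ^ J * ε) ≤ 1) (he0 : 0 ≤ e) (he : e ≤ ε * g ^ 2 * s)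
    (hloc : ∀ y, ‖y - z‖ ≤ 16 * τ0 / ε + 40 * τ0 + 200 * q * τ0 →
      Loc u v T (g ^ 2) e s τ0 R q y)
    (hcfg : Cfg u v (g ^ 2) s (100 * q ^ 2 * ε) B0 z0) (hz : ‖z0 - z‖ ≤ 200 * q * g * s) :
    ∀ j ≤ J, ∃ B z', Cfg u v (g ^ 2) (2 ^ j * s) (100 * q ^ 2 * (4 ^ j * ε)) B z' ∧
      ‖z' - z‖ ≤ 200 * q * g * (2 ^ j * s) := by
  intro j
  induction j with
  | zero => intro _; exact ⟨B0, z0, by simpa using hcfg, by simpa using hz⟩
  | succ j ih =>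
    intro hj
    obtain ⟨B, z', h1, h2⟩ := ih (by omega)
    have p1 : (1 : ℝ) ≤ 2 ^ j := one_le_pow₀ (by norm_num)
    have p2 : (1 : ℝ) ≤ 4 ^ j := one_le_pow₀ (by norm_num)
    have p3 : (2 : ℝ) ^ j ≤ 2 ^ J := pow_le_pow_right₀ (by norm_num) (by omega)
    have p4 : (4 : ℝ) ^ j ≤ 4 ^ J := pow_le_pow_right₀ (by norm_num) (by omega)
    have p5 : s ≤ 2 ^ j * s := le_mul_of_one_le_left hs.le p1
    have p6 : 2 ^ j * s ≤ τ0 := by rw [hτ0]; gcongr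
    have p7 : ε ≤ 4 ^ j * ε := le_mul_of_one_le_left hε.le p2
    obtain ⟨B', z'', h3, h4⟩ := step_up hu hv (T := T) (e := e) (s := s) (τ0 := τ0) (R := R)
      hg0 hg1 hq hs p5 p6 hR hT (by positivity : 0 < 4 ^ j * ε)
      (le_trans (by gcongr) hε1) he0 (he.trans (by gcongr))
      (fun y hy => hloc y (by
        have m1 := norm_sub_le_norm_sub_add_norm_sub y z' z
        have m2 : 16 * (2 ^ j * s) / (4 ^ j * ε) ≤ 16 * τ0 / ε := by gcongr; linarith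
        have m3 : 200 * q * g * (2 ^ j * s) ≤ 200 * q * 1 * τ0 := by gcongr
        linarith)) h1
    refine ⟨B', z'', ?_, ?_⟩
    · have e1 : (2 : ℝ) ^ (j + 1) * s = 2 * (2 ^ j * s) := by ring
      have e2 : (4 : ℝ) ^ (j + 1) * ε = 4 * (4 ^ j * ε) := by ring
      rw [e1, e2]; exact h3
    · have m1 := norm_sub_le_norm_sub_add_norm_sub z'' z' z
      rw [pow_succ]
      linarith

lemma improve_core [ProperSpace E] {u v : E → ℝ} (hu : Lip u) (hv : ∀ x, v x = - u x)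
    {T g e s τ0 R q ε δ : ℝ} {a b N J : ℕ} {B0 : E} (hg0 : 0 < g) (hg1 : g ≤ 1) (hq : 1 ≤ q)
    (ha : 2000000 * q ^ 2 ≤ 2 ^ a) (hb : 2000000 * q ^ 2 * 2 ^ a ≤ 2 ^ b)
    (hN : 250000 * q ^ 2 * 2 ^ a ≤ N) (hJ : J = a + 1 + 2 * b * N)
    (hs : 0 < s) (hτ0 : τ0 = 2 ^ J * s) (hR : 64 * τ0 ≤ R) (hT : R ≤ T) (hε : 0 < ε)
    (hε1 : 400 * q ^ 2 * (4 ^ J * (2 * ε)) ≤ 1) (he0 : 0 ≤ e) (he : e ≤ ε * g ^ 2 * s)
    (hδ0 : 0 ≤ δ) (hδ : δ * 2 ^ J ≤ ε)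
    (hloc : ∀ y, ‖y - B0‖ ≤ (16 * 2 ^ J / ε + 44 + 284 * q) * τ0 + R →
      Loc u v T (g ^ 2) e s τ0 R q y) :
    Par u B0 τ0 ((1 - δ) * g ^ 2 * τ0) := by
  by_contra hnp
  have hq2 : 1 ≤ q ^ 2 := one_le_pow₀ hq
  have p1 : (1 : ℝ) ≤ 2 ^ J := one_le_pow₀ (by norm_num)
  have p2 : (1 : ℝ) ≤ 4 ^ J := one_le_pow₀ (by norm_num)
  have hτ : 0 < τ0 := by rw [hτ0]; positivity
  have hsτ : s ≤ τ0 := by rw [hτ0]; exact le_mul_of_one_le_left hs.le p1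
  have hqτ : 0 ≤ q * τ0 := by positivity
  have hε2 : 400 * q ^ 2 * (2 * ε) ≤ 1 := by
    have : 2 * ε ≤ 4 ^ J * (2 * ε) := le_mul_of_one_le_left (by positivity) p2
    exact le_trans (mul_le_mul_of_nonneg_left this (by positivity)) hε1
  have hqε : 0 < q ^ 2 * ε := by positivity
  have hε3 : ε ≤ 1 := by nlinarith
  have e0 : 16 * τ0 ^ 2 / (ε * s) = 16 * 2 ^ J / ε * τ0 := by
    rw [hτ0]; field_simp
  have hrad : 16 * τ0 / (2 * ε) ≤ 16 * 2 ^ J / ε * τ0 := by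
    have : 16 * τ0 / (2 * ε) = 8 * 1 / ε * τ0 := by field_simp; ring
    rw [this]; gcongr; norm_num
  have hrad0 : 0 ≤ 16 * 2 ^ J / ε * τ0 := by positivity
  obtain ⟨z, B1, z0, hz, hcfg, hz0, hD⟩ := step_down hu hv (T := T) (e := e) (s := s) (τ0 := τ0)
    (R := R) (n := 2 ^ J - 1) hg0 hg1 hq hs
    (by
      rw [Nat.cast_sub Nat.one_le_two_pow, hτ0]; push_cast; ring) hR hT hε (by linarith) he0 he hδ0
    (by rw [hτ0, ← mul_assoc]; gcongr) (fun y hy => hloc y (by rw [e0] at hy; linarith)) hnp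
  have hlocz : ∀ y, ‖y - z‖ ≤ 16 * 2 ^ J / ε * τ0 + 40 * τ0 + 200 * q * τ0 + R →
      Loc u v T (g ^ 2) e s τ0 R q y := by
    intro y hy
    have := norm_sub_le_norm_sub_add_norm_sub y z B0
    exact hloc y (by linarith)
  have hch := chain hu hv (T := T) (e := e) hg0 hg1 hq hs hτ0 hR hT (by positivity : 0 < 2 * ε) hε1
    he0 (he.trans (by gcongr; linarith)) (fun y hy => hlocz y (by linarith)) hcfg hz0
  have hcz := (hlocz z (by rw [sub_self, norm_zero]; linarith)).1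
  have pa : (1 : ℝ) ≤ 2 ^ a := one_le_pow₀ (by norm_num)
  have hN0 : 0 < N := by
    have : (0 : ℝ) < N := lt_of_lt_of_le (by positivity) hN
    exact_mod_cast this
  obtain ⟨i, hi, hDi⟩ := pigeon (fun i => sl u (2 * 2 ^ a * (2 ^ (2 * b * i) * s)) z
    + sl v (2 * 2 ^ a * (2 ^ (2 * b * i) * s)) z) N hN0 (R := 1800 * q ^ 2 * g ^ 2) (by
      have e1 : 2 * 2 ^ a * (2 ^ (2 * b * N) * s) = τ0 := by rw [hτ0, hJ]; ring
      have e2 : 2 * 2 ^ a * (2 ^ (2 * b * 0) * s) = 2 * 2 ^ a * s := by simp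
      simp only [e1, e2]
      have m0 : s ≤ 2 * 2 ^ a * s := le_mul_of_one_le_left hs.le (by linarith)
      have m1 : 2 * 2 ^ a * s ≤ τ0 := by
        rw [← e1]
        gcongr
        exact le_mul_of_one_le_left hs.le (one_le_pow₀ (by norm_num))
      have m2 := hcz.1.sl_mono hs m0 (by linarith)
      have m3 := hcz.2.sl_mono hs m0 (by linarith)
      linarith)
  have hiN : 2 * b * (i + 1) ≤ 2 * b * N := Nat.mul_le_mul_left _ hi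
  obtain ⟨B, z', hc, hz'⟩ := hch (2 * b * i) (by rw [hJ]; nlinarith)
  have e3 : (2 : ℝ) * 2 ^ a * (2 ^ (2 * b * (i + 1)) * s)
      = (2 ^ b) ^ 2 * (2 * 2 ^ a * (2 ^ (2 * b * i) * s)) := by ring
  simp only [e3] at hDi
  refine N3 hu hv (T := T) (e := e) (s := s) (τ0 := τ0) (R := R) hg0 hq hs
    (le_mul_of_one_le_left hs.le (one_le_pow₀ (by norm_num))) hR hT ?_ ?_ ha hb hN ?_
    (fun y hy => hlocz y (by linarith)) hc hz' hDi
  · refine he.trans ?_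
    rw [mul_assoc]
    exact mul_le_of_le_one_left (by positivity) hε3
  · have p4 : (4 : ℝ) ^ (2 * b * i) ≤ 4 ^ J :=
      pow_le_pow_right₀ (by norm_num) (by rw [hJ]; nlinarith)
    have : 400 * q ^ 2 * (4 ^ (2 * b * i) * (2 * ε)) ≤ 400 * q ^ 2 * (4 ^ J * (2 * ε)) := by gcongr
    linarith
  · rw [← e3, hτ0, hJ]
    have : (2 : ℝ) ^ (2 * b * (i + 1)) ≤ 2 ^ (2 * b * N) := pow_le_pow_right₀ (by norm_num) hiN
    have e4 : (2 : ℝ) ^ (a + 1 + 2 * b * N) * s = 2 * 2 ^ a * (2 ^ (2 * b * N) * s) := by ring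
    rw [e4]; gcongr

end Vale.Agent.P080
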