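import Vale.Agent.P080.Improve2

namespace Vale.Agent.P080

open Metric Set
open scoped RealInnerProductSpace

variable {E : Type*} [NormedAddCommGroup E] [InnerProductSpace ℝ E]

def St (u v : E → ℝ) (c g R X : ℝ) : Prop :=
  ∀ y : E, ‖y‖ ≤ X → (Par u y R (g ^ 2 * R) ∧ Par v y R (g ^ 2 * R)) ∧
    ∃ F p w, c * R ≤ F ∧ F ≤ R ∧ Flat u v y F (1 / c * g ^ 2) p w

omit [InnerProductSpace ℝ E] in
lemma norm_le_of_sub {x y : E} {r X : ℝ} (hy : ‖y - x‖ ≤ r) (hx : ‖x‖ ≤ X - r) : ‖y‖ ≤ X := by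
  have := norm_add_le (y - x) x
  rw [sub_add_cancel] at this
  linarith

lemma st_step [ProperSpace E] {c : ℝ} (hc : 0 < c) (hc1 : c ≤ 1 / 64) (hIF : IFP E c)
    {a b N J : ℕ} {ε δ μ ϑ β : ℝ} (ha : 2000000 * (1 / c) ^ 2 ≤ 2 ^ a)
    (hb : 2000000 * (1 / c) ^ 2 * 2 ^ a ≤ 2 ^ b) (hN : 250000 * (1 / c) ^ 2 * 2 ^ a ≤ N)
    (hJ : J = a + 1 + 2 * b * N) (hε : 0 < ε) (hε1 : 400 * (1 / c) ^ 2 * (4 ^ J * (2 * ε)) ≤ 1)
    (hδ0 : 0 ≤ δ) (hδ : δ * 2 ^ J ≤ ε) (hμ : μ = c ^ 2 / 64) (hϑ : ϑ ^ 2 = 1 - δ)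
    (hβ : 520 / (ε * μ / 2 ^ J) + 22 + (16 * 2 ^ J / ε + 44 + 284 * (1 / c)) * μ ≤ β)
    {u v : E → ℝ} (hu : Lip u) (hv : ∀ x, v x = - u x) {T g R X : ℝ} (hg0 : 0 < g) (hg1 : g ≤ 1)
    (hR : 0 < R) (hT : R ≤ T) (hcv : ∀ y : E, ‖y‖ ≤ X → Cvx u T y ∧ Cvx v T y)
    (hst : St u v c g R X) : St u v c (ϑ * g) (μ * R) (X - β * R / g ^ 2) := by
  have hvl := hu.neg hv
  have hu' : ∀ x, u x = - v x := fun x => by rw [hv, neg_neg]
  set q := 1 / c with hq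
  have hq64 : 64 ≤ q := by rw [hq, le_div_iff₀ hc]; linarith
  have hqc : q * c = 1 := by rw [hq]; field_simp
  have hq1 : 1 ≤ q := by linarith
  have hq2 : 1 ≤ q ^ 2 := one_le_pow₀ hq1
  have hκ0 : 0 < g ^ 2 := by positivity
  have hκ1 : g ^ 2 ≤ 1 := by nlinarith
  have hμ0 : 0 < μ := by rw [hμ]; positivity
  have hc2 : c ^ 2 ≤ c := by nlinarith
  have p1 : (1 : ℝ) ≤ 4 ^ J := one_le_pow₀ (by norm_num)
  have p2 : (8 : ℝ) ≤ 2 ^ J := by
    have : (2 : ℝ) ^ a ≤ 2 ^ J := pow_le_pow_right₀ (by norm_num) (by omega)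
    linarith
  have hε2 : ε ≤ 1 / 800 := by
    have h1 : 2 * ε ≤ 4 ^ J * (2 * ε) := le_mul_of_one_le_left (by positivity) p1
    have h2 : 4 ^ J * (2 * ε) ≤ q ^ 2 * (4 ^ J * (2 * ε)) :=
      le_mul_of_one_le_left (by positivity) hq2
    linarith
  have hδ1 : δ ≤ 1 / 2 := by nlinarith
  set τ0 := μ * R with hτ0
  have hτ00 : 0 < τ0 := by positivity
  have hτ0R : 64 * τ0 = c ^ 2 * R := by rw [hτ0, hμ]; ring
  have hcR : c ^ 2 * R ≤ c * R := by gcongr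
  have hcR' : c * R ≤ R := by nlinarith
  set s := τ0 / 2 ^ J with hs
  have hs0 : 0 < s := by positivity
  have hsτ : τ0 = 2 ^ J * s := by rw [hs]; field_simp
  have h8s : 8 * s ≤ τ0 := by rw [hsτ]; gcongr
  set e := ε * g ^ 2 * s with he
  have he0 : 0 < e := by positivity
  have hes : e ≤ g ^ 2 * s := by
    rw [he, mul_assoc]; exact mul_le_of_le_one_left (by positivity) (by linarith)
  have hgs : g ^ 2 * s ≤ s := mul_le_of_le_one_left hs0.le hκ1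
  set r := R / g ^ 2 with hr
  have hRr : R ≤ r := by rw [hr, le_div_iff₀ hκ0]; exact mul_le_of_le_one_right hR.le hκ1
  set b1 := 520 / (ε * μ / 2 ^ J) with hb1
  have hb10 : 0 ≤ b1 := by positivity
  have hrad1 : 520 * R ^ 2 / e = b1 * r := by
    rw [hb1, hr, he, hs, hτ0]; field_simp
  -- localized monotonicity
  have H1 : ∀ y : E, ‖y‖ ≤ X - (b1 + 20) * r → ∀ τ, 0 < τ → τ ≤ R →
      Par u y τ (g ^ 2 * τ + e) ∧ Par v y τ (g ^ 2 * τ + e) := by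
    intro y hy τ h0 h1
    have hin : ∀ y', ‖y' - y‖ ≤ 520 * R ^ 2 / e + 20 * R → ‖y'‖ ≤ X := fun y' hy' =>
      norm_le_of_sub hy' (by rw [hrad1]; linarith)
    exact ⟨LM hu hv hR (by linarith) hκ0.le hκ1 he0 (by linarith) h0 h1
        (fun y' hy' => ⟨hcv y' (hin y' hy'), (hst y' (hin y' hy')).1.1⟩),
      LM hvl hu' hR (by linarith) hκ0.le hκ1 he0 (by linarith) h0 h1
        (fun y' hy' => ⟨(hcv y' (hin y' hy')).symm, (hst y' (hin y' hy')).1.2⟩)⟩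
  have hb1r : 0 ≤ b1 * r := by
    have : 0 ≤ r := by linarith
    positivity
  -- flatness at all scales
  have H2 : ∀ y : E, ‖y‖ ≤ X - (b1 + 21) * r → ∀ σ, 8 * c * s ≤ σ → σ ≤ c ^ 2 * R →
      ∃ F p w, σ ≤ F ∧ c * F ≤ σ ∧ Flat u v y F (q * g ^ 2 / 2) p w := by
    intro y hy σ h0 h1
    obtain ⟨F, p, w, k1, k2, k3⟩ := (hst y (by linarith)).2
    refine M1 hc (by linarith) hIF hu hv (T := T) (κ := g ^ 2) hs0 k2 hT hκ0.le hκ1
      (by positivity) (by rw [← mul_assoc, mul_comm c q, hqc, one_mul]) k3 h0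
      (by have := mul_le_mul_of_nonneg_left k1 hc.le
          linarith) (fun y' hy' => ?_)
    have hy'' : ‖y'‖ ≤ X - (b1 + 20) * r := norm_le_of_sub hy' (by linarith)
    refine ⟨hcv y' (by linarith), fun τ h2 h3 => ?_⟩
    have h4 := H1 y' hy'' τ (by linarith) h3
    have h5 : g ^ 2 * s ≤ g ^ 2 * τ := by gcongr
    exact ⟨h4.1.mono (by linarith) le_rfl (by linarith),
      h4.2.mono (by linarith) le_rfl (by linarith)⟩
  have H3 : ∀ y : E, ‖y‖ ≤ X - (b1 + 21) * r → Loc u v T (g ^ 2) e s τ0 R q y := by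
    intro y hy
    refine ⟨hcv y (by linarith), H1 y (by linarith), fun σ h0 h1 => ?_⟩
    have hcs : c * s ≤ s := mul_le_of_le_one_left hs0.le (by linarith)
    obtain ⟨F, p, w, k1, k2, k3⟩ := H2 y hy σ (by linarith) (by linarith)
    have k4 : F ≤ q * σ := by
      have := mul_le_mul_of_nonneg_left k2 (by linarith : 0 ≤ q)
      rwa [← mul_assoc, hqc, one_mul] at this
    have k5 : F ≤ R := by
      have : c * F ≤ c * (c * R) := by linarith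
      have := le_of_mul_le_mul_left this hc
      linarith
    have k6 : 0 ≤ q * g ^ 2 := by positivity
    exact ⟨F, p, w, k1, k4, k5, k3.mono (by linarith) (by linarith)⟩
  intro y hy
  set b3 := 16 * 2 ^ J / ε + 44 + 284 * q with hb3
  have hb30 : 0 ≤ b3 * μ := by positivity
  have hy' : ‖y‖ ≤ X - (b1 + 21) * r - (b3 * τ0 + R) := by
    have m1 : β * R / g ^ 2 = β * r := by rw [hr]; ring
    have m2 : (b1 + 22 + b3 * μ) * r ≤ β * r := by gcongr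
    have m3 : b3 * μ * R ≤ b3 * μ * r := by gcongr
    have m4 : b3 * τ0 = b3 * μ * R := by rw [hτ0]; ring
    linarith
  have hloc : ∀ y', ‖y' - y‖ ≤ b3 * τ0 + R → Loc u v T (g ^ 2) e s τ0 R q y' :=
    fun y' hy'' => H3 y' (norm_le_of_sub hy'' hy')
  have e1 : (ϑ * g) ^ 2 * τ0 = (1 - δ) * g ^ 2 * τ0 := by rw [mul_pow, hϑ]
  have hb3τ : 0 ≤ b3 * τ0 := by positivity
  refine ⟨?_, ?_⟩
  · rw [e1]
    exact ⟨improve_core hu hv hg0 hg1 hq1 ha hb hN hJ hs0 hsτ (by linarith) hT hε hε1 he0.le le_rfl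
      hδ0 hδ hloc, improve_core hvl hu' hg0 hg1 hq1 ha hb hN hJ hs0 hsτ (by linarith) hT hε hε1
      he0.le le_rfl hδ0 hδ (fun y' hy'' => (hloc y' hy'').symm)⟩
  · have hcτ : c * τ0 ≤ τ0 := mul_le_of_le_one_left hτ00.le (by linarith)
    obtain ⟨F, p, w, k1, k2, k3⟩ := H2 y (by linarith) (c * τ0)
      (by have := mul_le_mul_of_nonneg_left h8s hc.le
          linarith) (by linarith)
    refine ⟨F, p, w, k1, le_of_mul_le_mul_left k2 hc, k3.mono ?_ ?_⟩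
    · have : 0 ≤ c * τ0 := by positivity
      linarith
    · rw [mul_pow, hϑ]
      have : 0 ≤ q * g ^ 2 * (1 / 2 - δ) := by
        have : 0 ≤ 1 / 2 - δ := by linarith
        positivity
      linarith

lemma st_init {u v : E → ℝ} (hu : Lip u) (hv : ∀ x, v x = - u x) {c R X : ℝ} (hc : 0 < c)
    (hc1 : c ≤ 1) (hR : 0 < R) : St u v c 1 R X := by
  have hfl : ∀ u : E → ℝ, Lip u → ∀ y, FlatU u y R (1 / c * 1 ^ 2) 0 0 := by
    intro u hu y t _ x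
    have h1 := hu (y + t • 0 + x) y
    have h2 := lin_le_sq (by positivity : 0 < R / 2) ‖x‖
    have e1 : ‖x‖ ^ 2 / (2 * (R / 2)) = ‖x‖ ^ 2 / R := by congr 1; ring
    have h3 : 1 ≤ 1 / c := by rw [le_div_iff₀ hc]; linarith
    have h4 : 1 * R ≤ 1 / c * R := by gcongr
    simp only [smul_zero, add_zero, add_sub_cancel_left, inner_zero_left, norm_zero] at h1 ⊢
    linarith
  intro y _
  refine ⟨⟨⟨0, (upP_zero hu y hR).mono hR le_rfl (by linarith)⟩,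
    ⟨0, (upP_zero (hu.neg hv) y hR).mono hR le_rfl (by linarith)⟩⟩, R, 0, 0,
    mul_le_of_le_one_left hR.le hc1, le_rfl, hfl u hu y, ?_⟩
  rw [neg_zero]
  exact hfl v (hu.neg hv) y

theorem all_scales : ∃ ϑ μ R : ℝ, 0 < ϑ ∧ ϑ < 1 ∧ 0 < μ ∧ μ < 1 ∧ 0 < R ∧
    ∀ (E : Type) [NormedAddCommGroup E] [InnerProductSpace ℝ E] [ProperSpace E]
      (u v : E → ℝ), Lip u → (∀ x, v x = - u x) →
      (∀ y : E, ‖y‖ ≤ 5 / 8 → Cvx u (1 / 16) y ∧ Cvx v (1 / 16) y) →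
      ∀ k : ℕ, ∀ y : E, ‖y‖ ≤ 9 / 16 →
        Par u y (μ ^ k * R) ((ϑ ^ k) ^ 2 * (μ ^ k * R)) ∧
        Par v y (μ ^ k * R) ((ϑ ^ k) ^ 2 * (μ ^ k * R)) := by
  obtain ⟨c, hc, hc1, hIF⟩ := exists_IFP
  obtain ⟨a, ha⟩ := pow_unbounded_of_one_lt (2000000 * (1 / c) ^ 2) (one_lt_two (α := ℝ))
  obtain ⟨b, hb⟩ := pow_unbounded_of_one_lt (2000000 * (1 / c) ^ 2 * 2 ^ a) (one_lt_two (α := ℝ))
  obtain ⟨N, hN⟩ := exists_nat_ge (250000 * (1 / c) ^ 2 * 2 ^ a)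
  obtain ⟨J, hJ⟩ : ∃ J, J = a + 1 + 2 * b * N := ⟨_, rfl⟩
  set ε : ℝ := 1 / (800 * (1 / c) ^ 2 * 4 ^ J) with hεdef
  have hε : 0 < ε := by positivity
  have hε1 : 400 * (1 / c) ^ 2 * (4 ^ J * (2 * ε)) ≤ 1 := by
    rw [hεdef]; apply le_of_eq; field_simp; ring
  set δ : ℝ := ε / 2 ^ J with hδdef
  have hδ0 : 0 < δ := by positivity
  have hδ : δ * 2 ^ J ≤ ε := by rw [hδdef]; apply le_of_eq; field_simp
  have hq1 : 1 ≤ (1 / c) ^ 2 := one_le_pow₀ (by rw [le_div_iff₀ hc]; linarith)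
  have p1 : (1 : ℝ) ≤ 4 ^ J := one_le_pow₀ (by norm_num)
  have p2 : (1 : ℝ) ≤ 2 ^ J := one_le_pow₀ (by norm_num)
  have hε2 : ε ≤ 1 / 800 := by
    have h1 : 2 * ε ≤ 4 ^ J * (2 * ε) := le_mul_of_one_le_left (by positivity) p1
    have h2 : 4 ^ J * (2 * ε) ≤ (1 / c) ^ 2 * (4 ^ J * (2 * ε)) :=
      le_mul_of_one_le_left (by positivity) hq1
    linarith
  have hδ1 : δ ≤ 1 / 2 := by nlinarith
  set ϑ := √(1 - δ) with hϑdef
  have hϑ : ϑ ^ 2 = 1 - δ := Real.sq_sqrt (by linarith)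
  have hϑ0 : 0 < ϑ := Real.sqrt_pos.2 (by linarith)
  have hϑ1 : ϑ < 1 := by nlinarith
  set μ := c ^ 2 / 64 with hμ
  have hμ0 : 0 < μ := by positivity
  have hμ1 : μ ≤ 1 / 4 := by rw [hμ]; nlinarith
  set β := 520 / (ε * μ / 2 ^ J) + 22 + (16 * 2 ^ J / ε + 44 + 284 * (1 / c)) * μ with hβ
  have hβ0 : 1 ≤ β := by
    have h1 : 0 ≤ 520 / (ε * μ / 2 ^ J) := by positivity
    have h2 : 0 ≤ (16 * 2 ^ J / ε + 44 + 284 * (1 / c)) * μ := by positivity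
    linarith
  set R := 1 / (32 * β) with hRdef
  have hR : 0 < R := by positivity
  have hβR : β * R = 1 / 32 := by rw [hRdef]; field_simp
  have hR1 : R ≤ 1 / 16 := by nlinarith
  clear_value R β μ ϑ δ ε
  refine ⟨ϑ, μ, R, hϑ0, hϑ1, hμ0, by linarith, hR, ?_⟩
  intro E _ _ _ u v hu hv hcv
  have main : ∀ k : ℕ, St u v c (ϑ ^ k) (μ ^ k * R) (9 / 16 + (1 / 2) ^ k / 16) := by
    intro k
    induction k with
    | zero =>
      rw [pow_zero, pow_zero, one_mul]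
      exact st_init hu hv hc (by linarith) hR
    | succ k ih =>
      have m1 : (1 / 2 : ℝ) ^ k ≤ 1 := pow_le_one₀ (by norm_num) (by norm_num)
      have m2 : μ ^ k ≤ 1 := pow_le_one₀ hμ0.le (by linarith)
      have m3 : μ ^ k * R ≤ R := mul_le_of_le_one_left hR.le m2
      have h := st_step hc hc1 (hIF E) ha.le hb.le hN hJ hε hε1 hδ0.le hδ hμ hϑ le_rfl hu hv
        (T := 1 / 16) (by positivity) (pow_le_one₀ hϑ0.le hϑ1.le) (by positivity) (by linarith)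
        (fun y hy => hcv y (by linarith)) ih
      intro y hy
      rw [pow_succ' ϑ, pow_succ' μ, mul_assoc]
      apply h y
      refine hy.trans ?_
      have m4 : β * (μ ^ k * R) / (ϑ ^ k) ^ 2 = (μ / ϑ ^ 2) ^ k / 32 := by
        have : β * (μ ^ k * R) = μ ^ k * (β * R) := by ring
        rw [this, hβR, div_pow, ← pow_mul, ← pow_mul, mul_comm 2 k]; ring
      have m5 : (μ / ϑ ^ 2) ^ k ≤ (1 / 2) ^ k := by
        apply pow_le_pow_left₀ (by positivity)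
        rw [div_le_iff₀ (by positivity)]
        linarith
      rw [← hβ, m4, pow_succ]
      linarith
  intro k y hy
  have : (0 : ℝ) ≤ (1 / 2) ^ k / 16 := by positivity
  exact (main k y (by linarith)).1

end Vale.Agent.P080
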