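import Vale.Agent.P080.Hopf

namespace Vale.Agent.P080

open Metric Set
open scoped RealInnerProductSpace

lemma le_of_theta {a b K : ℝ} (h : ∀ θ : ℝ, 0 < θ → θ ≤ 1 → a ≤ b + θ * K) : a ≤ b := by
  apply le_of_forall_pos_le_add
  intro η hη
  have hK : 0 < |K| + 1 := by positivity
  have h1 := h (min 1 (η / (|K| + 1))) (by positivity) (min_le_left _ _)
  have h2 : min 1 (η / (|K| + 1)) * K ≤ η := by
    have h3 : min 1 (η / (|K| + 1)) ≤ η / (|K| + 1) := min_le_right _ _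
    have h4 : 0 ≤ min 1 (η / (|K| + 1)) := by positivity
    calc min 1 (η / (|K| + 1)) * K ≤ min 1 (η / (|K| + 1)) * (|K| + 1) := by
          gcongr; linarith [le_abs_self K]
      _ ≤ η / (|K| + 1) * (|K| + 1) := by gcongr
      _ = η := by field_simp
  linarith

lemma seq_chord (g : ℕ → ℝ) (N : ℕ) (h : ∀ i, i + 2 ≤ N → 2 * g (i + 1) ≤ g i + g (i + 2))
    (i : ℕ) (hi : i ≤ N) : N * (g i - g 0) ≤ i * (g N - g 0) := by
  have h1 : ∀ n : ℕ, n + 1 ≤ N → g n - g 0 ≤ n * (g (n + 1) - g n) := by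
    intro n
    induction n with
    | zero => intro _; simp
    | succ n ih =>
      intro hn
      have := ih (by omega)
      have h2 := h n (by omega)
      push_cast
      have hn0 : (0 : ℝ) ≤ n := Nat.cast_nonneg n
      nlinarith
  have h2 : ∀ n : ℕ, i ≤ n → n ≤ N → n * (g i - g 0) ≤ i * (g n - g 0) := by
    intro n hin
    induction n, hin using Nat.le_induction with
    | base => intro _; exact le_rfl
    | succ n hin ih =>
      intro hn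
      have h3 := ih (by omega)
      have h4 := h1 n hn
      rcases Nat.eq_zero_or_pos i with h0 | h0
      · subst h0; simp
      have hn0 : (0 : ℝ) < n := by exact_mod_cast (by omega : 0 < n)
      have hi0 : (0 : ℝ) ≤ i := Nat.cast_nonneg i
      push_cast
      have h5 : (n : ℝ) * ((n + 1) * (g i - g 0)) ≤ n * (i * (g (n + 1) - g 0)) := by
        nlinarith [mul_le_mul_of_nonneg_left h4 hi0]
      exact le_of_mul_le_mul_left h5 hn0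
  exact h2 N hi le_rfl

lemma set_chord (S : ℕ → Set ℝ) (N : ℕ) (hne : ∀ i ≤ N, (S i).Nonempty)
    (hbd : ∀ i, BddBelow (S i))
    (hmid : ∀ i, i + 2 ≤ N → ∀ V ∈ S i, ∀ V' ∈ S (i + 2), (V + V') / 2 ∈ S (i + 1))
    {V0 VN : ℝ} (h0 : V0 ∈ S 0) (hN : VN ∈ S N) (i : ℕ) (hi : i ≤ N) {η : ℝ} (hη : 0 < η) :
    ∃ V ∈ S i, N * V ≤ (N - i) * V0 + i * VN + N * η := by
  have hg : ∀ i, i + 2 ≤ N → 2 * sInf (S (i + 1)) ≤ sInf (S i) + sInf (S (i + 2)) := by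
    intro i hi
    have : ∀ V ∈ S i, 2 * sInf (S (i + 1)) - V ≤ sInf (S (i + 2)) := by
      intro V hV
      apply le_csInf (hne _ hi)
      intro V' hV'
      have := csInf_le (hbd _) (hmid i hi V hV V' hV')
      linarith
    have h2 : 2 * sInf (S (i + 1)) - sInf (S (i + 2)) ≤ sInf (S i) := by
      apply le_csInf (hne _ (by omega))
      intro V hV
      have := this V hV
      linarith
    linarith
  have h1 := seq_chord (fun i => sInf (S i)) N hg i hi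
  obtain ⟨V, hV, hV2⟩ := exists_lt_of_csInf_lt (hne i hi) (lt_add_of_pos_right _ hη)
  refine ⟨V, hV, ?_⟩
  have h2 := csInf_le (hbd _) h0
  have h3 := csInf_le (hbd _) hN
  have hi0 : (0 : ℝ) ≤ i := Nat.cast_nonneg i
  have hN0 : (0 : ℝ) ≤ N := Nat.cast_nonneg N
  have hiN : (0 : ℝ) ≤ N - i := by
    have : (i : ℝ) ≤ N := by exact_mod_cast hi
    linarith
  nlinarith [mul_le_mul_of_nonneg_left h2 hiN, mul_le_mul_of_nonneg_left h3 hi0,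
    mul_le_mul_of_nonneg_left hV2.le hN0]

variable {E : Type*} [NormedAddCommGroup E] [InnerProductSpace ℝ E]

omit [InnerProductSpace ℝ E] in
lemma exists_min [ProperSpace E] {F : E → ℝ} (hF : ∀ x y, F x - F y ≤ 2 * ‖x - y‖)
    {τ γ ε : ℝ} (hτ : 0 < τ) (hγ : 0 ≤ γ) (hγτ : γ * (4 * τ) ≤ 1) (hε : 0 ≤ ε) {B xc : E}
    (hB : γ * ‖B - xc‖ ≤ 1) :
    ∃ x, ‖x - B‖ ≤ 16 * τ ∧ ∀ x', F x - γ * ‖x - xc‖ ^ 2 + (1 + ε) * cst τ x B
      ≤ F x' - γ * ‖x' - xc‖ ^ 2 + (1 + ε) * cst τ x' B := by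
  have hFc : Continuous F := by
    have : LipschitzWith 2 F := by
      apply LipschitzWith.of_dist_le_mul
      intro x y
      rw [Real.dist_eq, dist_eq_norm, abs_le]
      have h1 := hF x y
      have h2 := hF y x
      rw [norm_sub_rev] at h2
      constructor <;> simp <;> linarith
    exact this.continuous
  have hc : Continuous fun x => F x - γ * ‖x - xc‖ ^ 2 + (1 + ε) * cst τ x B := by
    unfold cst
    fun_prop
  obtain ⟨y, hy, hmin⟩ := (isCompact_closedBall B (16 * τ)).exists_isMinOn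
    ⟨B, mem_closedBall_self (by positivity)⟩ hc.continuousOn
  refine ⟨y, by rwa [mem_closedBall, dist_eq_norm] at hy, fun z => ?_⟩
  by_cases hz : z ∈ closedBall B (16 * τ)
  · exact hmin hz
  · have h0 : F y - γ * ‖y - xc‖ ^ 2 + (1 + ε) * cst τ y B
        ≤ F B - γ * ‖B - xc‖ ^ 2 + (1 + ε) * cst τ B B :=
      hmin (mem_closedBall_self (by positivity))
    rw [cst_self] at h0
    rw [mem_closedBall, dist_eq_norm, not_le] at hz
    have h1 := hF B z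
    rw [norm_sub_rev] at h1
    have h2 : ‖z - xc‖ ≤ ‖z - B‖ + ‖B - xc‖ := norm_sub_le_norm_sub_add_norm_sub z B xc
    have h3 : ‖z - xc‖ ^ 2 ≤ (‖z - B‖ + ‖B - xc‖) ^ 2 := by gcongr
    have h4 : cst τ z B ≤ (1 + ε) * cst τ z B := by
      have := cst_nonneg hτ.le z B
      nlinarith
    set d := ‖z - B‖ with hd
    set b := ‖B - xc‖ with hb
    have hd0 : 0 ≤ d := norm_nonneg _
    have h5 : cst τ z B = d ^ 2 / (2 * τ) := rfl
    have h6 : γ * d ^ 2 ≤ d ^ 2 / (4 * τ) := by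
      rw [le_div_iff₀ (by positivity)]
      nlinarith [sq_nonneg d]
    have h7 : 4 * d ≤ d ^ 2 / (4 * τ) := by
      rw [le_div_iff₀ (by positivity)]
      nlinarith
    have h8 : d ^ 2 / (2 * τ) = d ^ 2 / (4 * τ) + d ^ 2 / (4 * τ) := by field_simp; ring
    have h9 : γ * ‖z - xc‖ ^ 2 ≤ γ * (d + b) ^ 2 := by gcongr
    have h10 : γ * b * d ≤ 1 * d := by gcongr
    nlinarith

lemma cst_para (σ : ℝ) (x δ y : E) :
    cst σ (x + δ) y + cst σ (x - δ) y = 2 * cst σ x y + ‖δ‖ ^ 2 / σ := by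
  unfold cst
  have e1 : x + δ - y = (x - y) + δ := by abel
  have e2 : x - δ - y = (x - y) - δ := by abel
  rw [e1, e2, norm_add_sq_real, norm_sub_sq_real (x - y) δ]
  ring

lemma sq_para (x δ y : E) :
    ‖x + δ - y‖ ^ 2 + ‖x - δ - y‖ ^ 2 = 2 * ‖x - y‖ ^ 2 + 2 * ‖δ‖ ^ 2 := by
  have e1 : x + δ - y = (x - y) + δ := by abel
  have e2 : x - δ - y = (x - y) - δ := by abel
  rw [e1, e2, norm_add_sq_real, norm_sub_sq_real (x - y) δ]
  ring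

lemma kk_mid [ProperSpace E] {u : E → ℝ} (hu : Lip u) {σ r : ℝ} (hσ : 0 < σ) (hr : 0 < r)
    (x δ : E) (hg : ∀ y, ‖x - y‖ ≤ 2 * σ → 2 * kk u r y ≤ kk u (2 * r) y + u y) :
    2 * kk u (σ + r) x ≤ kk u (σ + 2 * r) (x + δ) + kk u σ (x - δ) + ‖δ‖ ^ 2 / σ := by
  obtain ⟨y, hy, hy2⟩ := kk_split hu hσ hr x
  have h1 := hg y hy2
  have h2 := kk_semi hu hσ (by positivity : 0 ≤ 2 * r) (x + δ) y
  have h3 := le_kk hu hσ (x - δ) y
  have h4 := cst_para σ x δ y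
  linarith

lemma sq_interp (θ : ℝ) (x d y : E) :
    (1 - θ) * ‖x - y‖ ^ 2 + θ * ‖x + d - y‖ ^ 2
      = ‖x + θ • d - y‖ ^ 2 + θ * (1 - θ) * ‖d‖ ^ 2 := by
  have e1 : x + d - y = (x - y) + d := by abel
  have e2 : x + θ • d - y = (x - y) + θ • d := by abel
  rw [e1, e2, norm_add_sq_real, norm_add_sq_real, inner_smul_right, norm_smul, mul_pow,
    Real.norm_eq_abs, sq_abs]
  ring

lemma kk_semiconvex [ProperSpace E] {u : E → ℝ} (hu : Lip u) {σ θ : ℝ} (hσ : 0 < σ)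
    (h0 : 0 ≤ θ) (h1 : θ ≤ 1) (x d : E) :
    kk u σ (x + θ • d) ≤ (1 - θ) * kk u σ x + θ * kk u σ (x + d)
      + θ * (1 - θ) * ‖d‖ ^ 2 / (2 * σ) := by
  obtain ⟨y, hy, -⟩ := exists_max hu hσ (x + θ • d)
  have h2 := le_kk hu hσ x y
  have h3 := le_kk hu hσ (x + d) y
  have h4 : (1 - θ) * cst σ x y + θ * cst σ (x + d) y
      = cst σ (x + θ • d) y + θ * (1 - θ) * ‖d‖ ^ 2 / (2 * σ) := by
    unfold cst
    have := sq_interp θ x d y
    field_simp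
    linarith
  nlinarith [mul_le_mul_of_nonneg_left h2 (sub_nonneg.2 h1), mul_le_mul_of_nonneg_left h3 h0]

lemma cst_vel {τ : ℝ} (hτ : 0 < τ) (x d v : E) :
    cst τ (x + d) (x + τ • v) = ‖d‖ ^ 2 / (2 * τ) - ⟪d, v⟫ + τ * ‖v‖ ^ 2 / 2 := by
  unfold cst
  have : x + d - (x + τ • v) = d - τ • v := by abel
  rw [this, norm_sub_sq_real, inner_smul_right, norm_smul, Real.norm_eq_abs, abs_of_pos hτ]
  field_simp

lemma min_upgrade [ProperSpace E] {u : E → ℝ} (hu : Lip u) {σ₁ σ₂ τ τ' ε γ : ℝ} (hτ : 0 < τ)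
    (hτ' : 0 < τ') (h₁ : τ' ≤ σ₁) (h₂ : 0 < σ₂) (hε : 0 ≤ ε)
    (hγ : ε / σ₂ + 2 * γ ≤ ε / τ') {x v xc : E}
    (hmin : ∀ x', kk u σ₁ x + ε * kk u σ₂ x - γ * ‖x - xc‖ ^ 2 + (1 + ε) * cst τ x (x + τ • v)
      ≤ kk u σ₁ x' + ε * kk u σ₂ x' - γ * ‖x' - xc‖ ^ 2 + (1 + ε) * cst τ x' (x + τ • v))
    (x' : E) :
    kk u σ₁ x + ε * kk u σ₂ x - γ * ‖x - xc‖ ^ 2 + (1 + ε) * cst τ' x (x + τ' • v)
      ≤ kk u σ₁ x' + ε * kk u σ₂ x' - γ * ‖x' - xc‖ ^ 2 + (1 + ε) * cst τ' x' (x + τ' • v) := by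
  obtain ⟨d, rfl⟩ : ∃ d, x' = x + d := ⟨x' - x, by abel⟩
  rw [cst_vel hτ', cst_smul hτ']
  have hσ₁ : 0 < σ₁ := lt_of_lt_of_le hτ' h₁
  have key : kk u σ₁ x + ε * kk u σ₂ x - γ * ‖x - xc‖ ^ 2
      ≤ kk u σ₁ (x + d) + ε * kk u σ₂ (x + d) - γ * ‖x + d - xc‖ ^ 2
        + (1 + ε) * (‖d‖ ^ 2 / (2 * τ') - ⟪d, v⟫) := by
    apply le_of_theta (K := (1 + ε) * (‖d‖ ^ 2 / (2 * τ)))
    intro θ hθ hθ1
    have k1 := hmin (x + θ • d)
    rw [cst_vel hτ, cst_smul hτ, inner_smul_left, norm_smul, Real.norm_eq_abs,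
      abs_of_pos hθ] at k1
    simp only [conj_trivial] at k1
    have k2 := kk_semiconvex hu hσ₁ hθ.le hθ1 x d
    have k3 := mul_le_mul_of_nonneg_left (kk_semiconvex hu h₂ hθ.le hθ1 x d) hε
    have k4 := sq_interp θ x d xc
    set D := ‖d‖ ^ 2 with hD
    have hD0 : 0 ≤ D := by positivity
    have k5 : θ * (1 - θ) * D / (2 * σ₁) ≤ θ * D / (2 * τ') := by
      have : θ * (1 - θ) * D ≤ θ * D := by nlinarith [mul_nonneg (mul_nonneg hθ.le hθ.le) hD0]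
      calc θ * (1 - θ) * D / (2 * σ₁) ≤ θ * D / (2 * σ₁) := by gcongr
        _ ≤ θ * D / (2 * τ') := by gcongr
    have k6 : ε * (θ * (1 - θ) * D / (2 * σ₂)) + γ * (θ * (1 - θ) * D)
        ≤ ε * (θ * D / (2 * τ')) := by
      have e1 : ε * (θ * (1 - θ) * D / (2 * σ₂)) + γ * (θ * (1 - θ) * D)
          = (θ * (1 - θ) * D / 2) * (ε / σ₂ + 2 * γ) := by field_simp
      have e2 : ε * (θ * D / (2 * τ')) = (θ * D / 2) * (ε / τ') := by field_simp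
      rw [e1, e2]
      have hθ' : 0 ≤ 1 - θ := sub_nonneg.2 hθ1
      calc (θ * (1 - θ) * D / 2) * (ε / σ₂ + 2 * γ) ≤ (θ * (1 - θ) * D / 2) * (ε / τ') := by
            gcongr
        _ ≤ (θ * D / 2) * (ε / τ') := by
            gcongr
            nlinarith
    have k7 : (θ * ‖d‖) ^ 2 / (2 * τ) = θ * (θ * (D / (2 * τ))) := by rw [hD]; ring
    rw [k7] at k1
    have k8 : θ * D / (2 * τ') = θ * (D / (2 * τ')) := by ring
    rw [k8] at k5 k6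
    have k9 : θ * (kk u σ₁ x + ε * kk u σ₂ x - γ * ‖x - xc‖ ^ 2)
        ≤ θ * (kk u σ₁ (x + d) + ε * kk u σ₂ (x + d) - γ * ‖x + d - xc‖ ^ 2
        + (1 + ε) * (D / (2 * τ') - ⟪d, v⟫) + θ * ((1 + ε) * (D / (2 * τ)))) := by
      have k10 : γ * ‖x + θ • d - xc‖ ^ 2 = γ * ((1 - θ) * ‖x - xc‖ ^ 2
          + θ * ‖x + d - xc‖ ^ 2 - θ * (1 - θ) * D) := by rw [k4]; ring
      rw [k10] at k1
      nlinarith
    exact le_of_mul_le_mul_left k9 hθ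
  nlinarith

noncomputable def Phi (u : E → ℝ) (ε ρ γ : ℝ) (xc : E) (τ : ℝ) (B x : E) : ℝ :=
  kk u τ x + ε * kk u (τ + ρ) x - γ * ‖x - xc‖ ^ 2 + (1 + ε) * (cst τ x B - u B)

noncomputable def PhiR (u v : E → ℝ) (ε ρ γ r : ℝ) (xc : E) (τ : ℝ) (B x : E) : ℝ :=
  kk u (τ + r) x + ε * kk u (τ + ρ + r) x - γ * ‖x - xc‖ ^ 2 + (1 + ε) * (cst τ x B + kk v r B)

omit [InnerProductSpace ℝ E] in
lemma Lip.neg {u v : E → ℝ} (hu : Lip u) (hv : ∀ x, v x = - u x) : Lip v := by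
  intro x y
  rw [hv, hv, norm_sub_rev]
  have := hu y x
  linarith

lemma lip_two {u : E → ℝ} (hu : Lip u) {a b ε : ℝ} (ha : 0 ≤ a) (hb : 0 ≤ b) (hε : 0 ≤ ε)
    (hε1 : ε ≤ 1) (x y : E) :
    (kk u a x + ε * kk u b x) - (kk u a y + ε * kk u b y) ≤ 2 * ‖x - y‖ := by
  have h1 := kk_lip hu ha x y
  have h2 := kk_lip hu hb x y
  have h3 := norm_nonneg (x - y)
  nlinarith [mul_le_mul_of_nonneg_left h2 hε]

lemma Cvx.two {u : E → ℝ} {T r : ℝ} {y : E} (h : Cvx u T y) (hr : 0 < r) (hT : 2 * r ≤ T) :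
    2 * kk u r y ≤ kk u (2 * r) y + u y := by
  have := h 0 r (2 * r) le_rfl hr.le (by linarith) hT
  rw [kk_zero] at this
  have h2 : r * (2 * kk u r y) ≤ r * (kk u (2 * r) y + u y) := by linarith
  exact le_of_mul_le_mul_left h2 hr

lemma key_mid [ProperSpace E] {u v : E → ℝ} (hu : Lip u) (hv : ∀ x, v x = - u x)
    {ε ρ γ r τ T Vp Vm : ℝ} {xc B : E} (hε : 0 ≤ ε) (hε1 : ε ≤ 1) (hρ : 0 < ρ) (hγ : 0 < γ)
    (hr : 0 < r) (hrτ : r < τ) (hT : 2 * r ≤ T) (hγτ : γ * (4 * τ) ≤ 1)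
    (hγ1 : ε / (τ + ρ) + 2 * γ ≤ ε / τ) (hγ2 : ε / (τ + r + ρ) + 2 * γ ≤ ε / (τ + r))
    (hg : ∀ y, ‖y - xc‖ ≤ 1 / γ + 18 * τ + 2 * ρ → Cvx u T y ∧ Cvx v T y)
    (hB : ‖B - xc‖ ≤ 1 / γ - 16 * r)
    (HP : ∀ B', ‖B' - xc‖ ≤ 1 / γ → ∃ x, PhiR u v ε ρ γ r xc (τ + r) B' x ≤ Vp)
    (HM : ∀ B', ‖B' - xc‖ ≤ 1 / γ → ∃ x, PhiR u v ε ρ γ r xc (τ - r) B' x ≤ Vm) :
    ∃ x, 2 * PhiR u v ε ρ γ r xc τ B x ≤ Vp + Vm := by
  have hτ : 0 < τ := lt_trans hr hrτ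
  have hvl : Lip v := hu.neg hv
  have hγB : ∀ B' : E, ‖B' - xc‖ ≤ 1 / γ → γ * ‖B' - xc‖ ≤ 1 := by
    intro B' h
    calc γ * ‖B' - xc‖ ≤ γ * (1 / γ) := by gcongr
      _ = 1 := by field_simp
  -- the point x⁺
  obtain ⟨xp, hxp, hxpmin⟩ := exists_min
    (F := fun x => kk u (τ + 2 * r) x + ε * kk u (τ + ρ + 2 * r) x)
    (lip_two hu (by positivity) (by positivity) hε hε1) hτ hγ.le hγτ hε
    (hγB B (by linarith))
  set w : E := τ⁻¹ • (B - xp) with hw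
  have hBw : xp + τ • w = B := by
    rw [hw, smul_smul, mul_inv_cancel₀ hτ.ne', one_smul]; abel
  have hwn : ‖w‖ ≤ 16 := by
    rw [hw, norm_smul, Real.norm_eq_abs, abs_of_pos (inv_pos.2 hτ), norm_sub_rev,
      inv_mul_le_iff₀ hτ]
    linarith
  set Bp : E := xp + (τ + r) • w with hBp
  have hBpB : Bp = B + r • w := by rw [hBp, add_smul, ← hBw]; abel
  have hBpn : ‖Bp - xc‖ ≤ 1 / γ := by
    have : Bp - xc = (B - xc) + r • w := by rw [hBpB]; abel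
    rw [this]
    have h1 := norm_add_le (B - xc) (r • w)
    rw [norm_smul, Real.norm_eq_abs, abs_of_pos hr] at h1
    nlinarith
  have hup := min_upgrade hu (σ₁ := τ + 2 * r) (σ₂ := τ + ρ + 2 * r) (τ := τ) (τ' := τ + r)
    (ε := ε) (γ := γ) hτ (by positivity) (by linarith) (by positivity) hε
    (by
      have : ε / (τ + ρ + 2 * r) ≤ ε / (τ + r + ρ) :=
        div_le_div_of_nonneg_left hε (by positivity) (by linarith)
      linarith) (x := xp) (v := w) (xc := xc) (by rw [hBw]; exact hxpmin)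
  obtain ⟨x1, hx1⟩ := HP Bp hBpn
  have hP : kk u (τ + 2 * r) xp + ε * kk u (τ + ρ + 2 * r) xp - γ * ‖xp - xc‖ ^ 2
      + (1 + ε) * (cst (τ + r) xp Bp + kk v r Bp) ≤ Vp := by
    have h1 := hup x1
    unfold PhiR at hx1
    have e1 : τ + r + r = τ + 2 * r := by ring
    have e2 : τ + r + ρ + r = τ + ρ + 2 * r := by ring
    rw [e1, e2] at hx1
    rw [← hBp] at h1
    linarith
  have hcp : cst (τ + r) xp Bp = cst τ xp B + cst r B Bp := by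
    rw [hBp, cst_smul (by positivity), ← hBp, hBpB, cst_smul hr, ← hBw, cst_smul hτ]
    ring
  -- the point B⁻
  obtain ⟨Bm, hBm, hBm2⟩ := kk_split hvl hr hr B
  have hBmn : ‖Bm - xc‖ ≤ 1 / γ := by
    have h1 : ‖Bm - xc‖ ≤ ‖Bm - B‖ + ‖B - xc‖ := norm_sub_le_norm_sub_add_norm_sub _ _ _
    rw [norm_sub_rev] at hBm2
    linarith
  obtain ⟨xm, hxm, hxmmin⟩ := exists_min
    (F := fun x => kk u τ x + ε * kk u (τ + ρ) x)
    (lip_two hu (by positivity) (by positivity) hε hε1) (sub_pos.2 hrτ) hγ.le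
    (by nlinarith) hε (hγB Bm hBmn)
  obtain ⟨x2, hx2⟩ := HM Bm hBmn
  have hM : kk u τ xm + ε * kk u (τ + ρ) xm - γ * ‖xm - xc‖ ^ 2
      + (1 + ε) * (cst (τ - r) xm Bm + kk v r Bm) ≤ Vm := by
    have h1 := hxmmin x2
    unfold PhiR at hx2
    have e1 : τ - r + r = τ := by ring
    have e2 : τ - r + ρ + r = τ + ρ := by ring
    rw [e1, e2] at hx2
    linarith
  have hcm : cst τ xm B ≤ cst (τ - r) xm Bm + cst r B Bm := by
    have := cst_tri (sub_pos.2 hrτ) hr xm Bm B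
    rwa [sub_add_cancel, cst_comm r Bm B] at this
  -- midpoint
  set xb : E := (1 / 2 : ℝ) • (xp + xm) with hxb
  set δ : E := (1 / 2 : ℝ) • (xp - xm) with hδ
  have hp' : xb + δ = xp := by
    rw [hxb, hδ, ← smul_add]
    have : xp + xm + (xp - xm) = (2 : ℝ) • xp := by rw [two_smul]; abel
    rw [this, smul_smul]; norm_num
  have hm' : xb - δ = xm := by
    rw [hxb, hδ, ← smul_sub]
    have : xp + xm - (xp - xm) = (2 : ℝ) • xm := by rw [two_smul]; abel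
    rw [this, smul_smul]; norm_num
  have hxmB : ‖xm - B‖ ≤ 16 * τ := by
    have h1 : ‖xm - B‖ ≤ ‖xm - Bm‖ + ‖Bm - B‖ := norm_sub_le_norm_sub_add_norm_sub _ _ _
    rw [norm_sub_rev] at hBm2
    linarith
  have hxbB : ‖xb - B‖ ≤ 16 * τ := by
    have h1 := sq_para xb δ B
    rw [hp', hm'] at h1
    have h2 : ‖xp - B‖ ^ 2 ≤ (16 * τ) ^ 2 := by gcongr
    have h3 : ‖xm - B‖ ^ 2 ≤ (16 * τ) ^ 2 := by gcongr
    have h4 : ‖xb - B‖ ^ 2 ≤ (16 * τ) ^ 2 := by nlinarith [sq_nonneg ‖δ‖]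
    exact (abs_le_of_sq_le_sq' h4 (by positivity)).2
  have hgood : ∀ σ, σ ≤ τ + ρ → ∀ y, ‖xb - y‖ ≤ 2 * σ →
      2 * kk u r y ≤ kk u (2 * r) y + u y := by
    intro σ hσ y hy
    apply (hg y _).1.two hr hT
    have h1 : ‖y - xc‖ ≤ ‖y - xb‖ + ‖xb - xc‖ := norm_sub_le_norm_sub_add_norm_sub _ _ _
    have h2 : ‖xb - xc‖ ≤ ‖xb - B‖ + ‖B - xc‖ := norm_sub_le_norm_sub_add_norm_sub _ _ _
    rw [norm_sub_rev] at hy
    linarith
  have m1 := kk_mid hu hτ hr xb δ (hgood τ (by linarith))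
  have m2 := kk_mid hu (by positivity : 0 < τ + ρ) hr xb δ (hgood (τ + ρ) le_rfl)
  have m3 := cst_para τ xb δ B
  have m4 := sq_para xb δ xc
  rw [hp', hm'] at m1 m2 m3 m4
  have m5 := (hg B (by linarith [hB, hr, hτ, hρ])).2.two hr hT
  have m6 := le_kk hvl hr Bp B
  rw [cst_comm r Bp B] at m6
  have e3 : r + r = 2 * r := by ring
  rw [e3] at hBm
  refine ⟨xb, ?_⟩
  unfold PhiR
  have m7 : ε * (‖δ‖ ^ 2 / (τ + ρ)) + 2 * γ * ‖δ‖ ^ 2 ≤ ε * (‖δ‖ ^ 2 / τ) := by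
    have e5 : ε * (‖δ‖ ^ 2 / (τ + ρ)) + 2 * γ * ‖δ‖ ^ 2 = ‖δ‖ ^ 2 * (ε / (τ + ρ) + 2 * γ) := by
      ring
    have e6 : ε * (‖δ‖ ^ 2 / τ) = ‖δ‖ ^ 2 * (ε / τ) := by ring
    rw [e5, e6]; gcongr
  have m8 : 2 * kk v r B + 2 * cst τ xb B + ‖δ‖ ^ 2 / τ
      ≤ (cst (τ + r) xp Bp + kk v r Bp) + (cst (τ - r) xm Bm + kk v r Bm) := by
    linarith
  have m9 := mul_le_mul_of_nonneg_left m8 (by positivity : 0 ≤ 1 + ε)
  have m10 := mul_le_mul_of_nonneg_left m2 hε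
  have m11 : γ * ‖xp - xc‖ ^ 2 + γ * ‖xm - xc‖ ^ 2
      = 2 * γ * ‖xb - xc‖ ^ 2 + 2 * γ * ‖δ‖ ^ 2 := by
    rw [← mul_add, m4]; ring
  linarith

end Vale.Agent.P080
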