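import Vale.Agent.P080.Key

namespace Vale.Agent.P080

open Metric Set
open scoped RealInnerProductSpace

variable {E : Type*} [NormedAddCommGroup E] [InnerProductSpace ℝ E]

lemma phi_le_phiR {u v : E → ℝ} (hu : Lip u) (hv : ∀ x, v x = - u x) {ε ρ γ r τ : ℝ}
    (hε : 0 ≤ ε) (hρ : 0 ≤ ρ) (hr : 0 ≤ r) (hτ : 0 ≤ τ) (xc B x : E) :
    Phi u ε ρ γ xc τ B x ≤ PhiR u v ε ρ γ r xc τ B x := by
  unfold Phi PhiR
  have h1 := kk_mono hu hτ (by linarith : τ ≤ τ + r) x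
  have h2 := kk_mono hu (by positivity : 0 ≤ τ + ρ) (by linarith : τ + ρ ≤ τ + ρ + r) x
  have h3 := self_le_kk (hu.neg hv) hr B
  rw [hv] at h3
  have h4 := mul_le_mul_of_nonneg_left h2 hε
  have h5 := mul_le_mul_of_nonneg_left h3 (by positivity : 0 ≤ 1 + ε)
  linarith

lemma phiR_le_phi [ProperSpace E] {u v : E → ℝ} (hu : Lip u) (hv : ∀ x, v x = - u x)
    {ε ρ γ r τ : ℝ} (hε : 0 ≤ ε) (hε1 : ε ≤ 1) (hρ : 0 ≤ ρ) (hr : 0 ≤ r) (hτ : 0 ≤ τ)
    (xc B x : E) : PhiR u v ε ρ γ r xc τ B x ≤ Phi u ε ρ γ xc τ B x + 2 * r := by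
  unfold Phi PhiR
  have h1 := kk_le_kk_add hu hτ hr x
  have h2 := kk_le_kk_add hu (by positivity : 0 ≤ τ + ρ) hr x
  have h3 := kk_le_add (hu.neg hv) hr B
  rw [hv] at h3
  have h4 := mul_le_mul_of_nonneg_left h2 hε
  have h5 := mul_le_mul_of_nonneg_left h3 (by positivity : 0 ≤ 1 + ε)
  have h6 := mul_le_mul_of_nonneg_right hε1 hr
  linarith

theorem key_lemma [ProperSpace E] {u v : E → ℝ} (hu : Lip u) (hv : ∀ x, v x = - u x)
    {ε ρ γ T β Va Vc L τa τb τc h : ℝ} {i n : ℕ} {xc B0 : E}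
    (hε : 0 ≤ ε) (hε1 : ε ≤ 1) (hρ : 0 < ρ) (hγ : 0 < γ) (hT : 0 < T) (ha : 0 < τa)
    (hh : 0 < h) (hi : i ≤ n) (hb : τb = τa + i * h) (hc : τc = τa + n * h)
    (hγτ : γ * (8 * τc) ≤ 1) (hγ1 : γ * (2 * τc * (τc + ρ)) ≤ ε * ρ)
    (hg : ∀ y, ‖y - xc‖ ≤ 1 / γ + 18 * τc + 2 * ρ → Cvx u T y ∧ Cvx v T y)
    (hβ : ∀ τ, τa ≤ τ → τ ≤ τc → ∀ B, ‖B - xc‖ ≤ 1 / γ →
      ε * (kk u (τ + ρ) B - kk u τ B) ≤ β + γ / 2 * ‖B - xc‖ ^ 2)
    (hVa : β ≤ Va) (hVc : β ≤ Vc)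
    (Ha : ∀ B, ‖B - xc‖ ≤ 1 / γ → ∃ x, Phi u ε ρ γ xc τa B x ≤ Va)
    (Hc : ∀ B, ‖B - xc‖ ≤ 1 / γ → ∃ x, Phi u ε ρ γ xc τc B x ≤ Vc)
    (hB0 : ‖B0 - xc‖ ≤ 1 / γ)
    (hL : ∀ x, ‖x - B0‖ ≤ 16 * τb → L ≤ Phi u ε ρ γ xc τb B0 x) :
    (τc - τa) * L ≤ (τc - τb) * Va + (τb - τa) * Vc := by
  have hac : τa ≤ τc := by rw [hc]; have : 0 ≤ (n : ℝ) * h := by positivity
                           linarith
  have hτc : 0 < τc := lt_of_lt_of_le ha hac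
  have hγgen : ∀ τ, 0 < τ → τ ≤ τc → ε / (τ + ρ) + 2 * γ ≤ ε / τ := by
    intro τ h0 h1
    have e1 : ε / τ - ε / (τ + ρ) = ε * ρ / (τ * (τ + ρ)) := by field_simp; ring
    have e2 : 2 * γ ≤ ε * ρ / (τ * (τ + ρ)) := by
      rw [le_div_iff₀ (by positivity)]
      have : τ * (τ + ρ) ≤ τc * (τc + ρ) := by gcongr
      nlinarith
    linarith
  apply le_of_theta (K := 3 * (τc - τa))
  intro θ hθ hθ1
  -- choice of the mesh
  obtain ⟨m, hm⟩ := exists_nat_gt (h / min (min (T / 2) (1 / (32 * γ))) θ)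
  have hmin : 0 < min (min (T / 2) (1 / (32 * γ))) θ := by positivity
  have hm0 : (0 : ℝ) < m := lt_trans (by positivity) hm
  set r := h / m with hr
  have hr0 : 0 < r := by positivity
  have hrle : r ≤ min (min (T / 2) (1 / (32 * γ))) θ := by
    rw [hr, div_le_iff₀ hm0]
    rw [div_lt_iff₀ hmin] at hm
    linarith
  have hr1 : r ≤ T / 2 := hrle.trans ((min_le_left _ _).trans (min_le_left _ _))
  have hr2 : r ≤ 1 / (32 * γ) := hrle.trans ((min_le_left _ _).trans (min_le_right _ _))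
  have hr3 : r ≤ θ := hrle.trans (min_le_right _ _)
  have hmr : m * r = h := by rw [hr]; field_simp
  have htriv : ∀ τ, τa ≤ τ → τ ≤ τc → ∀ B, ‖B - xc‖ ≤ 1 / γ →
      PhiR u v ε ρ γ r xc τ B B ≤ τc + β - γ / 2 * ‖B - xc‖ ^ 2 + 2 * r := by
    intro τ h1 h2 B hB
    have hτ0 : 0 ≤ τ := by linarith
    have k1 := phiR_le_phi (γ := γ) hu hv hε hε1 hρ.le hr0.le hτ0 xc B B
    have k2 := hβ τ h1 h2 B hB
    have k3 := kk_le_add hu hτ0 B
    have k4 := mul_le_mul_of_nonneg_left k3 (by positivity : 0 ≤ 1 + ε)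
    have k5 := mul_le_mul_of_nonneg_right hε1 hτ0
    unfold Phi at k1
    rw [cst_self] at k1
    linarith
  let S : ℕ → Set ℝ := fun j => {V | β + 2 * r ≤ V ∧ ∀ B, ‖B - xc‖ ≤ 1 / γ →
    ∃ x, PhiR u v ε ρ γ r xc (τa + j * r) B x ≤ V}
  have hNr : τa + ((n * m : ℕ) : ℝ) * r = τc := by
    push_cast; rw [mul_assoc, hmr, hc]
  have hir : τa + ((i * m : ℕ) : ℝ) * r = τb := by
    push_cast; rw [mul_assoc, hmr, hb]
  have hrange : ∀ j : ℕ, j ≤ n * m → τa ≤ τa + j * r ∧ τa + j * r ≤ τc := by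
    intro j hj
    have h1 : (0 : ℝ) ≤ j * r := by positivity
    have h2 : (j : ℝ) ≤ ((n * m : ℕ) : ℝ) := by exact_mod_cast hj
    have h3 := mul_le_mul_of_nonneg_right h2 hr0.le
    constructor <;> linarith
  have hne : ∀ j ≤ n * m, (S j).Nonempty := by
    intro j hj
    refine ⟨τc + β + 2 * r, by linarith, fun B hB => ⟨B, ?_⟩⟩
    have := htriv _ (hrange j hj).1 (hrange j hj).2 B hB
    have h2 : 0 ≤ γ / 2 * ‖B - xc‖ ^ 2 := by positivity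
    linarith
  have hbd : ∀ j, BddBelow (S j) := fun j => ⟨β + 2 * r, fun V hV => hV.1⟩
  have hmid : ∀ j, j + 2 ≤ n * m → ∀ V ∈ S j, ∀ V' ∈ S (j + 2), (V + V') / 2 ∈ S (j + 1) := by
    intro j hj V hV V' hV'
    refine ⟨by linarith [hV.1, hV'.1], fun B hB => ?_⟩
    have hr1' := hrange (j + 1) (by omega)
    have hr2' := hrange (j + 2) hj
    have hj0 : (0 : ℝ) ≤ j * r := by positivity
    have e1 : τa + ((j + 1 : ℕ) : ℝ) * r + r = τa + ((j + 2 : ℕ) : ℝ) * r := by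
      push_cast; ring
    have e2 : τa + ((j + 1 : ℕ) : ℝ) * r - r = τa + (j : ℝ) * r := by
      push_cast; ring
    by_cases hBin : ‖B - xc‖ ≤ 1 / γ - 16 * r
    · have hτpos : r < τa + ((j + 1 : ℕ) : ℝ) * r := by linarith
      obtain ⟨x, hx⟩ := key_mid (T := T) (Vp := V') (Vm := V) (xc := xc) (B := B) hu hv hε hε1 hρ
        hγ hr0 hτpos (by linarith) (by nlinarith [hr1'.2])
        (hγgen _ (by linarith) hr1'.2) (hγgen _ (by linarith) (by rw [e1]; exact hr2'.2))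
        (fun y hy => hg y (by linarith [hr1'.2])) hBin
        (by rw [e1]; exact hV'.2) (by rw [e2]; exact hV.2)
      exact ⟨x, by linarith⟩
    · refine ⟨B, ?_⟩
      have k1 := htriv _ hr1'.1 hr1'.2 B hB
      push Not at hBin
      have k2 : 1 / (2 * γ) ≤ ‖B - xc‖ := by
        have : 1 / γ - 16 * (1 / (32 * γ)) = 1 / (2 * γ) := by field_simp; ring
        linarith
      have k3 : (1 / (2 * γ)) ^ 2 ≤ ‖B - xc‖ ^ 2 := by gcongr
      have k4 : τc ≤ γ / 2 * (1 / (2 * γ)) ^ 2 := by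
        have : γ / 2 * (1 / (2 * γ)) ^ 2 = 1 / (8 * γ) := by field_simp; ring
        rw [this, le_div_iff₀ (by positivity)]
        linarith
      have k5 : γ / 2 * (1 / (2 * γ)) ^ 2 ≤ γ / 2 * ‖B - xc‖ ^ 2 := by gcongr
      linarith [hV.1, hV'.1]
  have h0 : Va + 2 * r ∈ S 0 := by
    refine ⟨by linarith, fun B hB => ?_⟩
    obtain ⟨x, hx⟩ := Ha B hB
    refine ⟨x, ?_⟩
    have := phiR_le_phi (γ := γ) hu hv hε hε1 hρ.le hr0.le ha.le xc B x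
    simp only [Nat.cast_zero, zero_mul, add_zero]
    linarith
  have hN : Vc + 2 * r ∈ S (n * m) := by
    refine ⟨by linarith, fun B hB => ?_⟩
    obtain ⟨x, hx⟩ := Hc B hB
    refine ⟨x, ?_⟩
    have := phiR_le_phi (γ := γ) hu hv hε hε1 hρ.le hr0.le hτc.le xc B x
    rw [hNr]
    linarith
  obtain ⟨V, hV, hV2⟩ := set_chord S (n * m) hne hbd hmid h0 hN (i * m)
    (Nat.mul_le_mul_right m hi) hθ
  obtain ⟨x, hx⟩ := hV.2 B0 hB0
  rw [hir] at hx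
  have hrb := hrange (i * m) (Nat.mul_le_mul_right m hi)
  rw [hir] at hrb
  have hτb : 0 < τb := by linarith [hrb.1]
  obtain ⟨x0, hx0, hx0min⟩ := exists_min
    (F := fun x => kk u (τb + r) x + ε * kk u (τb + ρ + r) x)
    (lip_two hu (by positivity) (by positivity) hε hε1) hτb hγ.le (by nlinarith [hrb.2]) hε
    (B := B0) (xc := xc) (by
      calc γ * ‖B0 - xc‖ ≤ γ * (1 / γ) := by gcongr
        _ = 1 := by field_simp)
  have k1 := hL x0 hx0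
  have k2 := phi_le_phiR (γ := γ) hu hv hε hρ.le hr0.le hτb.le xc B0 x0
  have k3 : PhiR u v ε ρ γ r xc τb B0 x0 ≤ PhiR u v ε ρ γ r xc τb B0 x := by
    have := hx0min x
    unfold PhiR
    linarith
  have k4 : L ≤ V := by linarith
  have e1 : ((n * m : ℕ) : ℝ) * r = τc - τa := by linarith
  have e2 : ((i * m : ℕ) : ℝ) * r = τb - τa := by linarith
  have k5 := mul_le_mul_of_nonneg_left hV2 hr0.le
  have k6 : r * (((n * m : ℕ) : ℝ) * V) = (τc - τa) * V := by rw [← e1]; ring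
  have k7 : r * ((((n * m : ℕ) : ℝ) - ((i * m : ℕ) : ℝ)) * (Va + 2 * r)
      + ((i * m : ℕ) : ℝ) * (Vc + 2 * r) + ((n * m : ℕ) : ℝ) * θ)
      = (τc - τb) * Va + (τb - τa) * Vc + (τc - τa) * (2 * r + θ) := by
    have : τc - τb = ((n * m : ℕ) : ℝ) * r - ((i * m : ℕ) : ℝ) * r := by linarith
    rw [this, ← e1, ← e2]; ring
  rw [k6, k7] at k5
  have hca : 0 ≤ τc - τa := by linarith
  have k8 := mul_le_mul_of_nonneg_left k4 hca
  have k9 := mul_le_mul_of_nonneg_left (by linarith : 2 * r + θ ≤ 3 * θ) hca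
  linarith

end Vale.Agent.P080
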