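import Vale.Agent.P080.Flat2

namespace Vale.Agent.P080

open Metric Set
open scoped RealInnerProductSpace

variable {E : Type*} [NormedAddCommGroup E] [InnerProductSpace ℝ E]

lemma Phi_eq (u : E → ℝ) (ε ρ γ : ℝ) (xc : E) (τ : ℝ) (B x : E) :
    Phi u ε ρ γ xc τ B x = (1 + ε) * (kk u τ x + cst τ x B - u B)
      + ε * (kk u (τ + ρ) x - kk u τ x) - γ * ‖x - xc‖ ^ 2 := by
  unfold Phi; ring

lemma not_par {u : E → ℝ} (hu : Lip u) {B : E} {τ e : ℝ} (hτ : 0 < τ) (h : ¬ Par u B τ e)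
    (x : E) : e < kk u τ x + cst τ x B - u B := by
  by_contra hc
  push Not at hc
  exact h (par_of_vertex hu hτ (x := x) (by linarith))

lemma LM_num {R κ e τ h ε τb : ℝ} (hκ : 0 ≤ κ) (hκ1 : κ ≤ 1) (he : 0 < e) (heR : e ≤ R)
    (hhe : h ≤ e / 8) (hε0 : 0 ≤ ε) (hε1 : ε ≤ 1 / 130) (hεR : ε * (130 * R) = e)
    (h1 : h ≤ τb) (h2 : τb ≤ R) (h3 : τb ≤ τ + h) (hh : 0 ≤ h)
    (key : (R - h) * ((1 + ε) * (κ * τ + e) - 64 * ε * R)
      ≤ (R - τb) * (h + ε * R / 2) + (τb - h) * ((1 + ε) * (κ * R) + ε * R / 2)) : False := by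
  have hRh : 0 < R - h := by linarith
  have k1 : (R - τb) * (h + ε * R / 2) + (τb - h) * ((1 + ε) * (κ * R) + ε * R / 2)
      ≤ (R - h) * (ε * R / 2 + h + (1 + ε) * (κ * τb)) := by
    have m1 : (R - τb) * h ≤ (R - h) * h := by gcongr
    have m2 : (τb - h) * R ≤ (R - h) * τb := by nlinarith
    have m3 := mul_le_mul_of_nonneg_left m2 (by positivity : 0 ≤ (1 + ε) * κ)
    linarith
  have k2 := le_of_mul_le_mul_left (key.trans k1) hRh
  have k3 : κ * τb ≤ κ * τ + h := by nlinarith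
  have k4 : (1 + ε) * (κ * τb) ≤ (1 + ε) * (κ * τ + h) := by gcongr
  have k5 : ε * h ≤ 1 * h := by gcongr; linarith
  have k6 : 0 ≤ ε * e := by positivity
  linarith

lemma LM [ProperSpace E] {u v : E → ℝ} (hu : Lip u) (hv : ∀ x, v x = - u x) {B0 : E}
    {R T κ e τ : ℝ} (hR : 0 < R) (hT : 0 < T) (hκ : 0 ≤ κ) (hκ1 : κ ≤ 1) (he : 0 < e)
    (heR : e ≤ R) (hτ : 0 < τ) (hτR : τ ≤ R)
    (hg : ∀ y, ‖y - B0‖ ≤ 520 * R ^ 2 / e + 20 * R →
      (Cvx u T y ∧ Cvx v T y) ∧ Par u y R (κ * R)) :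
    Par u B0 τ (κ * τ + e) := by
  have hB0 : ‖B0 - B0‖ ≤ 520 * R ^ 2 / e + 20 * R := by rw [sub_self, norm_zero]; positivity
  rcases hτR.eq_or_lt with h | hτR'
  · rw [h]; exact (hg B0 hB0).2.mono hR le_rfl (by linarith)
  by_contra hnp
  obtain ⟨n, hn⟩ := exists_nat_gt (8 * R / e)
  set h := R / (n + 1) with hh
  have hn0 : (0 : ℝ) ≤ n := Nat.cast_nonneg n
  have hh0 : 0 < h := by positivity
  have hhR : (n + 1) * h = R := by rw [hh]; field_simp
  have hhe : h ≤ e / 8 := by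
    rw [div_lt_iff₀ he] at hn
    rw [hh, div_le_iff₀ (by positivity)]
    nlinarith
  set i := ⌊τ / h⌋₊ with hi
  have hi1 : (i : ℝ) * h ≤ τ := by
    have := Nat.floor_le (by positivity : 0 ≤ τ / h)
    rw [← hi, le_div_iff₀ hh0] at this
    exact this
  have hi2 : τ ≤ h + i * h := by
    have := Nat.lt_floor_add_one (τ / h)
    rw [← hi, div_lt_iff₀ hh0] at this
    linarith
  have hin : i ≤ n := by
    have : (i : ℝ) * h < (n + 1) * h := by linarith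
    have h2 := lt_of_mul_lt_mul_right this hh0.le
    have h3 : i < n + 1 := by exact_mod_cast h2
    omega
  set ε := e / (130 * R) with hε
  have hε0 : 0 < ε := by positivity
  have hεR : ε * (130 * R) = e := by rw [hε]; field_simp
  have hε1 : ε ≤ 1 / 130 := by rw [hε, div_le_iff₀ (by positivity)]; linarith
  set γ := ε / (4 * R) with hγ
  have hγ0 : 0 < γ := by positivity
  have hγR : γ * (4 * R) = ε := by rw [hγ]; field_simp
  have hγi : 1 / γ = 520 * R ^ 2 / e := by rw [hγ, hε]; field_simp; ring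
  have hc : R = h + n * h := by linarith
  have hdep : ∀ τ', 0 ≤ τ' → ∀ x, ε * (kk u (τ' + R) x - kk u τ' x) ≤ ε * R / 2 := by
    intro τ' h0 x
    have := kk_le_kk_add hu h0 hR.le x
    nlinarith
  have hτbR : h + i * h ≤ R := by
    have : (i : ℝ) ≤ n := by exact_mod_cast hin
    nlinarith
  have hτb : 0 < h + i * h := by positivity
  have key := key_lemma hu hv (ε := ε) (ρ := R) (γ := γ) (T := T) (β := ε * R / 2)
    (Va := h + ε * R / 2) (Vc := (1 + ε) * (κ * R) + ε * R / 2)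
    (L := (1 + ε) * (κ * τ + e) - 64 * ε * R) (τa := h) (τb := h + i * h) (τc := R) (h := h)
    (i := i) (n := n) (xc := B0) (B0 := B0) hε0.le (by linarith) hR hγ0 hT hh0 hh0 hin rfl hc
    (by linarith) (by nlinarith) (fun y hy => (hg y (by rw [← hγi]; linarith)).1)
    (fun τ' h1 _ B _ => by
      have := hdep τ' (by linarith) B
      have h2 : 0 ≤ γ / 2 * ‖B - B0‖ ^ 2 := by positivity
      linarith)
    (by linarith) (by have : 0 ≤ (1 + ε) * (κ * R) := by positivity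
                      linarith)
    (fun B _ => ⟨B, by
      rw [Phi_eq, cst_self]
      have k1 := hdep h hh0.le B
      have k2 := kk_le_add hu hh0.le B
      have k3 : 0 ≤ γ * ‖B - B0‖ ^ 2 := by positivity
      have k4 : (1 + ε) * (kk u h B + 0 - u B) ≤ (1 + ε) * (h / 2) := by gcongr; linarith
      nlinarith⟩)
    (fun B hB => by
      obtain ⟨p, hp⟩ := (hg B (by rw [← hγi]; linarith)).2
      refine ⟨B - R • p, ?_⟩
      rw [Phi_eq]
      have k1 := hdep R hR.le (B - R • p)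
      have k2 := hp.vertex hR
      have k3 : 0 ≤ γ * ‖B - R • p - B0‖ ^ 2 := by positivity
      have k4 : (1 + ε) * (kk u R (B - R • p) + cst R (B - R • p) B - u B)
          ≤ (1 + ε) * (κ * R) := by gcongr; linarith
      linarith)
    (by rw [sub_self, norm_zero]; positivity)
    (fun x hx => by
      rw [Phi_eq]
      have k1 := not_par hu hτb (fun hp => hnp (hp.mono hτ hi2 le_rfl)) x
      have k2 := kk_mono hu hτb.le (by linarith : h + i * h ≤ h + i * h + R) x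
      have k3 : ‖x - B0‖ ^ 2 ≤ (16 * R) ^ 2 := by gcongr; linarith
      have k4 : γ * ‖x - B0‖ ^ 2 ≤ 64 * ε * R := by
        have : γ * (16 * R) ^ 2 = 64 * ε * R := by rw [← hγR]; ring
        rw [← this]; gcongr
      have k5 : (1 + ε) * (κ * τ + e) ≤ (1 + ε) * (kk u (h + i * h) x + cst (h + i * h) x B0
          - u B0) := by gcongr
      have k6 : 0 ≤ ε * (kk u (h + i * h + R) x - kk u (h + i * h) x) := by
        apply mul_nonneg hε0.le; linarith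
      linarith)
  have hih : 0 ≤ (i : ℝ) * h := by positivity
  exact LM_num hκ hκ1 he heR hhe hε0.le hε1 hεR (by linarith) hτbR (by linarith) hh0.le key

section transfer

variable {u v : E → ℝ} {ε ρ γ T F l w τc : ℝ} {xc p : E}

lemma N1 (hu : Lip u) (hv : ∀ x, v x = - u x) (hε : 0 ≤ ε) (hρ : 0 < ρ) (hρc : ρ ≤ τc)
    (hγ : γ * (4 * τc ^ 2) = ε * ρ) (hfl : Flat u v xc F l p w) (hF : 16 * τc ≤ F)
    (hT : 4 * τc ≤ T) {τ : ℝ} (hτ : 0 ≤ τ) (hτc : τ ≤ τc) {x : E} (hx : Cvx u T x) :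
    ε * (kk u (τ + ρ) x - kk u τ x) ≤ ε * ρ * (w + l * F / τc) + γ / 2 * ‖x - xc‖ ^ 2 := by
  have hτc0 : 0 < τc := by linarith
  have hF0 : 0 < F := by linarith
  have k1 := hx.slope (a := τ) (b := τ + ρ) (c := 2 * τc) (d := 2 * (2 * τc)) hτ (by linarith)
    (by linarith) (by linarith) (by linarith) (by linarith)
  have k2 := hfl.slope_upper hu hv (a := 2 * τc) (by positivity) (by linarith) (x - xc)
  rw [add_sub_cancel] at k2
  rw [add_sub_cancel_left, div_le_iff₀ hρ] at k1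
  have k3 : (kk u (2 * (2 * τc)) x - kk u (2 * τc) x) / (2 * (2 * τc) - 2 * τc)
      ≤ w + l * F / τc + ‖x - xc‖ ^ 2 / (8 * τc ^ 2) := by
    rw [div_le_iff₀ (by linarith)]
    have e1 : (w + l * F / τc + ‖x - xc‖ ^ 2 / (8 * τc ^ 2)) * (2 * (2 * τc) - 2 * τc)
        = 2 * τc * w + 2 * l * F + ‖x - xc‖ ^ 2 / (4 * τc) := by field_simp; ring
    have e2 : 3 * ‖x - xc‖ ^ 2 / F ≤ ‖x - xc‖ ^ 2 / (4 * τc) := by
      rw [div_le_div_iff₀ hF0 (by positivity)]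
      nlinarith [sq_nonneg ‖x - xc‖]
    linarith
  have k4 := mul_le_mul_of_nonneg_right k3 hρ.le
  have k5 := mul_le_mul_of_nonneg_left (k1.trans k4) hε
  have k6 : γ / 2 * ‖x - xc‖ ^ 2 = ε * ρ * (‖x - xc‖ ^ 2 / (8 * τc ^ 2)) := by
    rw [← hγ]; field_simp; ring
  linarith

/-- a nearly extremal configuration -/
def Ext (u : E → ℝ) (ε ρ γ β : ℝ) (xc : E) (τ e η : ℝ) : Prop :=
  ∃ B q, ‖B - xc‖ ≤ 1 / γ ∧ UpP u B τ e q ∧ γ / 2 * ‖B - τ • q - xc‖ ^ 2 < η ∧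
    β - η < ε * (kk u (τ + ρ) (B - τ • q) - kk u τ (B - τ • q)) ∧ ¬ Par u B τ (e - η)

lemma ext_or (hu : Lip u) (hv : ∀ x, v x = - u x) (hε : 0 ≤ ε) (hρ : 0 < ρ) (hρc : ρ ≤ τc)
    (hγ0 : 0 < γ) (hγ : γ * (4 * τc ^ 2) = ε * ρ) (hfl : Flat u v xc F l p w) (hF : 16 * τc ≤ F)
    (hT : 4 * τc ≤ T) (hg : ∀ y, ‖y - xc‖ ≤ 1 / γ + 20 * τc → Cvx u T y ∧ Cvx v T y)
    {τ e η : ℝ} (hτ : 0 < τ) (hτc : τ ≤ τc) (he : e ≤ 2 * τ) (hη : 0 ≤ η)
    (hpar : ∀ B, ‖B - xc‖ ≤ 1 / γ → Par u B τ e) :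
    (∀ B, ‖B - xc‖ ≤ 1 / γ →
      ∃ x, Phi u ε ρ γ xc τ B x ≤ (1 + ε) * e + ε * ρ * (w + l * F / τc) - η) ∨
    Ext u ε ρ γ (ε * ρ * (w + l * F / τc)) xc τ e η := by
  by_cases h : ∀ B, ‖B - xc‖ ≤ 1 / γ →
      ∃ x, Phi u ε ρ γ xc τ B x ≤ (1 + ε) * e + ε * ρ * (w + l * F / τc) - η
  · exact Or.inl h
  right
  push Not at h
  obtain ⟨B, hB, h⟩ := h
  have aux : ∀ e' q, e' ≤ e → UpP u B τ e' q →
      (1 + ε) * e + ε * ρ * (w + l * F / τc) - η < (1 + ε) * e'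
        + ε * (kk u (τ + ρ) (B - τ • q) - kk u τ (B - τ • q)) - γ * ‖B - τ • q - xc‖ ^ 2 ∧
      ε * (kk u (τ + ρ) (B - τ • q) - kk u τ (B - τ • q))
        ≤ ε * ρ * (w + l * F / τc) + γ / 2 * ‖B - τ • q - xc‖ ^ 2 := by
    intro e' q he' hq
    have k1 := h (B - τ • q)
    rw [Phi_eq] at k1
    have k2 := hq.vertex hτ
    have k3 : (1 + ε) * (kk u τ (B - τ • q) + cst τ (B - τ • q) B - u B) ≤ (1 + ε) * e' := by
      gcongr; linarith
    have k4 := hq.norm_le hu hτ (by linarith)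
    refine ⟨by linarith, N1 hu hv hε hρ hρc hγ hfl hF hT hτ.le hτc (hg _ ?_).1⟩
    have e1 : B - τ • q - xc = (B - xc) - τ • q := by abel
    have k5 := norm_sub_le (B - xc) (τ • q)
    rw [norm_smul, Real.norm_eq_abs, abs_of_pos hτ] at k5
    rw [e1]
    nlinarith
  obtain ⟨q, hq⟩ := hpar B hB
  obtain ⟨k1, k2⟩ := aux e q le_rfl hq
  have k3 : 0 ≤ γ / 2 * ‖B - τ • q - xc‖ ^ 2 := by positivity
  refine ⟨B, q, hB, hq, by linarith, by linarith, ?_⟩
  rintro ⟨q', hq'⟩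
  obtain ⟨k4, k5⟩ := aux (e - η) q' (by linarith) hq'
  have k6 : 0 ≤ γ / 2 * ‖B - τ • q' - xc‖ ^ 2 := by positivity
  nlinarith [mul_nonneg hε hη]

lemma lowerPhi (hu : Lip u) (hv : ∀ x, v x = - u x) (hε : 0 ≤ ε) (hρ : 0 < ρ) (hρc : ρ ≤ τc)
    (hγ : γ * (4 * τc ^ 2) = ε * ρ) (hfl : Flat u v xc F l p w) (hF : 16 * τc ≤ F)
    (hT : 4 * τc ≤ T) {τb eb em : ℝ} {B0 q0 : E} (hτb : 0 < τb) (hτbc : τb ≤ τc) (hε1 : ε ≤ 1)
    (hq0 : UpP v B0 τb em q0) (hxc : xc = B0 + τb • q0) (hnp : ¬ Par u B0 τb eb) (heb : 0 ≤ eb)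
    {x : E} (hx : Cvx u T x) :
    (1 + ε) * eb - 3 / 2 * (ε * ρ / τc) * (eb + em) + ε * ρ * (w - 2 * l * F / τb)
      ≤ Phi u ε ρ γ xc τb B0 x := by
  have hτc0 : 0 < τc := by linarith
  have hF0 : 0 < F := by linarith
  rw [Phi_eq]
  have k1 := not_par hu hτb hnp x
  have k2 := vertex_growth hu hv hτb hq0 x
  rw [← hxc] at k2
  have k3 := hx.sl_le_slope (a := τb) (c := τb) (d := τb + ρ) hτb hτb.le (by linarith)
    (by linarith) (by linarith)
  rw [add_sub_cancel_left, le_div_iff₀ hρ] at k3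
  have k4 := hfl.sl_lower hu hv (t := 0) hτb (by rw [abs_zero]; linarith)
    (by rw [zero_add, abs_of_pos hτb]; linarith) (x - xc)
  rw [zero_smul, add_zero, add_sub_cancel] at k4
  have hem := hq0.nonneg
  set a := kk u τb x + cst τb x B0 - u B0 with ha
  set D := ‖x - xc‖ ^ 2 with hD
  have hD0 : 0 ≤ D := by positivity
  have k5 : D ≤ 4 * τb * (a + em) := by
    have : D / (4 * τb) ≤ a + em := by linarith
    rw [div_le_iff₀ (by positivity)] at this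
    linarith
  have hγe : γ = ε * ρ / (4 * τc ^ 2) := by rw [← hγ]; field_simp
  have k6 : ε * ρ * (2 * D / F / τb) + γ * D ≤ 3 / 2 * (ε * ρ / τc) * (a + em) := by
    have m1 : 2 * D / F / τb ≤ (a + em) / (2 * τc) := by
      rw [div_div, div_le_div_iff₀ (by positivity) (by positivity)]
      have : 0 ≤ a + em := by linarith
      nlinarith [mul_le_mul_of_nonneg_left hF (mul_nonneg this hτb.le)]
    have m2 : D / (4 * τc ^ 2) ≤ (a + em) / τc := by
      rw [div_le_div_iff₀ (by positivity) (by positivity)]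
      have : 0 ≤ a + em := by linarith
      nlinarith [mul_le_mul_of_nonneg_left hτbc (mul_nonneg this hτc0.le)]
    have m3 : γ * D = ε * ρ * (D / (4 * τc ^ 2)) := by rw [hγe]; ring
    have m4 : 3 / 2 * (ε * ρ / τc) * (a + em)
        = ε * ρ * ((a + em) / (2 * τc)) + ε * ρ * ((a + em) / τc) := by field_simp; ring
    rw [m3, m4]
    gcongr
  have k7 : ε * ρ * (w - 2 * l * F / τb) - ε * ρ * (2 * D / F / τb)
      ≤ ε * (kk u (τb + ρ) x - kk u τb x) := by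
    have m1 := mul_le_mul_of_nonneg_right k4 hρ.le
    have m2 := mul_le_mul_of_nonneg_left (m1.trans k3) hε
    have m3 : ε * ((w - (2 * l * F + 2 * D / F) / τb) * ρ)
        = ε * ρ * (w - 2 * l * F / τb) - ε * ρ * (2 * D / F / τb) := by ring
    linarith
  have k8 : ε * ρ / τc ≤ ε := by
    rw [div_le_iff₀ hτc0]; gcongr
  have k9 : 0 ≤ (1 + ε - 3 / 2 * (ε * ρ / τc)) * (a - eb) :=
    mul_nonneg (by linarith) (by linarith)
  nlinarith

lemma transfer_num {τa τb τc ε eb em G w κ e ηa ηb ηc A B ρ : ℝ}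
    (key : (τc - τa) * ((1 + ε) * eb - 3 / 2 * G * (eb + em) + ε * ρ * (w - B))
      ≤ (τc - τb) * ((1 + ε) * (κ * τa + e) + ε * ρ * (w + A) - ηa)
        + (τb - τa) * ((1 + ε) * (κ * τc + e) + ε * ρ * (w + A) - ηc))
    (k1 : (τc - τa) * ((1 + ε) * (κ * τb + e - eb) + 3 / 2 * G * (eb + em) + ε * ρ * (A + B))
      ≤ (τc - τa) * ηb)
    (hη : (τc - τa) * ηb < (τc - τb) * ηa + (τb - τa) * ηc) : False := by
  linarith

lemma transfer [ProperSpace E] (hu : Lip u) (hv : ∀ x, v x = - u x) (hε : 0 < ε)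
    (hε1 : ε ≤ 1 / 2) (hρ : 0 < ρ) (hρc : ρ ≤ τc)
    (hγ : γ * (4 * τc ^ 2) = ε * ρ) (hfl : Flat u v xc F l p w) (hF : 16 * τc ≤ F)
    (hT : 4 * τc ≤ T) {τa τb h κ e eb em ηa ηb ηc : ℝ} {i n : ℕ} {B0 q0 : E} (ha : 0 < τa)
    (hh : 0 < h) (hi : i ≤ n) (hb : τb = τa + i * h) (hc : τc = τa + n * h)
    (hg : ∀ y, ‖y - xc‖ ≤ 1 / γ + 20 * τc → (Cvx u T y ∧ Cvx v T y) ∧
      Par u y τa (κ * τa + e) ∧ Par u y τc (κ * τc + e))
    (hea : κ * τa + e ≤ 2 * τa) (hec : κ * τc + e ≤ 2 * τc)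
    (hq0 : UpP v B0 τb em q0) (hem : em ≤ 2 * τb) (hxc : xc = B0 + τb • q0)
    (hnp : ¬ Par u B0 τb eb) (heb : 0 ≤ eb)
    (hηa : 0 ≤ ηa) (hηa' : ηa ≤ κ * τa + e) (hηc : 0 ≤ ηc) (hηc' : ηc ≤ κ * τc + e)
    (hηb : (1 + ε) * (κ * τb + e - eb) + 3 / 2 * (ε * ρ / τc) * (eb + em)
      + ε * ρ * (l * F / τc + 2 * l * F / τb) ≤ ηb)
    (hη : (τc - τa) * ηb < (τc - τb) * ηa + (τb - τa) * ηc) :
    Ext u ε ρ γ (ε * ρ * (w + l * F / τc)) xc τa (κ * τa + e) ηa ∨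
    Ext u ε ρ γ (ε * ρ * (w + l * F / τc)) xc τc (κ * τc + e) ηc := by
  have hτc0 : 0 < τc := by linarith
  have hγ0 : 0 < γ := by
    by_contra h
    push Not at h
    have : 0 < ε * ρ := by positivity
    nlinarith [sq_nonneg τc]
  have hab : τa ≤ τb := by
    have : 0 ≤ (i : ℝ) * h := by positivity
    linarith
  have hbc : τb ≤ τc := by
    have : (i : ℝ) ≤ n := by exact_mod_cast hi
    nlinarith
  have hτb : 0 < τb := by linarith
  have hγ8 : γ * (8 * τc) ≤ 1 := by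
    have : γ * (8 * τc) * τc ≤ 1 * τc := by nlinarith
    exact le_of_mul_le_mul_right this hτc0
  have hγi : 8 * τc ≤ 1 / γ := by rw [le_div_iff₀ hγ0]; linarith
  have hB0 : ‖B0 - xc‖ ≤ 4 * τc := by
    have k4 := hq0.norm_le (hu.neg hv) hτb hem
    rw [hxc, sub_add_cancel_left, norm_neg, norm_smul, Real.norm_eq_abs, abs_of_pos hτb]
    nlinarith
  rcases ext_or hu hv hε.le hρ hρc hγ0 hγ hfl hF hT (fun y hy => (hg y hy).1) ha (hab.trans hbc)
    hea hηa (fun B hB => (hg B (by linarith)).2.1) with Ha | Ha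
  swap
  · exact Or.inl Ha
  rcases ext_or hu hv hε.le hρ hρc hγ0 hγ hfl hF hT (fun y hy => (hg y hy).1) hτc0 le_rfl
    hec hηc (fun B hB => (hg B (by linarith)).2.2) with Hc | Hc
  swap
  · exact Or.inr Hc
  exfalso
  have hγ1 : γ * (2 * τc * (τc + ρ)) ≤ ε * ρ := by
    rw [← hγ]
    have : 2 * τc * (τc + ρ) ≤ 2 * τc * (τc + τc) := by gcongr
    have h2 := mul_le_mul_of_nonneg_left this hγ0.le
    linarith
  have hVa : 0 ≤ ε * (κ * τa + e) := mul_nonneg hε.le (by linarith)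
  have hVc : 0 ≤ ε * (κ * τc + e) := mul_nonneg hε.le (by linarith)
  have key := key_lemma hu hv (T := T) (β := ε * ρ * (w + l * F / τc)) (B0 := B0) hε.le
    (by linarith) hρ hγ0 (by linarith) ha hh hi hb hc hγ8 hγ1
    (fun y hy => (hg y (by linarith)).1)
    (fun τ h1 h2 B hB => N1 hu hv hε.le hρ hρc hγ hfl hF hT (by linarith) h2
      (hg B (by linarith)).1.1)
    (by linarith) (by linarith) Ha Hc (by linarith)
    (fun x hx => lowerPhi hu hv hε.le hρ hρc hγ hfl hF hT hτb hbc (by linarith) hq0 hxc hnp heb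
      (hg x (by
        have := norm_sub_le_norm_sub_add_norm_sub x B0 xc
        linarith)).1.1)
  have k1 := mul_le_mul_of_nonneg_left hηb (by linarith : 0 ≤ τc - τa)
  exact transfer_num key k1 hη

end transfer

end Vale.Agent.P080
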