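import Vale.Agent.P080.Iterate

namespace Vale.Agent.P080

open Metric Set Filter Topology
open scoped RealInnerProductSpace

variable {E : Type*} [NormedAddCommGroup E] [InnerProductSpace ℝ E]

noncomputable def poly (x : E) (B C : ℝ) (w : E) : ℝ := B * ‖w - x‖ ^ 2 + C * (‖w - x‖ ^ 2) ^ 2

lemma poly_contDiff (x : E) (B C : ℝ) : ContDiff ℝ 2 (poly x B C) := by
  have h : ContDiff ℝ 2 (fun w : E => ‖w - x‖ ^ 2) := (contDiff_id.sub contDiff_const).norm_sq ℝ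
  exact (contDiff_const.mul h).add (contDiff_const.mul (h.pow 2))

lemma hasFDerivAt_sq (x w : E) :
    HasFDerivAt (fun w : E => ‖w - x‖ ^ 2) ((2 : ℝ) • innerSL ℝ (w - x)) w := by
  have h := ((hasFDerivAt_id w).sub_const x).norm_sq
  refine h.congr_fderiv ?_
  ext v
  simp [two_smul]

lemma poly_hasFDerivAt (x : E) (B C : ℝ) (w : E) :
    HasFDerivAt (poly x B C) ((2 * (B + 2 * C * ‖w - x‖ ^ 2)) • innerSL ℝ (w - x)) w := by
  have h := hasFDerivAt_sq x w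
  have h2 := (h.const_mul B).add ((h.pow 2).const_mul C)
  refine h2.congr_fderiv ?_
  ext v
  simp
  ring

lemma poly_fderiv (x : E) (B C : ℝ) :
    fderiv ℝ (poly x B C) = fun w => (2 * (B + 2 * C * ‖w - x‖ ^ 2)) • innerSL ℝ (w - x) :=
  funext fun w => (poly_hasFDerivAt x B C w).fderiv

lemma poly_gradient [CompleteSpace E] (x : E) (B C : ℝ) (w : E) :
    gradient (poly x B C) w = (2 * (B + 2 * C * ‖w - x‖ ^ 2)) • (w - x) := by
  apply HasGradientAt.gradient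
  rw [hasGradientAt_iff_hasFDerivAt]
  refine (poly_hasFDerivAt x B C w).congr_fderiv ?_
  ext v
  simp

lemma poly_second (x : E) (B C : ℝ) (w g : E) :
    fderiv ℝ (fderiv ℝ (poly x B C)) w g g
      = 2 * (B + 2 * C * ‖w - x‖ ^ 2) * ‖g‖ ^ 2 + 8 * C * ⟪w - x, g⟫ ^ 2 := by
  rw [poly_fderiv]
  have h := hasFDerivAt_sq x w
  have h1 := ((h.const_mul (2 * C)).const_add B).const_mul 2
  have h2 : HasFDerivAt (fun w : E => innerSL ℝ (w - x)) (innerSL ℝ) w := by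
    have := (innerSL ℝ (E := E)).hasFDerivAt (x := w - x) |>.comp w
      ((hasFDerivAt_id w).sub_const x)
    rw [ContinuousLinearMap.comp_id] at this
    exact this
  have h3 := h1.smul h2
  have h4 := h3.fderiv
  have e : (fun w : E => (2 * (B + 2 * C * ‖w - x‖ ^ 2)) • innerSL ℝ (w - x))
      = (fun w : E => 2 * (B + 2 * C * ‖w - x‖ ^ 2)) • fun w : E => innerSL ℝ (w - x) := rfl
  rw [e, h4]
  have e2 : innerSL ℝ g g = ‖g‖ ^ 2 := real_inner_self_eq_norm_sq g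
  simp only [add_apply, smul_apply,
    ContinuousLinearMap.smulRight_apply, smul_eq_mul, innerSL_apply_apply, e2]
  ring

lemma poly_infLap [CompleteSpace E] (x : E) (B C : ℝ) (w : E) :
    fderiv ℝ (fderiv ℝ (poly x B C)) w (gradient (poly x B C) w) (gradient (poly x B C) w)
      = 8 * (‖w - x‖ ^ 2 * (B + 2 * C * ‖w - x‖ ^ 2) ^ 2 * (B + 6 * C * ‖w - x‖ ^ 2)) := by
  rw [poly_second, poly_gradient, sq_smul, inner_smul_right, real_inner_self_eq_norm_sq]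
  ring

def SubP (u : E → ℝ) (Ω : Set E) : Prop :=
  ∀ x : E, ∀ y ∈ Ω, ∀ B C : ℝ, IsLocalMax (fun w => u w - poly x B C w) y →
    0 ≤ ‖y - x‖ ^ 2 * (B + 2 * C * ‖y - x‖ ^ 2) ^ 2 * (B + 6 * C * ‖y - x‖ ^ 2)

/-- convexity of the maximum over balls (comparison with cones) -/
def CC (u : E → ℝ) (x : E) (r : ℝ) : Prop :=
  ∀ ρ₁ ρ ρ₂ M₁ M₂ : ℝ, 0 ≤ ρ₁ → ρ₁ ≤ ρ → ρ ≤ ρ₂ → ρ₂ ≤ r →
    (∀ y, ‖y - x‖ ≤ ρ₁ → u y ≤ M₁) → (∀ y, ‖y - x‖ ≤ ρ₂ → u y ≤ M₂) →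
    ∀ y, ‖y - x‖ ≤ ρ → (ρ₂ - ρ₁) * u y ≤ (ρ₂ - ρ) * M₁ + (ρ - ρ₁) * M₂

lemma majorant {t ρ ϑ : ℝ} (hρ : 0 < ρ) (h : (1 - ϑ) * (t + ρ) ^ 2 ≤ 4 * ρ ^ 2) :
    t ≤ ρ + (t ^ 2 - ρ ^ 2) / (2 * ρ) - (1 - ϑ) / (8 * ρ ^ 3) * (t ^ 2 - ρ ^ 2) ^ 2 := by
  have e : ρ + (t ^ 2 - ρ ^ 2) / (2 * ρ) - (1 - ϑ) / (8 * ρ ^ 3) * (t ^ 2 - ρ ^ 2) ^ 2 - t
      = (t - ρ) ^ 2 * (4 * ρ ^ 2 - (1 - ϑ) * (t + ρ) ^ 2) / (8 * ρ ^ 3) := by
    field_simp; ring
  have : 0 ≤ (t - ρ) ^ 2 * (4 * ρ ^ 2 - (1 - ϑ) * (t + ρ) ^ 2) / (8 * ρ ^ 3) := by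
    have : 0 ≤ 4 * ρ ^ 2 - (1 - ϑ) * (t + ρ) ^ 2 := by linarith
    positivity
  linarith

omit [InnerProductSpace ℝ E] in
lemma no_interior_max {u : E → ℝ} {Ω : Set E} (hs : SubP u Ω) {x y : E} (hy : y ∈ Ω) {b η : ℝ}
    (hη : 0 < η) (hρ : 0 < ‖y - x‖) (hb : η * ‖y - x‖ < b)
    (hmax : IsLocalMax (fun w => u w - (b * ‖w - x‖ - η * ‖w - x‖ ^ 2 / 2)) y) : False := by
  set ρ := ‖y - x‖ with hρdef
  have hb0 : 0 < b := lt_trans (by positivity) hb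
  set ϑ := η * ρ / (2 * b) with hϑ
  have hϑ0 : 0 < ϑ := by positivity
  set B := b / (2 * ρ) - η / 2 with hB
  set C := b * ((1 - ϑ) / (8 * ρ ^ 3)) with hC
  have hB0 : 0 < B := by
    have : η / 2 < b / (2 * ρ) := by rw [lt_div_iff₀ (by positivity)]; linarith
    linarith
  have hBC : B - 4 * C * ρ ^ 2 = -(η / 4) := by
    rw [hB, hC, hϑ]; field_simp; ring
  have hev : ∀ᶠ w in 𝓝 y, (1 - ϑ) * (‖w - x‖ + ρ) ^ 2 < 4 * ρ ^ 2 := by
    apply ContinuousAt.eventually_lt (by fun_prop) continuousAt_const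
    change (1 - ϑ) * (ρ + ρ) ^ 2 < 4 * ρ ^ 2
    nlinarith [mul_pos hϑ0 (pow_pos hρ 2)]
  have hloc : IsLocalMax (fun w => u w - poly x (B + 2 * C * ρ ^ 2) (-C) w) y := by
    filter_upwards [hmax, hev] with w h1 h2
    have h3 := mul_le_mul_of_nonneg_left (majorant hρ h2.le) hb0.le
    unfold poly
    rw [← hρdef] at h1 ⊢
    set t := ‖w - x‖
    have e1 : b * (ρ + (t ^ 2 - ρ ^ 2) / (2 * ρ) - (1 - ϑ) / (8 * ρ ^ 3) * (t ^ 2 - ρ ^ 2) ^ 2)
        = b * ρ + (B + η / 2) * (t ^ 2 - ρ ^ 2) - C * (t ^ 2 - ρ ^ 2) ^ 2 := by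
      rw [hB, hC]; ring
    rw [e1] at h3
    linarith
  have h := hs x y hy _ _ hloc
  rw [← hρdef] at h
  have e2 : B + 2 * C * ρ ^ 2 + 2 * -C * ρ ^ 2 = B := by ring
  have e3 : B + 2 * C * ρ ^ 2 + 6 * -C * ρ ^ 2 = -(η / 4) := by linarith
  rw [e2, e3] at h
  have : 0 < ρ ^ 2 * B ^ 2 * (η / 4) := by positivity
  linarith

omit [InnerProductSpace ℝ E] in
lemma cc_of_subP [ProperSpace E] {u : E → ℝ} {Ω : Set E} (hc : ContinuousOn u Ω) (hs : SubP u Ω)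
    {x : E} {r : ℝ} (hr : closedBall x r ⊆ Ω) : CC u x r := by
  intro ρ₁ ρ ρ₂ M₁ M₂ h0 h1 h2 h3 hM1 hM2 y hy
  by_contra hcon
  push Not at hcon
  have hy2 := hM2 y (hy.trans h2)
  have h12 : ρ₁ < ρ₂ := by
    rcases (h1.trans h2).eq_or_lt with h | h
    · have : ρ = ρ₁ := by linarith
      rw [this, ← h] at hcon
      simp at hcon
    · exact h
  have hM : M₂ > M₁ := by
    by_contra h
    push Not at h
    nlinarith [mul_le_mul_of_nonneg_left h (sub_nonneg.2 h2),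
      mul_le_mul_of_nonneg_left hy2 (sub_nonneg.2 h12.le)]
  set b := (M₂ - M₁) / (ρ₂ - ρ₁) with hb
  have hb0 : 0 ≤ b := div_nonneg (by linarith) (by linarith)
  have hbM : b * (ρ₂ - ρ₁) = M₂ - M₁ := by rw [hb]; field_simp [sub_ne_zero.2 h12.ne']
  have hgap : M₁ + b * (ρ - ρ₁) < u y := by
    have : (ρ₂ - ρ₁) * (M₁ + b * (ρ - ρ₁)) < (ρ₂ - ρ₁) * u y := by
      have e : (ρ₂ - ρ₁) * (M₁ + b * (ρ - ρ₁)) = (ρ₂ - ρ₁) * M₁ + b * (ρ₂ - ρ₁) * (ρ - ρ₁) := by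
        ring
      rw [e, hbM]; linarith
    exact lt_of_mul_lt_mul_left this (by linarith)
  have hy1 : ρ₁ < ‖y - x‖ := by
    by_contra h
    push Not at h
    have := hM1 y h
    nlinarith [mul_nonneg hb0 (sub_nonneg.2 h1)]
  have hgap2 : 0 < u y - (M₁ + b * (‖y - x‖ - ρ₁)) := by
    have : b * (‖y - x‖ - ρ₁) ≤ b * (ρ - ρ₁) := by gcongr
    linarith
  set G := u y - (M₁ + b * (‖y - x‖ - ρ₁)) with hG
  have hρ₂ : 0 < ρ₂ := by linarith
  set K := ρ₂ + 1 with hK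
  have hK0 : 0 < K := by positivity
  set η := G / (2 * K * ρ₂) with hη
  have hη0 : 0 < η := by positivity
  have hηG : η * K * ρ₂ = G / 2 := by rw [hη]; field_simp
  set A : Set E := closedBall x ρ₂ \ ball x ρ₁ with hA
  have hAc : IsCompact A := (isCompact_closedBall x ρ₂).diff isOpen_ball
  have hAΩ : A ⊆ Ω := sdiff_subset.trans ((closedBall_subset_closedBall h3).trans hr)
  have hyA : y ∈ A := by
    refine ⟨?_, ?_⟩
    · rw [mem_closedBall, dist_eq_norm]; linarith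
    · rw [mem_ball, dist_eq_norm]; linarith
  have hWc : ContinuousOn (fun w => u w - ((b + η * K) * ‖w - x‖ - η * ‖w - x‖ ^ 2 / 2)) A :=
    (hc.mono hAΩ).sub (by fun_prop)
  obtain ⟨y0, hy0, hmax⟩ := hAc.exists_isMaxOn ⟨y, hyA⟩ hWc
  have k1 : u y - ((b + η * K) * ‖y - x‖ - η * ‖y - x‖ ^ 2 / 2)
      ≤ u y0 - ((b + η * K) * ‖y0 - x‖ - η * ‖y0 - x‖ ^ 2 / 2) := hmax hyA
  have k2 : η * K * ‖y - x‖ ≤ η * K * ρ₂ := by gcongr; linarith
  have k3 : 0 ≤ η * ‖y - x‖ ^ 2 / 2 := by positivity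
  have hy01 : ρ₁ ≤ ‖y0 - x‖ := by
    have := hy0.2
    rwa [mem_ball, dist_eq_norm, not_lt] at this
  have hy02 : ‖y0 - x‖ ≤ ρ₂ := by
    have := hy0.1
    rwa [mem_closedBall, dist_eq_norm] at this
  have k4 : η * ‖y0 - x‖ ^ 2 / 2 ≤ η * K * ‖y0 - x‖ := by
    have : η * ‖y0 - x‖ * ‖y0 - x‖ ≤ η * ‖y0 - x‖ * K := by gcongr; linarith
    have h5 : 0 ≤ η * ‖y0 - x‖ * K := by positivity
    nlinarith
  have k5 : M₁ + b * (‖y0 - x‖ - ρ₁) < u y0 := by linarith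
  have k6 : ρ₁ < ‖y0 - x‖ := by
    rcases hy01.eq_or_lt with h | h
    · have := hM1 y0 h.ge
      rw [← h] at k5
      linarith
    · exact h
  have k7 : ‖y0 - x‖ < ρ₂ := by
    rcases hy02.eq_or_lt with h | h
    · have := hM2 y0 h.le
      rw [h] at k5
      linarith
    · exact h
  have hnhds : A ∈ 𝓝 y0 := by
    have m1 : ∀ᶠ w in 𝓝 y0, ρ₁ < ‖w - x‖ :=
      ContinuousAt.eventually_lt continuousAt_const (by fun_prop) k6
    have m2 : ∀ᶠ w in 𝓝 y0, ‖w - x‖ < ρ₂ :=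
      ContinuousAt.eventually_lt (by fun_prop) continuousAt_const k7
    filter_upwards [m1, m2] with w w1 w2
    refine ⟨?_, ?_⟩
    · rw [mem_closedBall, dist_eq_norm]; linarith
    · rw [mem_ball, dist_eq_norm]; linarith
  refine no_interior_max hs (hAΩ hy0) hη0 (by linarith) (b := b + η * K) ?_
    (hmax.isLocalMax hnhds)
  have : η * ‖y0 - x‖ < η * K := by gcongr; linarith
  linarith

omit [InnerProductSpace ℝ E] in
lemma CC.lip {u : E → ℝ} {x y : E} (h : CC u x (1 / 8))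
    (hK : ∀ w, ‖w - x‖ ≤ 1 / 8 → u w - u x ≤ 1 / 8) (hy : u y - u x ≤ 1 / 8) :
    u y - u x ≤ ‖y - x‖ := by
  by_cases h1 : ‖y - x‖ ≤ 1 / 8
  · have := h 0 ‖y - x‖ (1 / 8) (u x) (u x + 1 / 8) le_rfl (norm_nonneg _) h1 le_rfl
      (fun w hw => by
        have : w = x := by rwa [norm_le_zero_iff, sub_eq_zero] at hw
        rw [this])
      (fun w hw => by linarith [hK w hw]) y le_rfl
    linarith
  · push Not at h1
    linarith

lemma CC.cvx [ProperSpace E] {u : E → ℝ} (hu : Lip u) {x : E} (h : CC u x (1 / 8)) :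
    Cvx u (1 / 16) x := by
  intro a b c ha hab hbc hc
  rcases (ha.trans hab).eq_or_lt with hb | hb
  · have : a = 0 := by linarith
    rw [← hb, this]; simp
  obtain ⟨y, hy, hy2⟩ := exists_max hu hb x
  set ρ := ‖x - y‖ with hρ
  have hρ0 : 0 ≤ ρ := norm_nonneg _
  have hbound : ∀ τ, 0 ≤ τ → ∀ w, ‖w - x‖ ≤ ρ * τ / b → u w ≤ kk u τ x + ρ ^ 2 * τ / (2 * b ^ 2) := by
    intro τ hτ w hw
    rcases hτ.eq_or_lt with h0 | h0
    · rw [← h0] at hw ⊢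
      have : w = x := by
        rw [mul_zero, zero_div] at hw
        rwa [norm_le_zero_iff, sub_eq_zero] at hw
      rw [this, kk_zero]; simp
    · have h1 := le_kk hu h0 x w
      have h2 : cst τ x w ≤ ρ ^ 2 * τ / (2 * b ^ 2) := by
        unfold cst
        rw [norm_sub_rev]
        have : (ρ * τ / b) ^ 2 / (2 * τ) = ρ ^ 2 * τ / (2 * b ^ 2) := by field_simp
        rw [← this]; gcongr
      linarith
  have hρb : ρ / b ≤ 2 := by rw [div_le_iff₀ hb]; linarith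
  have key := h (ρ * a / b) ρ (ρ * c / b) _ _ (by positivity)
    (by rw [div_le_iff₀ hb]; gcongr) (by rw [le_div_iff₀ hb]; gcongr)
    (by
      have : ρ * c / b = ρ / b * c := by ring
      rw [this]
      nlinarith) (hbound a ha) (hbound c (by linarith)) y (by rw [norm_sub_rev])
  rcases hρ0.eq_or_lt with h0 | h0
  · have h1 : y = x := by
      have : ‖x - y‖ = 0 := h0.symm
      rw [norm_eq_zero, sub_eq_zero] at this
      exact this.symm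
    rw [h1, cst_self, sub_zero] at hy
    have h2 := self_le_kk hu ha x
    have h3 := self_le_kk hu (by linarith : 0 ≤ c) x
    rw [hy]
    nlinarith [mul_le_mul_of_nonneg_left h2 (sub_nonneg.2 hbc),
      mul_le_mul_of_nonneg_left h3 (sub_nonneg.2 hab)]
  · have e0 : cst b x y = ρ ^ 2 / (2 * b) := rfl
    have e1 : (ρ * c / b - ρ * a / b) * u y = ρ / b * ((c - a) * u y) := by ring
    have e2 : (ρ * c / b - ρ) * (kk u a x + ρ ^ 2 * a / (2 * b ^ 2))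
        + (ρ - ρ * a / b) * (kk u c x + ρ ^ 2 * c / (2 * b ^ 2))
        = ρ / b * ((c - b) * kk u a x + (b - a) * kk u c x + (c - a) * (ρ ^ 2 / (2 * b))) := by
      field_simp; ring
    rw [e1, e2] at key
    have := le_of_mul_le_mul_left key (by positivity)
    rw [hy, e0]
    linarith

end Vale.Agent.P080
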